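import Mathlib
import Crest.Prelude.Def_AsymptoticConvexity

/-!
Common tools for the AMUC row (S0166-S0169), package P0.

Everything is stated for an unbundled real normed space `X : Type`; the bundled notions of
`Crest.AnalysisR.RealBanach` unfold definitionally to these (`bundle X`, lemmas `*_iff`, all `Iff.rfl`).
-/

open Crest.AnalysisR

namespace Crest.Agent.AMUC

variable {X : Type} [NormedAddCommGroup X] [NormedSpace ℝ X]

/-- closed finite-codimensional subspaces, as sets. -/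
def Cof (F : Set X) : Prop :=
  ∃ S : Submodule ℝ X, (S : Set X) = F ∧ IsClosed F ∧ FiniteDimensional ℝ (X ⧸ S)

/-- equivalent norms. -/
def EquivNorm (N : X → ℝ) : Prop :=
  (∀ x y : X, N (x + y) ≤ N x + N y) ∧ (∀ (a : ℝ) (x : X), N (a • x) = abs a * N x) ∧
    ∃ a b : ℝ, 0 < a ∧ ∀ x : X, a * ‖x‖ ≤ N x ∧ N x ≤ b * ‖x‖

/-- asymptotic uniform convexity of `N`. -/
def AUC (N : X → ℝ) : Prop :=
  ∀ t : ℝ, 0 < t → ∃ c : ℝ, 0 < c ∧ ∀ x : X, N x = 1 → ∃ F : Set X, Cof F ∧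
    ∀ y ∈ F, N y = 1 → c ≤ N (x + t • y) - 1

/-- the bundled space. -/
def bundle (X : Type) [i1 : NormedAddCommGroup X] [i2 : NormedSpace ℝ X] [i3 : CompleteSpace X] :
    RealBanach := ⟨X, i1, i2, i3⟩

section bundle
variable [CompleteSpace X]
lemma isCof_iff (F : Set X) : (bundle X).IsCof F ↔ Cof F := Iff.rfl
lemma isEquivNorm_iff (N : X → ℝ) : (bundle X).IsEquivNorm N ↔ EquivNorm N := Iff.rfl
lemma isAUC_iff (N : X → ℝ) : (bundle X).IsAUC N ↔ AUC N := Iff.rfl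
end bundle

/-- The tree property: `z` is the root of a weakly-null-like tree of height `j`, with all nodes in the
ball of radius `B` and all increments of norm at least `d`. -/
def TreeProp (B d : ℝ) : ℕ → X → Prop
  | 0, z => ‖z‖ ≤ B
  | j + 1, z => ‖z‖ ≤ B ∧ ∀ F : Set X, Cof F → ∀ ε : ℝ, 0 < ε →
      ∃ z' y : X, y ∈ F ∧ ‖z' - z - y‖ < ε ∧ d ≤ ‖z' - z‖ ∧ TreeProp B d j z'

lemma TreeProp.norm_le {B d : ℝ} {j : ℕ} {z : X} (h : TreeProp B d j z) : ‖z‖ ≤ B := by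
  cases j with
  | zero => exact h
  | succ j => exact h.1


/-! ### closure properties of `Cof` sets -/

lemma Cof.zero_mem {F : Set X} (h : Cof F) : (0 : X) ∈ F := by
  obtain ⟨S, rfl, -, -⟩ := h; exact S.zero_mem

lemma Cof.add_mem {F : Set X} (h : Cof F) {x y : X} (hx : x ∈ F) (hy : y ∈ F) : x + y ∈ F := by
  obtain ⟨S, rfl, -, -⟩ := h; exact S.add_mem hx hy

lemma Cof.sub_mem {F : Set X} (h : Cof F) {x y : X} (hx : x ∈ F) (hy : y ∈ F) : x - y ∈ F := by
  obtain ⟨S, rfl, -, -⟩ := h; exact S.sub_mem hx hy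

lemma Cof.neg_mem {F : Set X} (h : Cof F) {x : X} (hx : x ∈ F) : -x ∈ F := by
  obtain ⟨S, rfl, -, -⟩ := h; exact S.neg_mem hx

lemma Cof.smul_mem {F : Set X} (h : Cof F) (c : ℝ) {x : X} (hx : x ∈ F) : c • x ∈ F := by
  obtain ⟨S, rfl, -, -⟩ := h; exact S.smul_mem c hx

theorem cof_univ : Cof (Set.univ : Set X) :=
  ⟨⊤, rfl, isClosed_univ, inferInstance⟩

theorem cof_iInter_ker {ι : Type} [Finite ι] (φ : ι → X →L[ℝ] ℝ) :
    Cof {x : X | ∀ i, φ i x = 0} := by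
  classical
  haveI := Fintype.ofFinite ι
  let Φ : X →ₗ[ℝ] (ι → ℝ) := LinearMap.pi (fun i => (φ i : X →ₗ[ℝ] ℝ))
  refine ⟨LinearMap.ker Φ, ?_, ?_, ?_⟩
  · ext x
    simp only [SetLike.mem_coe, LinearMap.mem_ker, Set.mem_setOf_eq]
    constructor
    · intro h i; exact congrFun h i
    · intro h; funext i; exact h i
  · have : {x : X | ∀ i, φ i x = 0} = ⋂ i, {x | φ i x = 0} := by ext x; simp
    rw [this]
    exact isClosed_iInter (fun i => isClosed_eq (φ i).continuous continuous_const)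
  · exact LinearEquiv.finiteDimensional (Φ.quotKerEquivRange).symm

theorem Cof.inter {F G : Set X} (hF : Cof F) (hG : Cof G) : Cof (F ∩ G) := by
  obtain ⟨S, rfl, hS, hSf⟩ := hF
  obtain ⟨T, rfl, hT, hTf⟩ := hG
  refine ⟨S ⊓ T, rfl, hS.inter hT, ?_⟩
  -- X/(S ⊓ T) embeds into X/S × X/T
  let Φ : X →ₗ[ℝ] (X ⧸ S) × (X ⧸ T) := LinearMap.prod S.mkQ T.mkQ
  have hker : LinearMap.ker Φ = S ⊓ T := by
    ext x
    simp [Φ, LinearMap.mem_ker, Prod.ext_iff]
  rw [← hker]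
  exact LinearEquiv.finiteDimensional (Φ.quotKerEquivRange).symm

theorem equivNorm_norm : EquivNorm (fun x : X => ‖x‖) :=
  ⟨norm_add_le, fun a x => by simp [norm_smul], 1, 1, one_pos, fun x => by simp⟩

theorem not_finiteDimensional_of_noAUC (h : ∀ N : X → ℝ, EquivNorm N → ¬ AUC N) :
    ¬ FiniteDimensional ℝ X := by
  intro hfd
  refine h _ equivNorm_norm ?_
  intro t _
  refine ⟨1, one_pos, fun x _ => ⟨{0}, ⟨⊥, by simp, isClosed_singleton, inferInstance⟩, ?_⟩⟩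
  intro y hy hy1
  rw [Set.mem_singleton_iff] at hy
  simp [hy] at hy1

end Crest.Agent.AMUC
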