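import Mathlib

/-! Small slices at extreme points of compact convex sets, and approximation of the points of a
compact convex set by convex combinations of points with small slices
(helper2, package P4 (iii)). -/

set_option autoImplicit false

namespace Crest.Agent.AMUC

open Set Topology

variable {V : Type*} [NormedAddCommGroup V] [NormedSpace ℝ V]

theorem isCompact_convexJoin {s t : Set V} (hs : IsCompact s) (ht : IsCompact t) :
    IsCompact (convexJoin ℝ s t) := by
  have h1 : IsCompact ((s ×ˢ t) ×ˢ (Set.Icc (0 : ℝ) 1)) := (hs.prod ht).prod isCompact_Icc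
  have h2 : Continuous (fun p : (V × V) × ℝ => (1 - p.2) • p.1.1 + p.2 • p.1.2) := by fun_prop
  have h3 : convexJoin ℝ s t
      = (fun p : (V × V) × ℝ => (1 - p.2) • p.1.1 + p.2 • p.1.2) ''
        ((s ×ˢ t) ×ˢ (Set.Icc (0 : ℝ) 1)) := by
    ext x
    rw [mem_convexJoin]
    constructor
    · rintro ⟨a, ha, b, hb, hx⟩
      rw [segment_eq_image] at hx
      obtain ⟨θ, hθ, rfl⟩ := hx
      exact ⟨((a, b), θ), ⟨⟨ha, hb⟩, hθ⟩, rfl⟩
    · rintro ⟨⟨⟨a, b⟩, θ⟩, ⟨⟨ha, hb⟩, hθ⟩, rfl⟩
      refine ⟨a, ha, b, hb, ?_⟩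
      rw [segment_eq_image]
      exact ⟨θ, hθ, rfl⟩
  rw [h3]
  exact h1.image h2

/-- Choquet's lemma: an extreme point of a compact convex set has arbitrarily small slices. -/
theorem exists_small_slice_of_extreme {K : Set V} (hK : IsCompact K) (hc : Convex ℝ K) {v : V}
    (hv : v ∈ K.extremePoints ℝ) {ε : ℝ} (hε : 0 < ε) :
    ∃ (φ : V →L[ℝ] ℝ) (α : ℝ), α < φ v ∧ ∀ u ∈ K, α < φ u → ‖u - v‖ < ε := by
  have hK' : IsCompact (K \ Metric.ball v ε) := hK.diff Metric.isOpen_ball
  have hext := mem_extremePoints_iff_forall_segment.mp hv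
  have key : ∃ C : Set V, IsCompact C ∧ Convex ℝ C ∧ (K \ Metric.ball v ε) ⊆ C ∧ C ⊆ K ∧ v ∉ C := by
    refine hK'.induction_on (p := fun A => ∃ C : Set V, IsCompact C ∧ Convex ℝ C ∧ A ⊆ C ∧
      C ⊆ K ∧ v ∉ C) ?_ ?_ ?_ ?_
    · exact ⟨∅, isCompact_empty, convex_empty, Subset.rfl, empty_subset _, fun h => h⟩
    · rintro A B hAB ⟨C, h1, h2, h3, h4, h5⟩
      exact ⟨C, h1, h2, hAB.trans h3, h4, h5⟩
    · rintro A B ⟨C, h1, h2, h3, h4, h5⟩ ⟨C', h1', h2', h3', h4', h5'⟩
      rcases C.eq_empty_or_nonempty with hC | hC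
      · subst hC
        refine ⟨C', h1', h2', ?_, h4', h5'⟩
        rw [subset_empty_iff.mp h3, empty_union]
        exact h3'
      rcases C'.eq_empty_or_nonempty with hC' | hC'
      · subst hC'
        refine ⟨C, h1, h2, ?_, h4, h5⟩
        rw [subset_empty_iff.mp h3', union_empty]
        exact h3
      refine ⟨convexJoin ℝ C C', isCompact_convexJoin h1 h1', h2.convexJoin h2', ?_,
        convexJoin_subset h4 h4' hc, ?_⟩
      · exact union_subset (h3.trans (subset_convexJoin_left hC'))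
          (h3'.trans (subset_convexJoin_right hC))
      · intro hmem
        rw [mem_convexJoin] at hmem
        obtain ⟨a, ha, b, hb, hx⟩ := hmem
        rcases hext.2 a (h4 ha) b (h4' hb) hx with rfl | rfl
        · exact h5 ha
        · exact h5' hb
    · intro x hx
      refine ⟨Metric.closedBall x (ε / 2) ∩ (K \ Metric.ball v ε), ?_,
        Metric.closedBall x (ε / 2) ∩ K, ?_, ?_, ?_, inter_subset_right, ?_⟩
      · exact Filter.inter_mem (mem_nhdsWithin_of_mem_nhds (Metric.closedBall_mem_nhds x (by linarith))) self_mem_nhdsWithin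
      · exact hK.inter_left Metric.isClosed_closedBall
      · exact (convex_closedBall x (ε / 2)).inter hc
      · exact inter_subset_inter_right _ sdiff_subset
      · intro hmem
        have h1 : dist v x ≤ ε / 2 := Metric.mem_closedBall.mp hmem.1
        have h2 : ¬ dist x v < ε := fun h => hx.2 (Metric.mem_ball.mpr h)
        rw [dist_comm] at h1
        linarith
  obtain ⟨C, h1, h2, h3, -, h5⟩ := key
  obtain ⟨f, u, hf1, hf2⟩ := geometric_hahn_banach_closed_point h2 h1.isClosed h5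
  refine ⟨f, u, hf2, ?_⟩
  intro w hw hwu
  by_contra hcon
  have : w ∈ K \ Metric.ball v ε := by
    refine ⟨hw, fun h => hcon ?_⟩
    rw [← dist_eq_norm]
    exact Metric.mem_ball.mp h
  exact absurd (hf1 w (h3 this)) (not_lt.mpr hwu.le)

/-- Every point of a compact convex set is approximated by a convex combination of points of the
set which have small slices. -/
theorem exists_small_slices {K : Set V} (hK : IsCompact K) (hc : Convex ℝ K) {q : V}
    (hq : q ∈ K) {ε : ℝ} (hε : 0 < ε) :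
    ∃ (ι : Type) (_ : Fintype ι) (l : ι → ℝ) (v : ι → V) (φ : ι → V →L[ℝ] ℝ) (α : ι → ℝ),
      (∀ k, 0 ≤ l k) ∧ ∑ k, l k = 1 ∧ (∀ k, v k ∈ K ∧ α k < φ k (v k)) ∧
      (∀ k, ∀ u ∈ K, α k < φ k u → ‖u - v k‖ < ε) ∧ ‖q - ∑ k, l k • v k‖ < ε := by
  have h1 : q ∈ closure (convexHull ℝ (K.extremePoints ℝ)) := by
    rw [closure_convexHull_extremePoints hK hc]
    exact hq
  obtain ⟨p, hp, hqp⟩ := Metric.mem_closure_iff.mp h1 ε hε
  obtain ⟨ι, hι, l, v, hl0, hl1, hv, rfl⟩ := mem_convexHull_iff_exists_fintype.mp hp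
  choose φ α h2 h3 using fun k => exists_small_slice_of_extreme hK hc (hv k) hε
  refine ⟨ι, hι, l, v, φ, α, hl0, hl1, fun k => ⟨(hv k).1, h2 k⟩, h3, ?_⟩
  rw [← dist_eq_norm]
  exact hqp

end Crest.Agent.AMUC
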