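import Crest.Agent.Lib_AMUC.Common

/-!
`noAUC`: bounded trees of arbitrary height with increments bounded below (asymptotically inside every
closed finite-codimensional subspace) exclude equivalent AUC norms.
-/

namespace Crest.Agent.AMUC

variable {X : Type} [NormedAddCommGroup X] [NormedSpace ℝ X]

lemma EquivNorm.neg {N : X → ℝ} (hN : EquivNorm N) (x : X) : N (-x) = N x := by
  have := hN.2.1 (-1) x
  simpa using this

lemma EquivNorm.sub_le {N : X → ℝ} (hN : EquivNorm N) (x y : X) : N x - N y ≤ N (x - y) := by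
  have := hN.1 (x - y) y
  simp only [sub_add_cancel] at this
  linarith

lemma conv_aux {N : X → ℝ} (hN : EquivNorm N) {x yh : X} (hx1 : N x = 1) {t l c : ℝ} (ht : 0 < t)
    (hlt : t ≤ l) (hc : 0 < c) (h1 : c ≤ N (x + t • yh) - 1) : 1 + c ≤ N (x + l • yh) := by
  have hlpos : 0 < l := lt_of_lt_of_le ht hlt
  have hconv : x + t • yh = (1 - t / l) • x + (t / l) • (x + l • yh) := by
    rw [smul_add, smul_smul, div_mul_cancel₀ _ hlpos.ne', sub_smul, one_smul]
    abel
  have htl0 : 0 ≤ t / l := (div_pos ht hlpos).le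
  have htl1 : t / l ≤ 1 := (div_le_one hlpos).2 hlt
  have h2 : N (x + t • yh) ≤ (1 - t / l) * 1 + (t / l) * N (x + l • yh) := by
    rw [hconv]
    refine (hN.1 _ _).trans ?_
    rw [hN.2.1, hN.2.1, abs_of_nonneg (by linarith : (0:ℝ) ≤ 1 - t / l), abs_of_nonneg htl0, hx1]
  by_contra hcon
  push Not at hcon
  have h4 : (t / l) * c ≤ c := by
    calc (t / l) * c ≤ 1 * c := mul_le_mul_of_nonneg_right htl1 hc.le
      _ = c := one_mul c
  have h5 : (t / l) * N (x + l • yh) < (t / l) * (1 + c) :=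
    mul_lt_mul_of_pos_left hcon (div_pos ht hlpos)
  nlinarith

/-- the homogeneous form of one AUC step. -/
lemma auc_step {N : X → ℝ} (hN : EquivNorm N) {t c : ℝ} (ht : 0 < t) (hc : 0 < c)
    (h : ∀ x : X, N x = 1 → ∃ F : Set X, Cof F ∧ ∀ y ∈ F, N y = 1 → c ≤ N (x + t • y) - 1)
    {z : X} (hz : 0 < N z) :
    ∃ F : Set X, Cof F ∧ ∀ y ∈ F, t * N z ≤ N y → (1 + c) * N z ≤ N (z + y) := by
  have hx1 : N ((N z)⁻¹ • z) = 1 := by
    rw [hN.2.1, abs_of_pos (inv_pos.2 hz)]
    exact inv_mul_cancel₀ hz.ne'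
  obtain ⟨F, hF, hFy⟩ := h _ hx1
  refine ⟨F, hF, fun y hy hty => ?_⟩
  have hspos : 0 < N y := lt_of_lt_of_le (mul_pos ht hz) hty
  have hy1 : N ((N y)⁻¹ • y) = 1 := by
    rw [hN.2.1, abs_of_pos (inv_pos.2 hspos)]
    exact inv_mul_cancel₀ hspos.ne'
  have h1 := hFy _ (hF.smul_mem (N y)⁻¹ hy) hy1
  have hlt : t ≤ N y / N z := by rw [le_div_iff₀ hz]; exact hty
  have h3 := conv_aux hN hx1 ht hlt hc h1
  have h6 : z + y = (N z) • ((N z)⁻¹ • z + (N y / N z) • ((N y)⁻¹ • y)) := by
    rw [smul_add, smul_smul, smul_smul, smul_smul, mul_inv_cancel₀ hz.ne', one_smul,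
      mul_div_cancel₀ _ hz.ne', mul_inv_cancel₀ hspos.ne', one_smul]
  rw [h6, hN.2.1, abs_of_pos hz]
  calc (1 + c) * N z = N z * (1 + c) := mul_comm _ _
    _ ≤ _ := mul_le_mul_of_nonneg_left h3 hz.le

theorem noAUC {B d ρ : ℝ} (hd : 0 < d) (hρ : 0 < ρ)
    (h : ∀ j, ∃ z : X, ρ ≤ ‖z‖ ∧ TreeProp B d j z) (N : X → ℝ) (hN : EquivNorm N) : ¬ AUC N := by
  intro hA
  obtain ⟨a, b, ha, hab⟩ := hN.2.2
  -- B, b positive
  obtain ⟨z0, hz0, hT0⟩ := h 0
  have hB : 0 < B := lt_of_lt_of_le hρ (hz0.trans hT0.norm_le)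
  have hz0pos : 0 < ‖z0‖ := lt_of_lt_of_le hρ hz0
  have hb : 0 < b := by
    have h1 := hab z0
    have : a * ‖z0‖ ≤ b * ‖z0‖ := h1.1.trans h1.2
    have h2 : 0 < a * ‖z0‖ := mul_pos ha hz0pos
    by_contra hcon
    push Not at hcon
    have : b * ‖z0‖ ≤ 0 := mul_nonpos_of_nonpos_of_nonneg hcon hz0pos.le
    linarith
  set t := a * d / (2 * b * B) with ht
  have htpos : 0 < t := by positivity
  obtain ⟨c, hc, hAc⟩ := hA t htpos
  have key : ∀ j : ℕ, ∀ z : X, TreeProp B d j z → a * ρ ≤ N z → (1 + c / 2) ^ j * N z ≤ b * B := by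
    intro j
    induction j with
    | zero =>
      intro z hz _
      simp only [pow_zero, one_mul]
      exact (hab z).2.trans (mul_le_mul_of_nonneg_left hz hb.le)
    | succ j ih =>
      intro z hz hzN
      have hνpos : 0 < N z := lt_of_lt_of_le (mul_pos ha hρ) hzN
      have hνle : N z ≤ b * B := (hab z).2.trans (mul_le_mul_of_nonneg_left hz.1 hb.le)
      obtain ⟨F, hF, hFy⟩ := auc_step hN htpos hc hAc hνpos
      set ε := min (d / 2) (c * a * ρ / (2 * b)) with hε
      have hεpos : 0 < ε := lt_min (by positivity) (by positivity)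
      obtain ⟨z', y, hyF, h1, h2, h3⟩ := hz.2 F hF ε hεpos
      have hynorm : d / 2 ≤ ‖y‖ := by
        have e1 : z' - z = (z' - z - y) + y := by abel
        have e2 : ‖z' - z‖ ≤ ‖z' - z - y‖ + ‖y‖ := by
          calc ‖z' - z‖ = ‖(z' - z - y) + y‖ := by rw [← e1]
            _ ≤ _ := norm_add_le _ _
        have e3 : ε ≤ d / 2 := min_le_left _ _
        linarith
      have hNy : t * N z ≤ N y := by
        have e1 : a * (d / 2) ≤ N y := (mul_le_mul_of_nonneg_left hynorm ha.le).trans (hab y).1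
        have e2 : t * N z ≤ t * (b * B) := mul_le_mul_of_nonneg_left hνle htpos.le
        have e3 : t * (b * B) = a * (d / 2) := by
          rw [ht]; field_simp
        linarith
      have h4 := hFy y hyF hNy
      have h5 : N (z + y) - N (z + y - z') ≤ N z' := by
        have := hN.sub_le (z + y) (z + y - z')
        simpa using this
      have h6 : N (z + y - z') ≤ b * ε := by
        have e1 : z + y - z' = -(z' - z - y) := by abel
        rw [e1, hN.neg]
        exact (hab _).2.trans (mul_le_mul_of_nonneg_left h1.le hb.le)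
      have h7 : b * ε ≤ c * a * ρ / 2 := by
        have e1 : ε ≤ c * a * ρ / (2 * b) := min_le_right _ _
        calc b * ε ≤ b * (c * a * ρ / (2 * b)) := mul_le_mul_of_nonneg_left e1 hb.le
          _ = c * a * ρ / 2 := by field_simp
      have h8 : c * a * ρ / 2 ≤ c / 2 * N z := by
        have : c / 2 * (a * ρ) ≤ c / 2 * N z := mul_le_mul_of_nonneg_left hzN (by positivity)
        linarith
      have h9 : (1 + c / 2) * N z ≤ N z' := by nlinarith
      have h10 : a * ρ ≤ N z' := by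
        have : N z ≤ (1 + c / 2) * N z := by nlinarith
        linarith
      have h11 := ih z' h3 h10
      calc (1 + c / 2) ^ (j + 1) * N z = (1 + c / 2) ^ j * ((1 + c / 2) * N z) := by ring
        _ ≤ (1 + c / 2) ^ j * N z' := mul_le_mul_of_nonneg_left h9 (by positivity)
        _ ≤ b * B := h11
  -- contradiction
  have hgrow : ∀ j : ℕ, (1 + c / 2) ^ j * (a * ρ) ≤ b * B := by
    intro j
    obtain ⟨z, hz, hT⟩ := h j
    have h1 : a * ρ ≤ N z := (mul_le_mul_of_nonneg_left hz ha.le).trans (hab z).1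
    exact (mul_le_mul_of_nonneg_left h1 (by positivity)).trans (key j z hT h1)
  have haρ : 0 < a * ρ := mul_pos ha hρ
  obtain ⟨j, hj⟩ := pow_unbounded_of_one_lt (b * B / (a * ρ)) (show 1 < 1 + c / 2 by linarith)
  have := hgrow j
  rw [div_lt_iff₀ haρ] at hj
  linarith

end Crest.Agent.AMUC
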