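import Crest.Agent.Lib_AMUC.Common
import Crest.Agent.Lib_AMUC.NoAUC
import Crest.Agent.Lib_AMUC.DaugavetSlices
import Crest.Prelude.Def_DaugavetL1

/-!
Package P4: consequences of the (rank one) Daugavet property.
-/

open Crest.AnalysisR Crest.AnalysisR.L1Subspace

namespace Crest.Agent.AMUC

variable {X : Type} [NormedAddCommGroup X] [NormedSpace ℝ X]

/-- two almost aligned vectors: positive combinations almost add their norms. -/
lemma norm_comb_ge {a b : X} (ha : ‖a‖ ≤ 1) (hb : ‖b‖ ≤ 1) {ε : ℝ} (h : 2 - ε ≤ ‖a + b‖)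
    {α β : ℝ} (hα : 0 ≤ α) (hβ : 0 ≤ β) : α + β - ε * max α β ≤ ‖α • a + β • b‖ := by
  rcases le_total β α with hle | hle
  · rw [max_eq_left hle]
    have e : α • a + β • b = α • (a + b) - (α - β) • b := by module
    have h1 : ‖α • (a + b)‖ - ‖(α - β) • b‖ ≤ ‖α • a + β • b‖ := by
      rw [e]; exact norm_sub_norm_le _ _
    rw [norm_smul, norm_smul, Real.norm_of_nonneg hα, Real.norm_of_nonneg (sub_nonneg.2 hle)] at h1
    have h2 : (α - β) * ‖b‖ ≤ (α - β) := mul_le_of_le_one_right (sub_nonneg.2 hle) hb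
    have h3 : α * (2 - ε) ≤ α * ‖a + b‖ := mul_le_mul_of_nonneg_left h hα
    nlinarith
  · rw [max_eq_right hle]
    have e : α • a + β • b = β • (a + b) - (β - α) • a := by module
    have h1 : ‖β • (a + b)‖ - ‖(β - α) • a‖ ≤ ‖α • a + β • b‖ := by
      rw [e]; exact norm_sub_norm_le _ _
    rw [norm_smul, norm_smul, Real.norm_of_nonneg hβ, Real.norm_of_nonneg (sub_nonneg.2 hle)] at h1
    have h2 : (β - α) * ‖a‖ ≤ (β - α) := mul_le_of_le_one_right (sub_nonneg.2 hle) ha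
    have h3 : β * (2 - ε) ≤ β * ‖a + b‖ := mul_le_mul_of_nonneg_left h hβ
    nlinarith

/-- (i): the slice form of the Daugavet property. -/
lemma daugavet_slice (hD : HasDaugavetProperty X) {y₀ : X} (hy₀ : ‖y₀‖ = 1) (φ : X →L[ℝ] ℝ)
    {α : ℝ} (hne : ∃ u : X, ‖u‖ ≤ 1 ∧ α < φ u) {ε : ℝ} (hε : 0 < ε) :
    ∃ z : X, ‖z‖ ≤ 1 ∧ α < φ z ∧ 2 - ε ≤ ‖y₀ + z‖ := by
  obtain ⟨u₀, hu₀, hαu₀⟩ := hne
  have hαφ : α < ‖φ‖ := by
    calc α < φ u₀ := hαu₀
      _ ≤ ‖φ u₀‖ := Real.le_norm_self _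
      _ ≤ ‖φ‖ * ‖u₀‖ := φ.le_opNorm _
      _ ≤ ‖φ‖ := mul_le_of_le_one_right (norm_nonneg _) hu₀
  rcases (norm_nonneg φ).eq_or_lt with h0 | hφpos
  · -- `φ = 0`
    have hφ : φ = 0 := norm_eq_zero.mp h0.symm
    refine ⟨y₀, hy₀.le, by rw [hφ]; rw [← h0] at hαφ; simpa using hαφ, ?_⟩
    have : y₀ + y₀ = (2 : ℝ) • y₀ := by module
    rw [this, norm_smul, hy₀]
    norm_num
    exact hε.le
  set c := ‖φ‖ with hc
  set ψ : X →L[ℝ] ℝ := c⁻¹ • φ with hψ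
  have hψn : ‖ψ‖ = 1 := by
    rw [hψ, norm_smul, norm_inv, Real.norm_of_nonneg hφpos.le, inv_mul_cancel₀ hφpos.ne']
  have hφψ : ∀ u, φ u = c * ψ u := by
    intro u
    simp only [hψ, _root_.smul_apply, smul_eq_mul]
    field_simp
  -- the rank one operator
  set T : X →L[ℝ] X := ψ.smulRight y₀ with hT
  have hTn : ‖T‖ = 1 := by
    rw [hT, ContinuousLinearMap.norm_smulRight_apply, hy₀, mul_one, hψn]
  have hDT : ‖ContinuousLinearMap.id ℝ X + T‖ = 2 := by rw [hD ψ y₀, ← hT, hTn]; norm_num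
  -- choose a small parameter
  set δ : ℝ := min (ε / 2) ((c - α) / c) with hδ
  have hδ0 : 0 < δ := by
    rw [hδ]
    refine lt_min (by positivity) (div_pos (by linarith) hφpos)
  have hδ1 : δ ≤ ε / 2 := min_le_left _ _
  have hδ2 : δ ≤ (c - α) / c := min_le_right _ _
  -- a vector almost norming `Id + T`
  obtain ⟨u, hu1, hu2⟩ : ∃ u : X, ‖u‖ ≤ 1 ∧ 2 - δ < ‖u + ψ u • y₀‖ := by
    by_contra hcon
    push Not at hcon
    have : ‖ContinuousLinearMap.id ℝ X + T‖ ≤ 2 - δ := by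
      refine ContinuousLinearMap.opNorm_le_of_unit_norm (by
        have := hcon 0 (by simp)
        simpa using this) ?_
      intro x hx
      have := hcon x hx.le
      simpa [hT] using this
    rw [hDT] at this
    linarith
  -- wlog `ψ u ≥ 0`
  obtain ⟨u, hu1, hu2, hu3⟩ : ∃ u : X, ‖u‖ ≤ 1 ∧ 2 - δ < ‖u + ψ u • y₀‖ ∧ 0 ≤ ψ u := by
    rcases le_total 0 (ψ u) with h | h
    · exact ⟨u, hu1, hu2, h⟩
    · refine ⟨-u, by rwa [norm_neg], ?_, by rw [map_neg]; linarith⟩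
      have : -u + ψ (-u) • y₀ = -(u + ψ u • y₀) := by rw [map_neg]; module
      rw [this, norm_neg]
      exact hu2
  have h4 : ‖u + ψ u • y₀‖ ≤ 1 + ψ u := by
    calc ‖u + ψ u • y₀‖ ≤ ‖u‖ + ‖ψ u • y₀‖ := norm_add_le _ _
      _ ≤ 1 + ψ u := by rw [norm_smul, hy₀, mul_one, Real.norm_of_nonneg hu3]; linarith
  have h5 : 1 - δ < ψ u := by linarith
  have h6 : ψ u ≤ 1 := by
    calc ψ u ≤ ‖ψ u‖ := Real.le_norm_self _
      _ ≤ ‖ψ‖ * ‖u‖ := ψ.le_opNorm _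
      _ ≤ 1 := by rw [hψn, one_mul]; exact hu1
  refine ⟨u, hu1, ?_, ?_⟩
  · rw [hφψ]
    have h7 : c * δ ≤ c - α := by
      calc c * δ ≤ c * ((c - α) / c) := mul_le_mul_of_nonneg_left hδ2 hφpos.le
        _ = c - α := by field_simp
    nlinarith
  · have e : y₀ + u = (u + ψ u • y₀) + (1 - ψ u) • y₀ := by module
    have h8 : ‖u + ψ u • y₀‖ - ‖(1 - ψ u) • y₀‖ ≤ ‖y₀ + u‖ := by
      rw [e]
      have := norm_sub_norm_le (u + ψ u • y₀) (-((1 - ψ u) • y₀))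
      rwa [norm_neg, sub_neg_eq_add] at this
    rw [norm_smul, hy₀, mul_one, Real.norm_of_nonneg (by linarith)] at h8
    linarith

/-- one step: adding a multiple of a point of a slice almost adds the norms. -/
lemma daugavet_step (hD : HasDaugavetProperty X) {w : X} (hw : w ≠ 0) (φ : X →L[ℝ] ℝ)
    {α : ℝ} (hne : ∃ u : X, ‖u‖ ≤ 1 ∧ α < φ u) {lam : ℝ} (hlam : 0 ≤ lam) {ε : ℝ} (hε : 0 < ε) :
    ∃ z : X, ‖z‖ ≤ 1 ∧ α < φ z ∧ ‖w‖ + lam - ε ≤ ‖w + lam • z‖ := by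
  have hwn : 0 < ‖w‖ := norm_pos_iff.mpr hw
  set y₀ : X := (‖w‖)⁻¹ • w with hy₀
  have hy₀n : ‖y₀‖ = 1 := by
    rw [hy₀, norm_smul, norm_inv, norm_norm, inv_mul_cancel₀ hwn.ne']
  set M := max ‖w‖ lam with hM
  have hM0 : 0 < M := lt_of_lt_of_le hwn (le_max_left _ _)
  obtain ⟨z, hz1, hz2, hz3⟩ := daugavet_slice hD hy₀n φ hne (div_pos hε hM0)
  refine ⟨z, hz1, hz2, ?_⟩
  have := norm_comb_ge hy₀n.le hz1 hz3 hwn.le hlam
  have e : ‖w‖ • y₀ = w := by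
    rw [hy₀, smul_smul, mul_inv_cancel₀ hwn.ne', one_smul]
  rw [e, ← hM, div_mul_cancel₀ _ hM0.ne'] at this
  exact this

/-- (ii): finitely many slices. -/
lemma daugavet_slices (hD : HasDaugavetProperty X) {ι : Type} (s : Finset ι) (φ : ι → X →L[ℝ] ℝ)
    (α l : ι → ℝ) (hne : ∀ k, ∃ u : X, ‖u‖ ≤ 1 ∧ α k < φ k u) (hl : ∀ k, 0 ≤ l k) :
    ∀ {w : X}, w ≠ 0 → ∀ {ε : ℝ}, 0 < ε →
    ∃ z : ι → X, (∀ k, ‖z k‖ ≤ 1 ∧ α k < φ k (z k)) ∧
      ‖w‖ + ∑ k ∈ s, l k - ε ≤ ‖w + ∑ k ∈ s, l k • z k‖ := by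
  classical
  induction s using Finset.induction_on with
  | empty =>
    intro w _ ε hε
    choose u hu using hne
    exact ⟨u, hu, by simp; exact hε.le⟩
  | insert a s ha ih =>
    intro w hw ε hε
    have hwn : 0 < ‖w‖ := norm_pos_iff.mpr hw
    set ε' := min (ε / 2) (‖w‖ / 2) with hε'
    have hε'0 : 0 < ε' := lt_min (by positivity) (by positivity)
    obtain ⟨z, hz, hzn⟩ := ih hw hε'0
    set w' := w + ∑ k ∈ s, l k • z k with hw'
    have hsum0 : 0 ≤ ∑ k ∈ s, l k := Finset.sum_nonneg (fun k _ => hl k)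
    have hw'n : 0 < ‖w'‖ := by
      have : ε' ≤ ‖w‖ / 2 := min_le_right _ _
      linarith
    obtain ⟨y, hy1, hy2, hy3⟩ := daugavet_step hD (norm_pos_iff.mp hw'n) (φ a) (hne a) (hl a)
      (half_pos hε)
    refine ⟨Function.update z a y, ?_, ?_⟩
    · intro k
      by_cases hk : k = a
      · subst hk; simpa using ⟨hy1, hy2⟩
      · simpa [Function.update_of_ne hk] using hz k
    · rw [Finset.sum_insert ha, Finset.sum_insert ha, Function.update_self]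
      have e : ∑ k ∈ s, l k • Function.update z a y k = ∑ k ∈ s, l k • z k := by
        refine Finset.sum_congr rfl (fun k hk => ?_)
        rw [Function.update_of_ne (fun h : k = a => ha (h ▸ hk))]
      rw [e]
      have e2 : w + (l a • y + ∑ k ∈ s, l k • z k) = w' + l a • y := by rw [hw']; abel
      rw [e2]
      have : ε' ≤ ε / 2 := min_le_left _ _
      linarith

/-- (iii) Shvidkoy's lemma: in a space with the Daugavet property, every unit vector `x` has, modulo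
any closed finite-codimensional subspace, an almost antipodal point of the ball "above itself". -/
theorem daugavet_near_cof (hD : HasDaugavetProperty X) {x : X} (hx : ‖x‖ = 1) {F : Set X}
    (hF : Cof F) {ε : ℝ} (hε : 0 < ε) :
    ∃ z y : X, ‖z‖ ≤ 1 ∧ y ∈ F ∧ ‖z - x - y‖ < ε ∧ 2 - ε ≤ ‖z - x‖ := by
  obtain ⟨S, rfl, hS, hfd⟩ := hF
  have : IsClosed (S : Set X) := hS
  set Q : X →L[ℝ] (X ⧸ S) := S.mkQL with hQ
  have hQn : ∀ u, ‖Q u‖ ≤ ‖u‖ := fun u => Submodule.Quotient.norm_mk_le S u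
  set K : Set (X ⧸ S) := closure (Q '' Metric.closedBall 0 1) with hK
  have hKc : IsCompact K := by
    apply Metric.isCompact_of_isClosed_isBounded isClosed_closure
    apply Bornology.IsBounded.closure
    rw [isBounded_iff_forall_norm_le]
    refine ⟨1, ?_⟩
    rintro _ ⟨u, hu, rfl⟩
    exact (hQn u).trans (by simpa using hu)
  have hKconv : Convex ℝ K :=
    ((convex_closedBall (0 : X) 1).linear_image (Q : X →ₗ[ℝ] (X ⧸ S))).closure
  have hsub : ∀ u : X, ‖u‖ ≤ 1 → Q u ∈ K := fun u hu =>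
    subset_closure ⟨u, by simpa using hu, rfl⟩
  obtain ⟨ι, hι, l, v, φ, α, hl0, hl1, hv, hslice, hq⟩ :=
    exists_small_slices hKc hKconv (hsub x hx.le) (show 0 < ε / 2 by positivity)
  -- the pulled back slices are nonempty
  have hne : ∀ k, ∃ u : X, ‖u‖ ≤ 1 ∧ α k < ((φ k).comp Q) u := by
    intro k
    have hopen : IsOpen {p : X ⧸ S | α k < φ k p} := isOpen_lt continuous_const (φ k).continuous
    obtain ⟨p, hp1, u, hu, rfl⟩ := mem_closure_iff.mp (hv k).1 _ hopen (hv k).2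
    exact ⟨u, by simpa using hu, hp1⟩
  have hx0 : -x ≠ 0 := by
    intro h
    rw [neg_eq_zero] at h
    rw [h] at hx
    simp at hx
  obtain ⟨z, hz, hzn⟩ := daugavet_slices hD Finset.univ (fun k => (φ k).comp Q) α l hne hl0 hx0 hε
  set Z : X := ∑ k, l k • z k with hZ
  have hZ1 : ‖Z‖ ≤ 1 := by
    calc ‖Z‖ ≤ ∑ k, ‖l k • z k‖ := norm_sum_le _ _
      _ ≤ ∑ k, l k := by
          refine Finset.sum_le_sum (fun k _ => ?_)
          rw [norm_smul, Real.norm_of_nonneg (hl0 k)]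
          exact mul_le_of_le_one_right (hl0 k) (hz k).1
      _ = 1 := hl1
  have hQZ : ‖Q Z - ∑ k, l k • v k‖ ≤ ε / 2 := by
    rw [hZ, map_sum, ← Finset.sum_sub_distrib]
    calc ‖∑ k, (Q (l k • z k) - l k • v k)‖ ≤ ∑ k, ‖Q (l k • z k) - l k • v k‖ := norm_sum_le _ _
      _ ≤ ∑ k, l k * (ε / 2) := by
          refine Finset.sum_le_sum (fun k _ => ?_)
          rw [map_smul, ← smul_sub, norm_smul, Real.norm_of_nonneg (hl0 k)]
          exact mul_le_mul_of_nonneg_left (hslice k _ (hsub _ (hz k).1) (hz k).2).le (hl0 k)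
      _ = ε / 2 := by rw [← Finset.sum_mul, hl1, one_mul]
  have hQd : ‖Q (Z - x)‖ < ε := by
    rw [map_sub]
    calc ‖Q Z - Q x‖ = ‖(Q Z - ∑ k, l k • v k) - (Q x - ∑ k, l k • v k)‖ := by congr 1; abel
      _ ≤ ‖Q Z - ∑ k, l k • v k‖ + ‖Q x - ∑ k, l k • v k‖ := norm_sub_le _ _
      _ < ε / 2 + ε / 2 := by linarith
      _ = ε := by ring
  obtain ⟨m, hm, hm'⟩ := Submodule.Quotient.norm_mk_lt (Q (Z - x)) (sub_pos.2 hQd)
  refine ⟨Z, (Z - x) - m, hZ1, ?_, ?_, ?_⟩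
  · have : Submodule.Quotient.mk (p := S) (Z - x) = Submodule.Quotient.mk m := hm.symm
    exact (Submodule.Quotient.eq S).1 this
  · have e1 : Z - x - ((Z - x) - m) = m := by abel
    rw [e1]; linarith
  · rw [norm_neg, hx, hl1] at hzn
    have e2 : -x + ∑ k, l k • z k = Z - x := by rw [hZ]; abel
    rw [e2] at hzn
    linarith

/-- the same with a unit vector `z`. -/
theorem daugavet_near_cof_unit (hD : HasDaugavetProperty X) {x : X} (hx : ‖x‖ = 1) {F : Set X}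
    (hF : Cof F) {ε : ℝ} (hε : 0 < ε) :
    ∃ z y : X, ‖z‖ = 1 ∧ y ∈ F ∧ ‖z - x - y‖ < ε ∧ 2 - ε ≤ ‖z - x‖ := by
  set ε' := min (ε / 2) (1 / 2) with hε'
  have hε'0 : 0 < ε' := lt_min (by positivity) (by norm_num)
  have h1 : ε' ≤ ε / 2 := min_le_left _ _
  have h2 : ε' ≤ 1 / 2 := min_le_right _ _
  obtain ⟨z₀, y, hz₀, hy, hzy, hzx⟩ := daugavet_near_cof hD hx hF hε'0
  have h3 : ‖z₀ - x‖ ≤ ‖z₀‖ + 1 := by
    calc ‖z₀ - x‖ ≤ ‖z₀‖ + ‖x‖ := norm_sub_le _ _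
      _ = ‖z₀‖ + 1 := by rw [hx]
  have hz₀pos : 0 < ‖z₀‖ := by linarith
  set z : X := (‖z₀‖)⁻¹ • z₀ with hz
  have hzn : ‖z‖ = 1 := by
    rw [hz, norm_smul, norm_inv, norm_norm, inv_mul_cancel₀ hz₀pos.ne']
  have hzz : ‖z - z₀‖ ≤ ε' := by
    have e : z - z₀ = ((‖z₀‖)⁻¹ - 1) • z₀ := by rw [hz]; module
    rw [e, norm_smul, Real.norm_of_nonneg (by
      rw [sub_nonneg]; exact (one_le_inv₀ hz₀pos).2 hz₀), sub_mul, inv_mul_cancel₀ hz₀pos.ne']
    linarith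
  refine ⟨z, y, hzn, hy, ?_, ?_⟩
  · calc ‖z - x - y‖ = ‖(z - z₀) + (z₀ - x - y)‖ := by congr 1; abel
      _ ≤ ‖z - z₀‖ + ‖z₀ - x - y‖ := norm_add_le _ _
      _ < ε := by linarith
  · have : ‖z₀ - x‖ ≤ ‖z - x‖ + ‖z - z₀‖ := by
      calc ‖z₀ - x‖ = ‖(z - x) - (z - z₀)‖ := by congr 1; abel
        _ ≤ ‖z - x‖ + ‖z - z₀‖ := norm_sub_le _ _
    linarith

/-- the good direction for the upper bounds. -/
theorem daugavet_upper (hD : HasDaugavetProperty X) {x : X} (hx : ‖x‖ = 1) {F : Set X}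
    (hF : Cof F) {t : ℝ} (ht : 0 < t) {η : ℝ} (hη : 0 < η) :
    ∃ y ∈ F, ‖y‖ = 1 ∧ ‖x + t • y‖ ≤ max 1 (t - 1) + η ∧ ‖x - t • y‖ ≤ 1 + t := by
  set ε := min (1 / 2) (η / (2 * t)) with hε
  have hε0 : 0 < ε := lt_min (by norm_num) (by positivity)
  have h1 : ε ≤ 1 / 2 := min_le_left _ _
  have h2 : 2 * t * ε ≤ η := by
    have : ε ≤ η / (2 * t) := min_le_right _ _
    calc 2 * t * ε ≤ 2 * t * (η / (2 * t)) := mul_le_mul_of_nonneg_left this (by positivity)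
      _ = η := by field_simp
  obtain ⟨z, y₀, hz, hy₀, hzy, hzx⟩ := daugavet_near_cof hD hx hF hε0
  have h3 : ‖z - x‖ ≤ 2 := by
    calc ‖z - x‖ ≤ ‖z‖ + ‖x‖ := norm_sub_le _ _
      _ ≤ 2 := by rw [hx]; linarith
  have h4 : ‖z - x‖ - ε ≤ ‖y₀‖ := by
    have : ‖z - x‖ ≤ ‖y₀‖ + ‖z - x - y₀‖ := by
      calc ‖z - x‖ = ‖y₀ + (z - x - y₀)‖ := by congr 1; abel
        _ ≤ _ := norm_add_le _ _
    linarith
  have h5 : ‖y₀‖ ≤ ‖z - x‖ + ε := by
    have : ‖y₀‖ ≤ ‖z - x‖ + ‖z - x - y₀‖ := by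
      calc ‖y₀‖ = ‖(z - x) - (z - x - y₀)‖ := by congr 1; abel
        _ ≤ _ := norm_sub_le _ _
    linarith
  have hy₀pos : 0 < ‖y₀‖ := by linarith
  set y : X := (‖y₀‖)⁻¹ • y₀ with hy
  have hyn : ‖y‖ = 1 := by
    rw [hy, norm_smul, norm_inv, norm_norm, inv_mul_cancel₀ hy₀pos.ne']
  have h6 : ‖y - (1 / 2 : ℝ) • y₀‖ ≤ ε := by
    have e : y - (1 / 2 : ℝ) • y₀ = ((‖y₀‖)⁻¹ - 1 / 2) • y₀ := by rw [hy]; module
    rw [e, norm_smul, Real.norm_eq_abs, ← abs_norm y₀, ← abs_mul, sub_mul, abs_norm,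
      inv_mul_cancel₀ hy₀pos.ne', abs_le]
    constructor <;> linarith
  have h7 : ‖y - (1 / 2 : ℝ) • (z - x)‖ ≤ 2 * ε := by
    calc ‖y - (1 / 2 : ℝ) • (z - x)‖
        = ‖(y - (1 / 2 : ℝ) • y₀) - (1 / 2 : ℝ) • (z - x - y₀)‖ := by congr 1; module
      _ ≤ ‖y - (1 / 2 : ℝ) • y₀‖ + ‖(1 / 2 : ℝ) • (z - x - y₀)‖ := norm_sub_le _ _
      _ ≤ ε + 1 / 2 * ε := by
          rw [norm_smul, Real.norm_of_nonneg (by norm_num : (0 : ℝ) ≤ 1 / 2)]
          linarith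
      _ ≤ 2 * ε := by linarith
  refine ⟨y, hF.smul_mem _ hy₀, hyn, ?_, ?_⟩
  · have e : x + t • y = ((1 - t / 2) • x + (t / 2) • z) + t • (y - (1 / 2 : ℝ) • (z - x)) := by
      module
    have h8 : ‖(1 - t / 2) • x + (t / 2) • z‖ ≤ max 1 (t - 1) := by
      calc ‖(1 - t / 2) • x + (t / 2) • z‖ ≤ ‖(1 - t / 2) • x‖ + ‖(t / 2) • z‖ := norm_add_le _ _
        _ ≤ |1 - t / 2| + t / 2 := by
            rw [norm_smul, norm_smul, hx, mul_one, Real.norm_eq_abs,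
              Real.norm_of_nonneg (by positivity : 0 ≤ t / 2)]
            have : t / 2 * ‖z‖ ≤ t / 2 := mul_le_of_le_one_right (by positivity) hz
            linarith
        _ ≤ max 1 (t - 1) := by
            rcases abs_cases (1 - t / 2) with ⟨h, _⟩ | ⟨h, _⟩
            · rw [h]; exact le_max_of_le_left (by linarith)
            · rw [h]; exact le_max_of_le_right (by linarith)
    calc ‖x + t • y‖ ≤ ‖(1 - t / 2) • x + (t / 2) • z‖ + ‖t • (y - (1 / 2 : ℝ) • (z - x))‖ := by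
          rw [e]; exact norm_add_le _ _
      _ ≤ max 1 (t - 1) + t * (2 * ε) := by
          rw [norm_smul, Real.norm_of_nonneg ht.le]
          have := mul_le_mul_of_nonneg_left h7 ht.le
          linarith
      _ ≤ max 1 (t - 1) + η := by linarith
  · calc ‖x - t • y‖ ≤ ‖x‖ + ‖t • y‖ := norm_sub_le _ _
      _ = 1 + t := by rw [hx, norm_smul, hyn, mul_one, Real.norm_of_nonneg ht.le]

theorem daugavet_midpoint_le (hD : HasDaugavetProperty X) {t : ℝ} (ht : 0 < t) :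
    ∀ x : X, ‖x‖ = 1 → ∀ F : Set X, Cof F → ∀ η : ℝ, 0 < η →
      ∃ y ∈ F, ‖y‖ = 1 ∧ (‖x + t • y‖ + ‖x - t • y‖) / 2 - 1 ≤ max (t / 2) (t - 1) + η := by
  intro x hx F hF η hη
  obtain ⟨y, hy, hyn, h1, h2⟩ := daugavet_upper hD hx hF ht hη
  refine ⟨y, hy, hyn, ?_⟩
  rcases le_total 1 (t - 1) with h | h
  · rw [max_eq_right h] at h1
    have : t - 1 ≤ max (t / 2) (t - 1) := le_max_right _ _
    linarith
  · rw [max_eq_left h] at h1
    have : t / 2 ≤ max (t / 2) (t - 1) := le_max_left _ _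
    linarith

theorem daugavet_oneSided_le (hD : HasDaugavetProperty X) {t : ℝ} (ht : 0 < t) :
    ∀ x : X, ‖x‖ = 1 → ∀ F : Set X, Cof F → ∀ η : ℝ, 0 < η →
      ∃ y ∈ F, ‖y‖ = 1 ∧ ‖x + t • y‖ - 1 ≤ max 0 (t - 2) + η := by
  intro x hx F hF η hη
  obtain ⟨y, hy, hyn, h1, -⟩ := daugavet_upper hD hx hF ht hη
  refine ⟨y, hy, hyn, ?_⟩
  rcases le_total 1 (t - 1) with h | h
  · rw [max_eq_right h] at h1
    have : t - 2 ≤ max 0 (t - 2) := le_max_right _ _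
    linarith
  · rw [max_eq_left h] at h1
    have : (0 : ℝ) ≤ max 0 (t - 2) := le_max_left _ _
    linarith

theorem daugavet_treeProp (hD : HasDaugavetProperty X) (j : ℕ) :
    ∀ z : X, ‖z‖ = 1 → TreeProp 1 1 j z := by
  induction j with
  | zero => intro z hz; exact hz.le
  | succ j ih =>
    intro z hz
    refine ⟨hz.le, ?_⟩
    intro F hF ε hε
    set ε' := min ε 1 with hε'
    have hε'0 : 0 < ε' := lt_min hε one_pos
    obtain ⟨z', y, hz', hy, h1, h2⟩ := daugavet_near_cof_unit hD hz hF hε'0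
    refine ⟨z', y, hy, lt_of_lt_of_le h1 (min_le_left _ _), ?_, ih z' hz'⟩
    have : ε' ≤ 1 := min_le_right _ _
    linarith

theorem daugavet_noAUC (hD : HasDaugavetProperty X) (hne : ∃ x : X, ‖x‖ = 1) (N : X → ℝ)
    (hN : EquivNorm N) : ¬ AUC N := by
  obtain ⟨x, hx⟩ := hne
  exact noAUC (B := 1) (d := 1) (ρ := 1) one_pos one_pos
    (fun j => ⟨x, hx.ge, daugavet_treeProp hD j x hx⟩) N hN

end Crest.Agent.AMUC
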