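import Crest.Agent.Lib_AMUC.Common
import Crest.Agent.Lib_AMUC.NoAUC

/-! S0167: consequences of the Shvidkoy-type lemma `Shv` (helper5): upper bounds for the two moduli and
absence of AUC renormings. -/

set_option autoImplicit false

namespace Crest.Agent.AMUC

/-- The Shvidkoy-type property: from every unit vector one can move by almost `2` inside the unit ball
in a direction which almost lies in a prescribed closed finite-codimensional subspace. -/
def Shv (X : Type) [NormedAddCommGroup X] [NormedSpace ℝ X] : Prop :=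
  ∀ x : X, ‖x‖ = 1 → ∀ F : Set X, Cof F → ∀ ε : ℝ, 0 < ε →
    ∃ z y : X, ‖z‖ ≤ 1 ∧ y ∈ F ∧ ‖z - x - y‖ < ε ∧ 2 - ε ≤ ‖z - x‖

variable {X : Type} [NormedAddCommGroup X] [NormedSpace ℝ X]

lemma norm_normalize_sub {v : X} (hv : v ≠ 0) (c : ℝ) :
    ‖‖v‖⁻¹ • v - c • v‖ = |1 - c * ‖v‖| := by
  have h0 : ‖v‖ ≠ 0 := norm_ne_zero_iff.mpr hv
  rw [← sub_smul, norm_smul, Real.norm_eq_abs]
  have : |‖v‖⁻¹ - c| * ‖v‖ = |(‖v‖⁻¹ - c) * ‖v‖| := by
    rw [abs_mul, abs_of_nonneg (norm_nonneg v)]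
  rw [this]
  congr 1
  field_simp

theorem Shv.exists_unit (h : Shv X) {x : X} (hx : ‖x‖ = 1) {F : Set X} (hF : Cof F) {ε : ℝ}
    (hε : 0 < ε) :
    ∃ z y : X, ‖z‖ ≤ 1 ∧ y ∈ F ∧ ‖y‖ = 1 ∧ ‖y - (1 / 2 : ℝ) • (z - x)‖ ≤ ε := by
  have hε1 : 0 < min (ε / 2) (1 / 2) := lt_min (by positivity) (by norm_num)
  obtain ⟨z, y0, hz, hy0, h1, h2⟩ := h x hx F hF _ hε1
  set e := min (ε / 2) (1 / 2) with he
  have he1 : e ≤ ε / 2 := min_le_left _ _
  have he2 : e ≤ 1 / 2 := min_le_right _ _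
  have hzx : ‖z - x‖ ≤ 2 := by
    have := norm_sub_le z x
    linarith
  have hlow : 2 - 2 * e ≤ ‖y0‖ := by
    have : ‖z - x‖ ≤ ‖z - x - y0‖ + ‖y0‖ := by
      have := norm_add_le (z - x - y0) y0
      simpa using this
    linarith
  have hup : ‖y0‖ ≤ 2 + e := by
    have : ‖y0‖ ≤ ‖z - x - y0‖ + ‖z - x‖ := by
      have := norm_sub_le (z - x) (z - x - y0)
      have h3 : z - x - (z - x - y0) = y0 := by abel
      rw [h3] at this
      linarith
    linarith
  have hy0ne : y0 ≠ 0 := by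
    intro h0
    rw [h0, norm_zero] at hlow
    linarith
  refine ⟨z, ‖y0‖⁻¹ • y0, hz, hF.smul_mem _ hy0, ?_, ?_⟩
  · rw [norm_smul, norm_inv, norm_norm]
    exact inv_mul_cancel₀ (norm_ne_zero_iff.mpr hy0ne)
  · have h3 : ‖y0‖⁻¹ • y0 - (1 / 2 : ℝ) • (z - x)
        = (‖y0‖⁻¹ • y0 - (1 / 2 : ℝ) • y0) - (1 / 2 : ℝ) • (z - x - y0) := by
      rw [sub_sub, ← smul_add]
      congr 2
      abel
    rw [h3]
    refine (norm_sub_le _ _).trans ?_
    rw [norm_normalize_sub hy0ne, norm_smul]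
    have h4 : |1 - 1 / 2 * ‖y0‖| ≤ e := by
      rw [abs_le]
      constructor <;> linarith
    have h5 : ‖(1 / 2 : ℝ)‖ = 1 / 2 := by norm_num
    rw [h5]
    linarith

/-- both upper bounds with the same direction `y`. -/
theorem Shv.upper (h : Shv X) {t : ℝ} (ht : 0 < t) {x : X} (hx : ‖x‖ = 1) {F : Set X} (hF : Cof F)
    {η : ℝ} (hη : 0 < η) :
    ∃ y ∈ F, ‖y‖ = 1 ∧ ‖x + t • y‖ - 1 ≤ max 0 (t - 2) + η ∧
      (‖x + t • y‖ + ‖x - t • y‖) / 2 - 1 ≤ max (t / 2) (t - 1) + η := by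
  obtain ⟨z, y, hz, hy, hy1, hyz⟩ := h.exists_unit hx hF (ε := η / t) (by positivity)
  have h1 : ‖x + t • y‖ ≤ |1 - t / 2| + t / 2 + η := by
    have e1 : x + t • y = (1 - t / 2) • x + (t / 2) • z + t • (y - (1 / 2 : ℝ) • (z - x)) := by
      simp only [smul_sub, sub_smul, smul_smul, one_smul]
      have : t * (1 / 2) = t / 2 := by ring
      rw [this]
      abel
    rw [e1]
    refine (norm_add_le _ _).trans ?_
    have a1 : ‖(1 - t / 2) • x + (t / 2) • z‖ ≤ |1 - t / 2| + t / 2 := by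
      refine (norm_add_le _ _).trans ?_
      rw [norm_smul, norm_smul, hx, Real.norm_eq_abs, Real.norm_eq_abs, abs_of_pos (by positivity : 0 < t / 2)]
      have : t / 2 * ‖z‖ ≤ t / 2 * 1 := by gcongr
      linarith
    have a2 : ‖t • (y - (1 / 2 : ℝ) • (z - x))‖ ≤ η := by
      rw [norm_smul, Real.norm_eq_abs, abs_of_pos ht]
      calc t * ‖y - (1 / 2 : ℝ) • (z - x)‖ ≤ t * (η / t) := by gcongr
        _ = η := by field_simp
    linarith
  have h2 : ‖x - t • y‖ ≤ 1 + t := by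
    refine (norm_sub_le _ _).trans ?_
    rw [norm_smul, hx, hy1, Real.norm_eq_abs, abs_of_pos ht]
    linarith
  have h3 : |1 - t / 2| + t / 2 - 1 ≤ max 0 (t - 2) := by
    rcases le_total t 2 with h | h
    · rw [abs_of_nonneg (by linarith)]
      have := le_max_left 0 (t - 2)
      linarith
    · rw [abs_of_nonpos (by linarith)]
      have := le_max_right 0 (t - 2)
      linarith
  have h4 : (|1 - t / 2| + t / 2 + (1 + t)) / 2 - 1 ≤ max (t / 2) (t - 1) := by
    rcases le_total t 2 with h | h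
    · rw [abs_of_nonneg (by linarith)]
      have := le_max_left (t / 2) (t - 1)
      linarith
    · rw [abs_of_nonpos (by linarith)]
      have := le_max_right (t / 2) (t - 1)
      linarith
  refine ⟨y, hy, hy1, by linarith, by linarith⟩

theorem Shv.treeProp (h : Shv X) : ∀ (j : ℕ) (z : X), ‖z‖ = 1 → TreeProp 1 1 j z
  | 0, z, hz => hz.le
  | j + 1, z, hz => by
    refine ⟨hz.le, fun F hF ε hε => ?_⟩
    have hε1 : 0 < min (ε / 2) (1 / 2) := lt_min (by positivity) (by norm_num)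
    obtain ⟨z', y, hz', hy, h1, h2⟩ := h z hz F hF _ hε1
    set e := min (ε / 2) (1 / 2) with he
    have he1 : e ≤ ε / 2 := min_le_left _ _
    have he2 : e ≤ 1 / 2 := min_le_right _ _
    have hlow : 1 - e ≤ ‖z'‖ := by
      have := norm_sub_le z' z
      linarith
    have hne : z' ≠ 0 := by
      intro h0
      rw [h0, norm_zero] at hlow
      linarith
    have hd : ‖‖z'‖⁻¹ • z' - z'‖ ≤ e := by
      have := norm_normalize_sub hne 1
      rw [one_smul, one_mul] at this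
      rw [this, abs_of_nonneg (by linarith)]
      linarith
    refine ⟨‖z'‖⁻¹ • z', y, hy, ?_, ?_, Shv.treeProp h j _ ?_⟩
    · have e1 : ‖z'‖⁻¹ • z' - z - y = (‖z'‖⁻¹ • z' - z') + (z' - z - y) := by abel
      rw [e1]
      refine (norm_add_le _ _).trans_lt ?_
      linarith
    · have e1 : z' - z = (‖z'‖⁻¹ • z' - z) - (‖z'‖⁻¹ • z' - z') := by abel
      have := norm_sub_le (‖z'‖⁻¹ • z' - z) (‖z'‖⁻¹ • z' - z')
      rw [← e1] at this
      linarith
    · rw [norm_smul, norm_inv, norm_norm]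
      exact inv_mul_cancel₀ (norm_ne_zero_iff.mpr hne)

theorem Shv.noAUC (h : Shv X) (hinf : ¬ FiniteDimensional ℝ X) (N : X → ℝ) (hN : EquivNorm N) :
    ¬ AUC N := by
  have hnt : Nontrivial X := by
    by_contra hc
    rw [not_nontrivial_iff_subsingleton] at hc
    exact hinf inferInstance
  obtain ⟨v, hv⟩ := exists_ne (0 : X)
  have hu : ‖‖v‖⁻¹ • v‖ = 1 := by
    rw [norm_smul, norm_inv, norm_norm]
    exact inv_mul_cancel₀ (norm_ne_zero_iff.mpr hv)
  exact Crest.Agent.AMUC.noAUC (B := 1) (d := 1) (ρ := 1) one_pos one_pos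
    (fun j => ⟨_, hu.ge, h.treeProp j _ hu⟩) N hN

end Crest.Agent.AMUC
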