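import Crest.Agent.Lib_AMUC.Common

/-!
From the "Pythagorean" midpoint inequality on a dense set of centres to the midpoint modulus bound.
-/

namespace Crest.Agent.AMUC

variable {X : Type} [NormedAddCommGroup X] [NormedSpace ℝ X]

lemma sqrt_sq_add_lipschitz (a b : ℝ) {c : ℝ} (hc : 0 ≤ c) :
    Real.sqrt (b ^ 2 + c) ≤ Real.sqrt (a ^ 2 + c) + |a - b| := by
  have h0 : 0 ≤ Real.sqrt (a ^ 2 + c) + |a - b| := by positivity
  rw [Real.sqrt_le_left h0]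
  have h1 : |a| ≤ Real.sqrt (a ^ 2 + c) := by
    apply Real.abs_le_sqrt; linarith
  have h2 : Real.sqrt (a ^ 2 + c) ^ 2 = a ^ 2 + c := Real.sq_sqrt (by positivity)
  have h3 : |b| ≤ |a| + |a - b| := by
    have : b = a - (a - b) := by ring
    calc |b| = |a - (a - b)| := by rw [← this]
      _ ≤ |a| + |a - b| := abs_sub _ _
  have h4 : b ^ 2 ≤ (|a| + |a - b|) ^ 2 := by
    rw [← sq_abs b]; gcongr
  have h5 : 0 ≤ |a - b| := abs_nonneg _
  have h6 : a ^ 2 = |a| ^ 2 := (sq_abs a).symm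
  nlinarith

/-- If on a dense set of centres `x0` one has, for all `y` in some closed finite-codimensional
subspace, `√(‖x0‖² + ‖y‖²/4) ≤ (‖x0+y‖ + ‖x0-y‖)/2`, then the averaged midpoint modulus of the norm is
at least `√(1+t²/4) - 1` at every `t`. -/
theorem midpointModulus_of_dense {D : Set X} (hD : Dense D)
    (h : ∀ x0 ∈ D, ∃ F : Set X, Cof F ∧ ∀ y ∈ F,
      Real.sqrt (‖x0‖ ^ 2 + ‖y‖ ^ 2 / 4) ≤ (‖x0 + y‖ + ‖x0 - y‖) / 2) (t : ℝ) :
    ∀ x : X, ‖x‖ = 1 → ∀ η : ℝ, 0 < η → ∃ F : Set X, Cof F ∧ ∀ y ∈ F, ‖y‖ = 1 →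
      Real.sqrt (1 + t ^ 2 / 4) - 1 - η ≤ (‖x + t • y‖ + ‖x - t • y‖) / 2 - 1 := by
  intro x hx η hη
  obtain ⟨x0, hx0, hx0D⟩ := Metric.dense_iff.1 hD x (η / 2) (by positivity)
  rw [Metric.mem_ball, dist_eq_norm] at hx0
  obtain ⟨F, hF, hFy⟩ := h x0 hx0D
  refine ⟨F, hF, fun y hy hy1 => ?_⟩
  have h1 := hFy (t • y) (hF.smul_mem t hy)
  rw [norm_smul, hy1, mul_one, Real.norm_eq_abs, sq_abs] at h1
  have h2 : ‖x0 + t • y‖ ≤ ‖x + t • y‖ + ‖x0 - x‖ := by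
    have : x0 + t • y = (x + t • y) + (x0 - x) := by abel
    rw [this]; exact norm_add_le _ _
  have h3 : ‖x0 - t • y‖ ≤ ‖x - t • y‖ + ‖x0 - x‖ := by
    have : x0 - t • y = (x - t • y) + (x0 - x) := by abel
    rw [this]; exact norm_add_le _ _
  have h4 := sqrt_sq_add_lipschitz ‖x0‖ 1 (c := t ^ 2 / 4) (by positivity)
  have h5 : |‖x0‖ - 1| ≤ ‖x0 - x‖ := by
    rw [← hx]; exact abs_norm_sub_norm_le _ _
  rw [one_pow] at h4
  linarith

end Crest.Agent.AMUC
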