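import Mathlib
import Crest.Prelude.Def_AsymptoticConvexity
import Crest.Prelude.Def_Diamond

/-! Combinatorial facts on the countably branching diamond graphs (helper2, package P5e). -/

set_option autoImplicit false

namespace Crest.Agent.AMUC

open Crest.AnalysisR

/-- old vertex of `D (k+1)` -/
def dInl {k : ℕ} (a : DiamondVertex k) : DiamondVertex (k + 1) := Sum.inl a

/-- new (middle) vertex of `D (k+1)` -/
def dInr {k : ℕ} (e : DiamondEdge k) (i : ℕ) : DiamondVertex (k + 1) := Sum.inr (e, i)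

/-- half edges of `D (k+1)` -/
def dEdge {k : ℕ} (e : DiamondEdge k) (i : ℕ) (b : Bool) : DiamondEdge (k + 1) := (e, i, b)

theorem src_false {k : ℕ} (e : DiamondEdge k) (i : ℕ) :
    diamondSrc (k + 1) (dEdge e i false) = dInl (diamondSrc k e) := rfl
theorem src_true {k : ℕ} (e : DiamondEdge k) (i : ℕ) :
    diamondSrc (k + 1) (dEdge e i true) = dInr e i := rfl
theorem tgt_false {k : ℕ} (e : DiamondEdge k) (i : ℕ) :
    diamondTgt (k + 1) (dEdge e i false) = dInr e i := rfl
theorem tgt_true {k : ℕ} (e : DiamondEdge k) (i : ℕ) :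
    diamondTgt (k + 1) (dEdge e i true) = dInl (diamondTgt k e) := rfl

theorem dInl_ne_dInr {k : ℕ} (a : DiamondVertex k) (e : DiamondEdge k) (i : ℕ) :
    dInl a ≠ dInr e i := Sum.inl_ne_inr
theorem dInr_ne_dInl {k : ℕ} (a : DiamondVertex k) (e : DiamondEdge k) (i : ℕ) :
    dInr e i ≠ dInl a := Sum.inr_ne_inl
theorem dInr_inj {k : ℕ} {e e' : DiamondEdge k} {i i' : ℕ} (h : dInr e i = dInr e' i') :
    e = e' ∧ i = i' := by
  have h1 : (e, i) = (e', i') := Sum.inr.inj h
  exact ⟨congrArg Prod.fst h1, congrArg Prod.snd h1⟩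

theorem vertex_cases {k : ℕ} (u : DiamondVertex (k + 1)) :
    (∃ a, u = dInl a) ∨ ∃ e i, u = dInr e i := by
  rcases u with a | ⟨e, i⟩
  · exact Or.inl ⟨a, rfl⟩
  · exact Or.inr ⟨e, i, rfl⟩

theorem edge_cases {k : ℕ} (e : DiamondEdge (k + 1)) :
    ∃ e' i b, e = dEdge e' i b := by
  rcases e with ⟨e', i, b⟩
  exact ⟨e', i, b, rfl⟩

theorem diamond_src_ne_tgt : ∀ (k : ℕ) (e : DiamondEdge k), diamondSrc k e ≠ diamondTgt k e
  | 0, _ => Bool.false_ne_true
  | _ + 1, (e, i, false) => dInl_ne_dInr _ e i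
  | _ + 1, (e, i, true) => dInr_ne_dInl _ e i

theorem diamond_adj_edge (k : ℕ) (e : DiamondEdge k) :
    (diamondGraph k).Adj (diamondSrc k e) (diamondTgt k e) := by
  rw [diamondGraph, SimpleGraph.fromRel_adj]
  exact ⟨diamond_src_ne_tgt k e, Or.inl ⟨e, rfl, rfl⟩⟩

theorem diamond_adj_cases {k : ℕ} {u v : DiamondVertex k} (h : (diamondGraph k).Adj u v) :
    ∃ e : DiamondEdge k, (diamondSrc k e = u ∧ diamondTgt k e = v) ∨
      (diamondSrc k e = v ∧ diamondTgt k e = u) := by
  rw [diamondGraph, SimpleGraph.fromRel_adj] at h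
  rcases h.2 with ⟨e, h1, h2⟩ | ⟨e, h1, h2⟩
  · exact ⟨e, Or.inl ⟨h1, h2⟩⟩
  · exact ⟨e, Or.inr ⟨h1, h2⟩⟩

theorem diamond_dist_edge (k : ℕ) (e : DiamondEdge k) :
    diamondDist k (diamondSrc k e) (diamondTgt k e) = 1 := by
  rw [diamondDist, SimpleGraph.dist_eq_one_iff_adj]
  exact diamond_adj_edge k e

/-- first half edge -/
theorem diamond_adj_left (k : ℕ) (e : DiamondEdge k) (i : ℕ) :
    (diamondGraph (k + 1)).Adj (dInl (diamondSrc k e)) (dInr e i) :=
  diamond_adj_edge (k + 1) (dEdge e i false)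

/-- second half edge -/
theorem diamond_adj_right (k : ℕ) (e : DiamondEdge k) (i : ℕ) :
    (diamondGraph (k + 1)).Adj (dInr e i) (dInl (diamondTgt k e)) :=
  diamond_adj_edge (k + 1) (dEdge e i true)

theorem diamond_reach_inl {k : ℕ} {u v : DiamondVertex k} (h : (diamondGraph k).Reachable u v) :
    (diamondGraph (k + 1)).Reachable (dInl u) (dInl v) := by
  obtain ⟨p⟩ := h
  induction p with
  | nil => exact SimpleGraph.Reachable.refl _
  | cons hadj _ ih =>
    refine SimpleGraph.Reachable.trans ?_ ih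
    obtain ⟨e, ⟨rfl, rfl⟩ | ⟨rfl, rfl⟩⟩ := diamond_adj_cases hadj
    · exact (diamond_adj_left k e 0).reachable.trans (diamond_adj_right k e 0).reachable
    · exact (diamond_adj_right k e 0).symm.reachable.trans (diamond_adj_left k e 0).symm.reachable

theorem diamond_preconnected : ∀ k : ℕ, (diamondGraph k).Preconnected
  | 0 => by
    have h : (diamondGraph 0).Reachable false true := (diamond_adj_edge 0 ()).reachable
    intro u v
    cases u <;> cases v
    · exact SimpleGraph.Reachable.refl _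
    · exact h
    · exact h.symm
    · exact SimpleGraph.Reachable.refl _
  | k + 1 => by
    have ih := diamond_preconnected k
    have key : ∀ (u : DiamondVertex (k + 1)),
        ∃ a : DiamondVertex k, (diamondGraph (k + 1)).Reachable u (dInl a) := by
      intro u
      rcases vertex_cases u with ⟨a, rfl⟩ | ⟨e, i, rfl⟩
      · exact ⟨a, SimpleGraph.Reachable.refl _⟩
      · exact ⟨_, (diamond_adj_right k e i).reachable⟩
    intro u v
    obtain ⟨a, ha⟩ := key u
    obtain ⟨b, hb⟩ := key v
    exact ha.trans ((diamond_reach_inl (ih a b)).trans hb.symm)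

/-- A function which increases by at most one along edges is bounded by the walk length. -/
theorem lip_walk {V : Type*} (G : SimpleGraph V) (g : V → ℤ)
    (hg : ∀ a b, G.Adj a b → g b ≤ g a + 1) {u v : V} (p : G.Walk u v) :
    g v ≤ g u + p.length := by
  induction p with
  | nil => simp
  | cons hadj p ih =>
    have := hg _ _ hadj
    simp only [SimpleGraph.Walk.length_cons]
    push_cast
    linarith

theorem lip_dist {V : Type*} (G : SimpleGraph V) (g : V → ℤ)
    (hg : ∀ a b, G.Adj a b → g b ≤ g a + 1) {u v : V} (h : G.Reachable u v) :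
    g v ≤ g u + G.dist u v := by
  obtain ⟨p, hp⟩ := h.exists_walk_length_eq_dist
  rw [← hp]
  exact lip_walk G g hg p

theorem diamond_dist_lip (k : ℕ) (u a b : DiamondVertex k) (h : (diamondGraph k).Adj a b) :
    ((diamondGraph k).dist u b : ℤ) ≤ (diamondGraph k).dist u a + 1 := by
  have h1 : (diamondGraph k).dist a b = 1 := SimpleGraph.dist_eq_one_iff_adj.mpr h
  have h2 := h.reachable.dist_triangle_right u
  omega

/-- the doubled potential -/
def liftPot {k : ℕ} (g : DiamondVertex k → ℤ) : DiamondVertex (k + 1) → ℤ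
  | Sum.inl a => 2 * g a
  | Sum.inr (e, _) => g (diamondSrc k e) + g (diamondTgt k e)

theorem liftPot_inl {k : ℕ} (g : DiamondVertex k → ℤ) (a : DiamondVertex k) :
    liftPot g (dInl a) = 2 * g a := rfl
theorem liftPot_inr {k : ℕ} (g : DiamondVertex k → ℤ) (e : DiamondEdge k) (i : ℕ) :
    liftPot g (dInr e i) = g (diamondSrc k e) + g (diamondTgt k e) := rfl

/-- Distances between old vertices at least double. -/
theorem diamond_dist_inl (k : ℕ) (u v : DiamondVertex k) :
    2 * diamondDist k u v ≤ diamondDist (k + 1) (dInl u) (dInl v) := by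
  set g : DiamondVertex k → ℤ := fun a => (diamondGraph k).dist u a with hg
  have hG : ∀ a b, (diamondGraph (k + 1)).Adj a b → liftPot g b ≤ liftPot g a + 1 := by
    intro a b hab
    obtain ⟨e', hh⟩ := diamond_adj_cases hab
    obtain ⟨e, i, c, rfl⟩ := edge_cases e'
    have h1 : g _ ≤ g _ + 1 := diamond_dist_lip k u _ _ (diamond_adj_edge k e)
    have h2 : g _ ≤ g _ + 1 := diamond_dist_lip k u _ _ (diamond_adj_edge k e).symm
    cases c
    · rw [src_false, tgt_false] at hh
      rcases hh with ⟨rfl, rfl⟩ | ⟨rfl, rfl⟩ <;> rw [liftPot_inl, liftPot_inr] <;> linarith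
    · rw [src_true, tgt_true] at hh
      rcases hh with ⟨rfl, rfl⟩ | ⟨rfl, rfl⟩ <;> rw [liftPot_inl, liftPot_inr] <;> linarith
  have := lip_dist (diamondGraph (k + 1)) (liftPot g) hG
    (diamond_preconnected (k + 1) (dInl u) (dInl v))
  rw [liftPot_inl, liftPot_inl] at this
  simp only [hg, SimpleGraph.dist_self] at this
  unfold diamondDist
  omega

/-- Two distinct middle vertices of the same edge are at distance at least two. -/
theorem diamond_dist_inr (k : ℕ) (e : DiamondEdge k) {i j : ℕ} (hij : i ≠ j) :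
    2 ≤ diamondDist (k + 1) (dInr e i) (dInr e j) := by
  unfold diamondDist
  refine (diamond_preconnected (k + 1) _ _).one_lt_dist_of_ne_of_not_adj ?_ ?_
  · intro h
    exact hij (dInr_inj h).2
  · intro hadj
    obtain ⟨e', hh⟩ := diamond_adj_cases hadj
    obtain ⟨e'', i', c, rfl⟩ := edge_cases e'
    cases c
    · rw [src_false, tgt_false] at hh
      rcases hh with ⟨h1, _⟩ | ⟨h1, _⟩ <;> exact dInl_ne_dInr _ _ _ h1
    · rw [src_true, tgt_true] at hh
      rcases hh with ⟨_, h1⟩ | ⟨_, h1⟩ <;> exact dInl_ne_dInr _ _ _ h1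

end Crest.Agent.AMUC
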