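import Mathlib
import Crest.Prelude.Def_AsymptoticConvexity
import Crest.Prelude.Def_Diamond
import Crest.Agent.Lib_AMUC.DiamondGraph

/-! The diamond distortion lemma (helper2, package P5e): a Banach space whose maximum-based
midpoint modulus is at least `√(1+t²/4) - 1` for all `t > 0` only admits embeddings of the
countably branching diamond `D k` with distortion `D² ≥ 1 + k/4`. -/

set_option autoImplicit false

namespace Crest.Agent.AMUC

open Crest.AnalysisR Filter Topology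

section Normed

variable {X : Type*} [NormedAddCommGroup X] [NormedSpace ℝ X]

/-- `t ↦ max ‖x + t y‖ ‖x - t y‖` is nondecreasing on `t ≥ 0`. -/
theorem max_norm_mono (x y : X) {t t' : ℝ} (ht : 0 ≤ t) (htt : t ≤ t') :
    max ‖x + t • y‖ ‖x - t • y‖ ≤ max ‖x + t' • y‖ ‖x - t' • y‖ := by
  rcases eq_or_lt_of_le (ht.trans htt) with h0 | h0
  · have : t = 0 := le_antisymm (by linarith) ht
    subst this
    rw [← h0]
  set M := max ‖x + t' • y‖ ‖x - t' • y‖ with hM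
  have hp : ‖x + t' • y‖ ≤ M := le_max_left _ _
  have hm : ‖x - t' • y‖ ≤ M := le_max_right _ _
  set l := t / t' with hl
  have hl0 : 0 ≤ l := div_nonneg ht h0.le
  have hl1 : l ≤ 1 := (div_le_one h0).mpr htt
  have hlt : l * t' = t := div_mul_cancel₀ _ h0.ne'
  have e1 : x + t • y = ((1 + l) / 2) • (x + t' • y) + ((1 - l) / 2) • (x - t' • y) := by
    rw [← hlt]
    module
  have e2 : x - t • y = ((1 - l) / 2) • (x + t' • y) + ((1 + l) / 2) • (x - t' • y) := by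
    rw [← hlt]
    module
  have ha : 0 ≤ (1 + l) / 2 := by linarith
  have hb : 0 ≤ (1 - l) / 2 := by linarith
  apply max_le
  · rw [e1]
    calc _ ≤ ‖((1 + l) / 2) • (x + t' • y)‖ + ‖((1 - l) / 2) • (x - t' • y)‖ := norm_add_le _ _
      _ = (1 + l) / 2 * ‖x + t' • y‖ + (1 - l) / 2 * ‖x - t' • y‖ := by
        rw [norm_smul, norm_smul, Real.norm_of_nonneg ha, Real.norm_of_nonneg hb]
      _ ≤ (1 + l) / 2 * M + (1 - l) / 2 * M := by gcongr
      _ = M := by ring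
  · rw [e2]
    calc _ ≤ ‖((1 - l) / 2) • (x + t' • y)‖ + ‖((1 + l) / 2) • (x - t' • y)‖ := norm_add_le _ _
      _ = (1 - l) / 2 * ‖x + t' • y‖ + (1 + l) / 2 * ‖x - t' • y‖ := by
        rw [norm_smul, norm_smul, Real.norm_of_nonneg ha, Real.norm_of_nonneg hb]
      _ ≤ (1 - l) / 2 * M + (1 + l) / 2 * M := by gcongr
      _ = M := by ring

/-- Pigeonhole in the finite-dimensional quotient: a bounded sequence has two distinct terms whose
difference is nearly in `S`. -/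
theorem exists_pair_near (S : Submodule ℝ X) (hS : IsClosed (S : Set X))
    [FiniteDimensional ℝ (X ⧸ S)] (w : ℕ → X) (C : ℝ) (hw : ∀ i, ‖w i‖ ≤ C) {ε : ℝ}
    (hε : 0 < ε) : ∃ i j, i ≠ j ∧ ∃ y ∈ S, ‖w i - w j - y‖ < ε := by
  have := hS
  have : ProperSpace (X ⧸ S) := FiniteDimensional.proper_real _
  let q : ℕ → X ⧸ S := fun i => Submodule.Quotient.mk (w i)
  have hq : ∀ i, q i ∈ Metric.closedBall (0 : X ⧸ S) C := by
    intro i
    rw [mem_closedBall_zero_iff]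
    exact (Submodule.Quotient.norm_mk_le S (w i)).trans (hw i)
  obtain ⟨a, -, φ, hφ, hlim⟩ := tendsto_subseq_of_bounded Metric.isBounded_closedBall hq
  have hev : ∀ᶠ n in atTop, dist ((q ∘ φ) n) a < ε / 2 :=
    (Metric.tendsto_nhds.mp hlim) (ε / 2) (by linarith)
  obtain ⟨N, hN⟩ := eventually_atTop.mp hev
  have h1 := hN N le_rfl
  have h2 := hN (N + 1) (Nat.le_succ N)
  have h3 : dist (q (φ N)) (q (φ (N + 1))) < ε := by
    calc _ ≤ dist (q (φ N)) a + dist (q (φ (N + 1))) a := dist_triangle_right _ _ _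
      _ < ε := by
        simp only [Function.comp] at h1 h2
        linarith
  refine ⟨φ N, φ (N + 1), (hφ (Nat.lt_succ_self N)).ne, ?_⟩
  rw [dist_eq_norm] at h3
  obtain ⟨m, hm, hm2⟩ := Submodule.Quotient.norm_mk_lt (q (φ N) - q (φ (N + 1)))
    (sub_pos.mpr h3)
  have hm3 : (Submodule.Quotient.mk m : X ⧸ S)
      = Submodule.Quotient.mk (w (φ N) - w (φ (N + 1))) := by
    rw [hm, Submodule.Quotient.mk_sub]
  have hm4 : w (φ N) - w (φ (N + 1)) - m ∈ S := by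
    rw [← Submodule.Quotient.eq]
    exact hm3.symm
  refine ⟨_, hm4, ?_⟩
  have : w (φ N) - w (φ (N + 1)) - (w (φ N) - w (φ (N + 1)) - m) = m := by abel
  rw [this]
  linarith

/-- The unbundled form of "the maximum-based midpoint modulus is `≥ √(1+t²/4) - 1` for all `t`". -/
def MaxMod (X : Type*) [NormedAddCommGroup X] [NormedSpace ℝ X] : Prop :=
  ∀ t : ℝ, 0 < t → ∀ x : X, ‖x‖ = 1 → ∀ η : ℝ, 0 < η → ∃ S : Submodule ℝ X,
    IsClosed (S : Set X) ∧ FiniteDimensional ℝ (X ⧸ S) ∧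
      ∀ y ∈ S, ‖y‖ = 1 → Real.sqrt (1 + t ^ 2 / 4) - 1 - η ≤ max ‖x + t • y‖ ‖x - t • y‖ - 1

/-- Homogeneous form of the modulus estimate. -/
theorem MaxMod.hom (h : MaxMod X) (z : X) (hz : z ≠ 0) {r η : ℝ} (hr : 0 < r) (hη : 0 < η) :
    ∃ S : Submodule ℝ X, IsClosed (S : Set X) ∧ FiniteDimensional ℝ (X ⧸ S) ∧
      ∀ y ∈ S, r ≤ ‖y‖ → Real.sqrt (‖z‖ ^ 2 + r ^ 2 / 4) - η ≤ max ‖z + y‖ ‖z - y‖ := by
  set ν := ‖z‖ with hν
  have hν0 : 0 < ν := norm_pos_iff.mpr hz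
  have hx : ‖ν⁻¹ • z‖ = 1 := by
    rw [norm_smul, Real.norm_of_nonneg (inv_nonneg.mpr hν0.le), ← hν]
    exact inv_mul_cancel₀ hν0.ne'
  obtain ⟨S, hS1, hS2, hS3⟩ := h (r / ν) (div_pos hr hν0) (ν⁻¹ • z) hx (η / ν) (div_pos hη hν0)
  refine ⟨S, hS1, hS2, ?_⟩
  intro y hy hry
  have hy0 : 0 < ‖y‖ := lt_of_lt_of_le hr hry
  have hyu : ‖‖y‖⁻¹ • y‖ = 1 := by
    rw [norm_smul, Real.norm_of_nonneg (inv_nonneg.mpr hy0.le)]
    exact inv_mul_cancel₀ hy0.ne'
  have h1 := hS3 (‖y‖⁻¹ • y) (S.smul_mem _ hy) hyu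
  have h2 := max_norm_mono (ν⁻¹ • z) (‖y‖⁻¹ • y) (div_pos hr hν0).le
    (div_le_div_of_nonneg_right hry hν0.le)
  have e1 : ν⁻¹ • z + (‖y‖ / ν) • ‖y‖⁻¹ • y = ν⁻¹ • (z + y) := by
    rw [smul_smul, smul_add]
    congr 2
    field_simp
  have e2 : ν⁻¹ • z - (‖y‖ / ν) • ‖y‖⁻¹ • y = ν⁻¹ • (z - y) := by
    rw [smul_smul, smul_sub]
    congr 2
    field_simp
  rw [e1, e2, norm_smul, norm_smul, Real.norm_of_nonneg (inv_nonneg.mpr hν0.le),
    ← mul_max_of_nonneg _ _ (inv_nonneg.mpr hν0.le)] at h2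
  have h3 : Real.sqrt (ν ^ 2 + r ^ 2 / 4) = ν * Real.sqrt (1 + (r / ν) ^ 2 / 4) := by
    rw [← Real.sqrt_sq hν0.le, ← Real.sqrt_mul (sq_nonneg ν), Real.sqrt_sq hν0.le]
    congr 1
    field_simp
  rw [h3]
  have h4 : Real.sqrt (1 + (r / ν) ^ 2 / 4) - η / ν ≤ ν⁻¹ * max ‖z + y‖ ‖z - y‖ := by linarith
  have h5 := mul_le_mul_of_nonneg_left h4 hν0.le
  rw [mul_sub, ← mul_assoc, mul_inv_cancel₀ hν0.ne', one_mul, mul_div_cancel₀ _ hν0.ne'] at h5
  exact h5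

/-- One edge replacement: the key estimate. -/
theorem MaxMod.key_step (h : MaxMod X) (z : X) (w : ℕ → X) (B s : ℝ) (hs : 0 ≤ s)
    (h1 : ∀ i, ‖z + w i‖ ≤ B) (h2 : ∀ i, ‖z - w i‖ ≤ B)
    (h3 : ∀ i j, i ≠ j → 2 * s ≤ ‖w i - w j‖) :
    ‖z‖ ^ 2 + s ^ 2 / 4 ≤ B ^ 2 := by
  have hB : 0 ≤ B := (norm_nonneg _).trans (h1 0)
  -- midpoint differences
  have hplus : ∀ i j, ‖z + (1 / 2 : ℝ) • (w i - w j)‖ ≤ B := by
    intro i j
    have e : z + (1 / 2 : ℝ) • (w i - w j) = (1 / 2 : ℝ) • (z + w i) + (1 / 2 : ℝ) • (z - w j) := by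
      module
    rw [e]
    calc _ ≤ ‖(1 / 2 : ℝ) • (z + w i)‖ + ‖(1 / 2 : ℝ) • (z - w j)‖ := norm_add_le _ _
      _ = 1 / 2 * ‖z + w i‖ + 1 / 2 * ‖z - w j‖ := by
        rw [norm_smul, norm_smul, Real.norm_of_nonneg (by norm_num : (0 : ℝ) ≤ 1 / 2)]
      _ ≤ B := by linarith [h1 i, h2 j]
  have hminus : ∀ i j, ‖z - (1 / 2 : ℝ) • (w i - w j)‖ ≤ B := by
    intro i j
    have e : z - (1 / 2 : ℝ) • (w i - w j) = z + (1 / 2 : ℝ) • (w j - w i) := by module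
    rw [e]
    exact hplus j i
  have hlow : ∀ i j, i ≠ j → s ≤ ‖(1 / 2 : ℝ) • (w i - w j)‖ := by
    intro i j hij
    rw [norm_smul, Real.norm_of_nonneg (by norm_num : (0 : ℝ) ≤ 1 / 2)]
    linarith [h3 i j hij]
  rcases eq_or_lt_of_le hs with hs0 | hs0
  · -- s = 0
    rw [← hs0]
    have e : z = (1 / 2 : ℝ) • (z + w 0) + (1 / 2 : ℝ) • (z - w 0) := by module
    have : ‖z‖ ≤ B := by
      calc ‖z‖ = ‖(1 / 2 : ℝ) • (z + w 0) + (1 / 2 : ℝ) • (z - w 0)‖ := by rw [← e]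
        _ ≤ ‖(1 / 2 : ℝ) • (z + w 0)‖ + ‖(1 / 2 : ℝ) • (z - w 0)‖ := norm_add_le _ _
        _ = 1 / 2 * ‖z + w 0‖ + 1 / 2 * ‖z - w 0‖ := by
          rw [norm_smul, norm_smul, Real.norm_of_nonneg (by norm_num : (0 : ℝ) ≤ 1 / 2)]
        _ ≤ B := by linarith [h1 0, h2 0]
    have := pow_le_pow_left₀ (norm_nonneg z) this 2
    linarith
  by_cases hz : z = 0
  · subst hz
    have a1 := hlow 0 1 (by norm_num)
    have a2 := hplus 0 1
    rw [zero_add] at a2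
    have := pow_le_pow_left₀ hs (a1.trans a2) 2
    rw [norm_zero]
    nlinarith
  -- main case
  have hw : ∀ i, ‖w i‖ ≤ B := by
    intro i
    have e : w i = (1 / 2 : ℝ) • (z + w i) - (1 / 2 : ℝ) • (z - w i) := by module
    calc ‖w i‖ = ‖(1 / 2 : ℝ) • (z + w i) - (1 / 2 : ℝ) • (z - w i)‖ := by rw [← e]
      _ ≤ ‖(1 / 2 : ℝ) • (z + w i)‖ + ‖(1 / 2 : ℝ) • (z - w i)‖ := norm_sub_le _ _
      _ = 1 / 2 * ‖z + w i‖ + 1 / 2 * ‖z - w i‖ := by
        rw [norm_smul, norm_smul, Real.norm_of_nonneg (by norm_num : (0 : ℝ) ≤ 1 / 2)]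
      _ ≤ B := by linarith [h1 i, h2 i]
  have main : ∀ ε ∈ Set.Ioo (0 : ℝ) s, ‖z‖ ^ 2 + (s - ε) ^ 2 / 4 ≤ (B + 2 * ε) ^ 2 := by
    intro ε hε
    obtain ⟨hε0, hεs⟩ := hε
    obtain ⟨S, hS1, hS2, hS3⟩ := h.hom z hz (sub_pos.mpr hεs) hε0
    have := hS2
    obtain ⟨i, j, hij, y0, hy0, hy1⟩ := exists_pair_near S hS1 w B hw
      (by linarith : (0 : ℝ) < 2 * ε)
    set y' := (1 / 2 : ℝ) • (w i - w j) with hy'
    set y := (1 / 2 : ℝ) • y0 with hy
    have hyS : y ∈ S := S.smul_mem _ hy0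
    have hd : ‖y' - y‖ < ε := by
      have e : y' - y = (1 / 2 : ℝ) • (w i - w j - y0) := by
        rw [hy', hy]
        module
      rw [e, norm_smul, Real.norm_of_nonneg (by norm_num : (0 : ℝ) ≤ 1 / 2)]
      linarith
    have hyr : s - ε ≤ ‖y‖ := by
      have a1 := hlow i j hij
      have a2 : ‖y'‖ ≤ ‖y‖ + ‖y' - y‖ := by
        calc ‖y'‖ = ‖y + (y' - y)‖ := by rw [add_sub_cancel]
          _ ≤ _ := norm_add_le _ _
      linarith
    have b0 := hS3 y hyS hyr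
    have b1 : ‖z + y‖ ≤ B + ε := by
      have e : z + y = (z + y') - (y' - y) := by abel
      calc ‖z + y‖ = ‖(z + y') - (y' - y)‖ := by rw [← e]
        _ ≤ ‖z + y'‖ + ‖y' - y‖ := norm_sub_le _ _
        _ ≤ B + ε := by linarith [hplus i j]
    have b2 : ‖z - y‖ ≤ B + ε := by
      have e : z - y = (z - y') + (y' - y) := by abel
      calc ‖z - y‖ = ‖(z - y') + (y' - y)‖ := by rw [← e]
        _ ≤ ‖z - y'‖ + ‖y' - y‖ := norm_add_le _ _
        _ ≤ B + ε := by linarith [hminus i j]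
    have b3 : Real.sqrt (‖z‖ ^ 2 + (s - ε) ^ 2 / 4) ≤ B + 2 * ε := by
      linarith [max_le b1 b2]
    have b4 : 0 ≤ ‖z‖ ^ 2 + (s - ε) ^ 2 / 4 := by positivity
    calc ‖z‖ ^ 2 + (s - ε) ^ 2 / 4 = Real.sqrt (‖z‖ ^ 2 + (s - ε) ^ 2 / 4) ^ 2 :=
          (Real.sq_sqrt b4).symm
      _ ≤ (B + 2 * ε) ^ 2 := pow_le_pow_left₀ (Real.sqrt_nonneg _) b3 2
  -- let ε → 0
  have t1 : Tendsto (fun ε : ℝ => ‖z‖ ^ 2 + (s - ε) ^ 2 / 4) (𝓝[>] 0) (𝓝 (‖z‖ ^ 2 + s ^ 2 / 4)) := by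
    have : Continuous (fun ε : ℝ => ‖z‖ ^ 2 + (s - ε) ^ 2 / 4) := by fun_prop
    exact (this.tendsto' 0 _ (by simp)).mono_left nhdsWithin_le_nhds
  have t2 : Tendsto (fun ε : ℝ => (B + 2 * ε) ^ 2) (𝓝[>] 0) (𝓝 (B ^ 2)) := by
    have : Continuous (fun ε : ℝ => (B + 2 * ε) ^ 2) := by fun_prop
    exact (this.tendsto' 0 _ (by simp)).mono_left nhdsWithin_le_nhds
  refine le_of_tendsto_of_tendsto t1 t2 ?_
  filter_upwards [Ioo_mem_nhdsGT hs0] with ε hε using main ε hε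

/-- The induction on the depth of the diamond. -/
theorem MaxMod.diamond_ind (h : MaxMod X) : ∀ (k : ℕ) (f : DiamondVertex k → X) (s Q : ℝ), 0 ≤ s →
    (∀ u v, s * (diamondDist k u v : ℝ) ≤ ‖f u - f v‖) →
    (∀ e, ‖f (diamondSrc k e) - f (diamondTgt k e)‖ ^ 2 ≤ Q) →
    s ^ 2 * (1 + (k : ℝ) / 4) ≤ Q := by
  intro k
  induction k with
  | zero =>
    intro f s Q hs h1 h2
    obtain ⟨e0⟩ : Nonempty (DiamondEdge 0) := ⟨()⟩
    have a1 := h1 (diamondSrc 0 e0) (diamondTgt 0 e0)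
    rw [diamond_dist_edge] at a1
    have a2 := h2 e0
    have a3 : s ≤ ‖f (diamondSrc 0 e0) - f (diamondTgt 0 e0)‖ := by simpa using a1
    have a4 := pow_le_pow_left₀ hs a3 2
    simp only [Nat.cast_zero, zero_div, add_zero, mul_one]
    linarith
  | succ k ih =>
    intro f s Q hs h1 h2
    have hQ : 0 ≤ Q := by
      obtain ⟨e⟩ : Nonempty (DiamondEdge (k + 1)) := by
        clear ih h1 h2 f
        induction k with
        | zero => exact ⟨dEdge () 0 false⟩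
        | succ k ih => obtain ⟨e⟩ := ih; exact ⟨dEdge e 0 false⟩
      exact (sq_nonneg _).trans (h2 e)
    have key := ih (fun a => f (dInl a)) (2 * s) (4 * Q - s ^ 2) (by linarith) ?_ ?_
    · push_cast
      nlinarith
    · intro u v
      have a1 := h1 (dInl u) (dInl v)
      have a2 : (2 : ℝ) * (diamondDist k u v : ℝ) ≤ (diamondDist (k + 1) (dInl u) (dInl v) : ℝ) := by
        exact_mod_cast diamond_dist_inl k u v
      have a3 := mul_le_mul_of_nonneg_left a2 hs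
      calc 2 * s * (diamondDist k u v : ℝ) = s * (2 * (diamondDist k u v : ℝ)) := by ring
        _ ≤ _ := a3.trans a1
    · intro e
      set a := f (dInl (diamondSrc k e)) with ha
      set b := f (dInl (diamondTgt k e)) with hb
      have c1 : ∀ i, ‖(1 / 2 : ℝ) • (a - b) + (f (dInr e i) - (1 / 2 : ℝ) • (a + b))‖
          ≤ Real.sqrt Q := by
        intro i
        have e1 : (1 / 2 : ℝ) • (a - b) + (f (dInr e i) - (1 / 2 : ℝ) • (a + b))
            = f (dInr e i) - b := by module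
        rw [e1]
        have := h2 (dEdge e i true)
        rw [src_true, tgt_true] at this
        exact Real.le_sqrt_of_sq_le this
      have c2 : ∀ i, ‖(1 / 2 : ℝ) • (a - b) - (f (dInr e i) - (1 / 2 : ℝ) • (a + b))‖
          ≤ Real.sqrt Q := by
        intro i
        have e1 : (1 / 2 : ℝ) • (a - b) - (f (dInr e i) - (1 / 2 : ℝ) • (a + b))
            = a - f (dInr e i) := by module
        rw [e1]
        have := h2 (dEdge e i false)
        rw [src_false, tgt_false] at this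
        exact Real.le_sqrt_of_sq_le this
      have c3 : ∀ i j, i ≠ j → 2 * s ≤ ‖(f (dInr e i) - (1 / 2 : ℝ) • (a + b))
          - (f (dInr e j) - (1 / 2 : ℝ) • (a + b))‖ := by
        intro i j hij
        rw [sub_sub_sub_cancel_right]
        have a1 := h1 (dInr e i) (dInr e j)
        have a2 : (2 : ℝ) ≤ (diamondDist (k + 1) (dInr e i) (dInr e j) : ℝ) := by
          exact_mod_cast diamond_dist_inr k e hij
        have a3 := mul_le_mul_of_nonneg_left a2 hs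
        linarith
      have c4 := h.key_step ((1 / 2 : ℝ) • (a - b)) (fun i => f (dInr e i) - (1 / 2 : ℝ) • (a + b))
        (Real.sqrt Q) s hs c1 c2 c3
      rw [Real.sq_sqrt hQ, norm_smul, Real.norm_of_nonneg (by norm_num : (0 : ℝ) ≤ 1 / 2)] at c4
      nlinarith

end Normed

/-- **Diamond lemma** (package P5e). -/
theorem diamond_distortion (E : RealBanach)
    (h : ∀ t : ℝ, 0 < t → E.MaxMidpointModulusGE E.norm t (Real.sqrt (1 + t ^ 2 / 4) - 1))
    (k : ℕ) (f : DiamondVertex k → E.X) (D : ℝ) (hD : E.HasDistortionLE k f D) :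
    1 + (k : ℝ) / 4 ≤ D ^ 2 := by
  let _ := E.normed
  let _ := E.space
  have hmod : MaxMod E.X := by
    intro t ht x hx η hη
    obtain ⟨F, ⟨S, hSF, hcl, hfd⟩, hF⟩ := h t ht x hx η hη
    refine ⟨S, hSF ▸ hcl, hfd, ?_⟩
    intro y hy hy1
    exact hF y (hSF ▸ hy) hy1
  obtain ⟨s, hs, hf⟩ := hD
  have key := hmod.diamond_ind k f s ((D * s) ^ 2) hs.le (fun u v => (hf u v).1) ?_
  · have hs2 : 0 < s ^ 2 := by positivity
    have : s ^ 2 * (1 + (k : ℝ) / 4) ≤ s ^ 2 * D ^ 2 := by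
      calc _ ≤ (D * s) ^ 2 := key
        _ = s ^ 2 * D ^ 2 := by ring
    exact le_of_mul_le_mul_left this hs2
  · intro e
    have a1 := (hf (diamondSrc k e) (diamondTgt k e)).2
    rw [diamond_dist_edge] at a1
    have a2 : ‖f (diamondSrc k e) - f (diamondTgt k e)‖ ≤ D * s := by simpa using a1
    exact pow_le_pow_left₀ (norm_nonneg _) a2 2

end Crest.Agent.AMUC
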