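import Mathlib
import Crest.Prelude.Def_DaugavetL1
import Crest.Agent.Lib_AMUC.Common

/-!
Package P3 of the AMUC row: lower bounds for the asymptotic moduli of a subspace of `L¹` whose unit
ball is totally bounded in measure (S0167).  Part 1: estimates for integrable functions.
-/

open MeasureTheory

set_option linter.unusedSectionVars false

namespace Crest.Agent.AMUC

variable {Ω : Type} [MeasurableSpace Ω] {P : Measure Ω} [IsProbabilityMeasure P]

/-- splitting lemma: if `v` is small off `A`, then `‖u+v‖₁ ≥ ‖u‖₁ + ‖v‖₁ - 2∫_A|u| - 2c`. -/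
lemma integral_abs_add_ge {u v : Ω → ℝ} (hu : Integrable u P) (hv : Integrable v P) {A : Set Ω}
    (hA : MeasurableSet A) {c : ℝ} (hc : 0 ≤ c) (hvc : ∀ ω, ω ∉ A → |v ω| ≤ c) :
    ∫ ω, |u ω| ∂P + ∫ ω, |v ω| ∂P - 2 * ∫ ω in A, |u ω| ∂P - 2 * c ≤ ∫ ω, |u ω + v ω| ∂P := by
  have hpt : ∀ ω, |u ω| + |v ω| - 2 * A.indicator (fun ω => |u ω|) ω - 2 * c ≤ |u ω + v ω| := by
    intro ω
    by_cases h : ω ∈ A
    · rw [Set.indicator_of_mem h]
      have h1 : |v ω| - |u ω| ≤ |u ω + v ω| := by
        have := abs_sub_abs_le_abs_sub (v ω) (-u ω)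
        rw [abs_neg, sub_neg_eq_add, add_comm (v ω)] at this
        exact this
      linarith
    · rw [Set.indicator_of_notMem h]
      have h1 : |u ω| - |v ω| ≤ |u ω + v ω| := by
        have := abs_sub_abs_le_abs_sub (u ω) (-v ω)
        rw [abs_neg, sub_neg_eq_add] at this
        exact this
      have := hvc ω h
      linarith
  have hi1 : Integrable (fun ω => |u ω|) P := hu.abs
  have hi2 : Integrable (fun ω => |v ω|) P := hv.abs
  have hi3 : Integrable (A.indicator (fun ω => |u ω|)) P := hi1.indicator hA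
  have hmono := integral_mono (μ := P)
    (f := fun ω => |u ω| + |v ω| - 2 * A.indicator (fun ω => |u ω|) ω - 2 * c)
    (g := fun ω => |u ω + v ω|)
    (((hi1.add hi2).sub (hi3.const_mul 2)).sub (integrable_const _)) (hu.add hv).abs hpt
  have hcalc : ∫ ω, (|u ω| + |v ω| - 2 * A.indicator (fun ω => |u ω|) ω - 2 * c) ∂P =
      ∫ ω, |u ω| ∂P + ∫ ω, |v ω| ∂P - 2 * ∫ ω in A, |u ω| ∂P - 2 * c := by
    have h12 : Integrable (fun ω => |u ω| + |v ω|) P := hi1.add hi2
    have h3 : Integrable (fun ω => 2 * A.indicator (fun ω => |u ω|) ω) P := hi3.const_mul 2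
    have h123 : Integrable (fun ω => |u ω| + |v ω| - 2 * A.indicator (fun ω => |u ω|) ω) P :=
      h12.sub h3
    rw [integral_sub h123 (integrable_const _), integral_sub h12 h3, integral_add hi1 hi2,
      integral_const_mul, integral_indicator hA]
    simp
  rw [hcalc] at hmono
  exact hmono

/-- truncation of `g` at height `M`. -/
noncomputable def trunc (M : ℝ) (g : Ω → ℝ) : Ω → ℝ := fun ω => if |g ω| ≤ M then g ω else 0

/-- a sign function (value `1` at `0`). -/
noncomputable def sgn (h : Ω → ℝ) : Ω → ℝ := fun ω => if 0 ≤ h ω then 1 else -1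

lemma measurable_trunc {M : ℝ} {g : Ω → ℝ} (hg : Measurable g) : Measurable (trunc M g) :=
  Measurable.ite (measurableSet_le hg.abs measurable_const) hg measurable_const

lemma abs_trunc_le (M : ℝ) (g : Ω → ℝ) (ω : Ω) : |trunc M g ω| ≤ |g ω| := by
  unfold trunc
  split_ifs
  · exact le_rfl
  · simp

lemma abs_trunc_le_bound {M : ℝ} (hM : 0 ≤ M) (g : Ω → ℝ) (ω : Ω) : |trunc M g ω| ≤ M := by
  unfold trunc
  split_ifs with h
  · exact h
  · simpa using hM

lemma trunc_of_le {M : ℝ} {g : Ω → ℝ} {ω : Ω} (h : |g ω| ≤ M) : trunc M g ω = g ω := by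
  unfold trunc; rw [if_pos h]

lemma trunc_of_lt {M : ℝ} {g : Ω → ℝ} {ω : Ω} (h : M < |g ω|) : trunc M g ω = 0 := by
  unfold trunc; rw [if_neg (not_le.mpr h)]

lemma integrable_trunc {M : ℝ} {g : Ω → ℝ} (hg : Integrable g P) (hgm : Measurable g) :
    Integrable (trunc M g) P :=
  hg.mono (measurable_trunc hgm).aestronglyMeasurable
    (Filter.Eventually.of_forall fun ω => by
      rw [Real.norm_eq_abs, Real.norm_eq_abs]; exact abs_trunc_le M g ω)

lemma measurable_sgn {h : Ω → ℝ} (hh : Measurable h) : Measurable (sgn h) :=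
  Measurable.ite (measurableSet_le measurable_const hh) measurable_const measurable_const

lemma abs_sgn (h : Ω → ℝ) (ω : Ω) : |sgn h ω| = 1 := by
  unfold sgn
  split_ifs <;> simp

lemma sgn_mul_self (h : Ω → ℝ) (ω : Ω) : sgn h ω * h ω = |h ω| := by
  unfold sgn
  split_ifs with h0
  · rw [one_mul, abs_of_nonneg h0]
  · rw [abs_of_neg (not_le.mp h0)]; ring

/-- one step: replacing `y` by its truncated net point `trunc M g`. -/
lemma step_ge {x y g : Ω → ℝ} (hx : Integrable x P) (hy : Integrable y P) (hg : Integrable g P)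
    (hym : Measurable y) (hgm : Measurable g) {M ε : ℝ} (hM : 0 ≤ M) (hε : 0 ≤ ε) (c : ℝ) :
    ∫ ω, |x ω + c * trunc M g ω| ∂P + |c| * ∫ ω, |y ω - trunc M g ω| ∂P
      - 2 * (∫ ω in {ω | ε < |y ω - g ω|} ∪ {ω | M < |g ω|}, |x ω| ∂P
          + |c| * (M * P.real {ω | ε < |y ω - g ω|})) - 2 * (|c| * ε)
      ≤ ∫ ω, |x ω + c * y ω| ∂P := by
  set gh := trunc M g with hgh
  set B := {ω | ε < |y ω - g ω|} with hB
  set A := B ∪ {ω | M < |g ω|} with hAdef
  have hBm : MeasurableSet B := measurableSet_lt measurable_const (hym.sub hgm).abs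
  have hAm : MeasurableSet A := hBm.union (measurableSet_lt measurable_const hgm.abs)
  have hghi : Integrable gh P := integrable_trunc hg hgm
  have hu : Integrable (fun ω => x ω + c * gh ω) P := hx.add (hghi.const_mul c)
  have hv : Integrable (fun ω => c * (y ω - gh ω)) P := (hy.sub hghi).const_mul c
  have hoff : ∀ ω, ω ∉ A → |c * (y ω - gh ω)| ≤ |c| * ε := by
    intro ω hω
    have h1 : ¬ ε < |y ω - g ω| := fun h => hω (Or.inl h)
    have h2 : ¬ M < |g ω| := fun h => hω (Or.inr h)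
    rw [abs_mul, hgh, trunc_of_le (not_lt.mp h2)]
    exact mul_le_mul_of_nonneg_left (not_lt.mp h1) (abs_nonneg c)
  have key := integral_abs_add_ge hu hv hAm (mul_nonneg (abs_nonneg c) hε) hoff
  have e1 : ∫ ω, |c * (y ω - gh ω)| ∂P = |c| * ∫ ω, |y ω - gh ω| ∂P := by
    simp_rw [abs_mul]
    rw [integral_const_mul]
  have e2 : ∀ ω, x ω + c * gh ω + c * (y ω - gh ω) = x ω + c * y ω := fun ω => by ring
  simp_rw [e2] at key
  rw [e1] at key
  -- bound of the integral over `A`
  have hA1 : ∫ ω in A, |gh ω| ∂P ≤ M * P.real B := by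
    rw [← integral_indicator hAm]
    have h2 : ∫ ω, B.indicator (fun _ => M) ω ∂P = M * P.real B := by
      rw [integral_indicator_const _ hBm, smul_eq_mul, mul_comm]
    rw [← h2]
    apply integral_mono (hghi.abs.indicator hAm) ((integrable_const M).indicator hBm)
    intro ω
    by_cases hωB : ω ∈ B
    · rw [Set.indicator_of_mem hωB]
      by_cases hωA : ω ∈ A
      · rw [Set.indicator_of_mem hωA]; exact abs_trunc_le_bound hM g ω
      · rw [Set.indicator_of_notMem hωA]; exact hM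
    · rw [Set.indicator_of_notMem hωB]
      by_cases hωA : ω ∈ A
      · rw [Set.indicator_of_mem hωA]
        have : M < |g ω| := hωA.resolve_left hωB
        show |gh ω| ≤ 0
        rw [hgh, trunc_of_lt this, abs_zero]
      · rw [Set.indicator_of_notMem hωA]
  have hA2 : ∫ ω in A, |x ω + c * gh ω| ∂P ≤ ∫ ω in A, |x ω| ∂P + |c| * (M * P.real B) := by
    have h3 : ∫ ω in A, |x ω + c * gh ω| ∂P ≤ ∫ ω in A, (|x ω| + |c| * |gh ω|) ∂P := by
      apply integral_mono hu.abs.integrableOn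
        (hx.abs.integrableOn.add (hghi.abs.integrableOn.const_mul _))
      intro ω
      calc |x ω + c * gh ω| ≤ |x ω| + |c * gh ω| := abs_add_le _ _
        _ = |x ω| + |c| * |gh ω| := by rw [abs_mul]
    have h4 : ∫ ω in A, (|x ω| + |c| * |gh ω|) ∂P =
        ∫ ω in A, |x ω| ∂P + |c| * ∫ ω in A, |gh ω| ∂P := by
      rw [integral_add hx.abs.integrableOn (hghi.abs.integrableOn.const_mul _), integral_const_mul]
    rw [h4] at h3
    have h5 := mul_le_mul_of_nonneg_left hA1 (abs_nonneg c)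
    linarith
  linarith

/-- the core estimate, for functions. -/
theorem core_lower {x y g : Ω → ℝ} (hx : Integrable x P) (hy : Integrable y P)
    (hg : Integrable g P) (hym : Measurable y) (hgm : Measurable g) {M ε κ t : ℝ} (hM : 0 ≤ M)
    (hε : 0 ≤ ε) (ht : 0 < t) (hx1 : ∫ ω, |x ω| ∂P = 1) (hy1 : ∫ ω, |y ω| ∂P = 1)
    (hker : ∫ ω, sgn (trunc M g) ω * y ω ∂P = 0)
    (hxA : ∫ ω in {ω | ε < |y ω - g ω|} ∪ {ω | M < |g ω|}, |x ω| ∂P ≤ κ)
    (hB : P.real {ω | ε < |y ω - g ω|} ≤ ε) :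
    (max 1 (t - 1) - (2 * κ + 2 * t * M * ε + 2 * t * ε) ≤ ∫ ω, |x ω + t * y ω| ∂P) ∧
    (max (1 + t / 2) t - (2 * κ + 2 * t * M * ε + 2 * t * ε) ≤
      (∫ ω, |x ω + t * y ω| ∂P + ∫ ω, |x ω + (-t) * y ω| ∂P) / 2) := by
  have hp := step_ge hx hy hg hym hgm hM hε t
  have hn := step_ge hx hy hg hym hgm hM hε (-t)
  rw [abs_neg] at hn
  rw [abs_of_pos ht] at hp hn
  set gh := trunc M g with hgh
  have hghm : Measurable gh := measurable_trunc hgm
  have hghi : Integrable gh P := integrable_trunc hg hgm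
  set w := ∫ ω, |gh ω| ∂P with hw
  set R := ∫ ω, |y ω - gh ω| ∂P with hR
  set ap := ∫ ω, |x ω + t * gh ω| ∂P with hap
  set an := ∫ ω, |x ω + (-t) * gh ω| ∂P with han
  set b := P.real {ω | ε < |y ω - g ω|} with hb
  have hRi : Integrable (fun ω => |y ω - gh ω|) P := (hy.sub hghi).abs
  -- `R ≥ 1 - w`
  have hR1 : 1 - w ≤ R := by
    have h1 : ∫ ω, |y ω| ∂P ≤ ∫ ω, (|y ω - gh ω| + |gh ω|) ∂P := by
      apply integral_mono hy.abs (hRi.add hghi.abs)
      intro ω
      have := abs_add_le (y ω - gh ω) (gh ω)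
      rwa [sub_add_cancel] at this
    rw [integral_add hRi hghi.abs, hy1] at h1
    linarith
  -- `R ≥ w`
  have hsy : Integrable (fun ω => sgn gh ω * y ω) P :=
    hy.bdd_mul (c := 1) (measurable_sgn hghm).aestronglyMeasurable
      (Filter.Eventually.of_forall fun ω => by rw [Real.norm_eq_abs, abs_sgn])
  have hsg : Integrable (fun ω => sgn gh ω * gh ω) P :=
    hghi.bdd_mul (c := 1) (measurable_sgn hghm).aestronglyMeasurable
      (Filter.Eventually.of_forall fun ω => by rw [Real.norm_eq_abs, abs_sgn])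
  have hR2 : w ≤ R := by
    have h1 : w = ∫ ω, (sgn gh ω * gh ω - sgn gh ω * y ω) ∂P := by
      rw [integral_sub hsg hsy, hker, sub_zero, hw]
      simp_rw [sgn_mul_self]
    rw [h1]
    apply integral_mono (hsg.sub hsy) hRi
    intro ω
    show sgn gh ω * gh ω - sgn gh ω * y ω ≤ |y ω - gh ω|
    calc sgn gh ω * gh ω - sgn gh ω * y ω = sgn gh ω * (gh ω - y ω) := by ring
      _ ≤ |sgn gh ω * (gh ω - y ω)| := le_abs_self _
      _ = |y ω - gh ω| := by rw [abs_mul, abs_sgn, one_mul, abs_sub_comm]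
  have hapi : Integrable (fun ω => |x ω + t * gh ω|) P := (hx.add (hghi.const_mul t)).abs
  have hani : Integrable (fun ω => |x ω + (-t) * gh ω|) P := (hx.add (hghi.const_mul (-t))).abs
  have htw : ∫ ω, t * |gh ω| ∂P = t * w := by rw [integral_const_mul]
  -- `ap ≥ 1 - t w`
  have ha1 : 1 - t * w ≤ ap := by
    have h1 : ∫ ω, |x ω| ∂P ≤ ∫ ω, (|x ω + t * gh ω| + t * |gh ω|) ∂P := by
      apply integral_mono hx.abs (hapi.add (hghi.abs.const_mul t))
      intro ω
      have := abs_sub_abs_le_abs_sub (x ω) (-(t * gh ω))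
      rw [abs_neg, sub_neg_eq_add, abs_mul, abs_of_pos ht] at this
      show |x ω| ≤ |x ω + t * gh ω| + t * |gh ω|
      linarith
    rw [integral_add hapi (hghi.abs.const_mul t), htw, hx1] at h1
    linarith
  have ha2 : t * w - 1 ≤ ap := by
    have h1 : ∫ ω, t * |gh ω| ∂P ≤ ∫ ω, (|x ω + t * gh ω| + |x ω|) ∂P := by
      apply integral_mono (hghi.abs.const_mul t) (hapi.add hx.abs)
      intro ω
      have := abs_sub_abs_le_abs_sub (t * gh ω) (-(x ω))
      rw [abs_neg, sub_neg_eq_add, abs_mul, abs_of_pos ht, add_comm (t * gh ω)] at this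
      show t * |gh ω| ≤ |x ω + t * gh ω| + |x ω|
      linarith
    rw [integral_add hapi hx.abs, htw, hx1] at h1
    linarith
  have ha3 : 2 ≤ ap + an := by
    have h1 : ∫ ω, 2 * |x ω| ∂P ≤ ∫ ω, (|x ω + t * gh ω| + |x ω + (-t) * gh ω|) ∂P := by
      apply integral_mono (hx.abs.const_mul 2) (hapi.add hani)
      intro ω
      have := abs_add_le (x ω + t * gh ω) (x ω + (-t) * gh ω)
      have e : x ω + t * gh ω + (x ω + (-t) * gh ω) = 2 * x ω := by ring
      rw [e, abs_mul, abs_two] at this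
      exact this
    rw [integral_add hapi hani, integral_const_mul, hx1] at h1
    linarith
  have ha4 : 2 * (t * w) ≤ ap + an := by
    have h1 : ∫ ω, 2 * (t * |gh ω|) ∂P ≤ ∫ ω, (|x ω + t * gh ω| + |x ω + (-t) * gh ω|) ∂P := by
      apply integral_mono ((hghi.abs.const_mul t).const_mul 2) (hapi.add hani)
      intro ω
      have := abs_sub (x ω + t * gh ω) (x ω + (-t) * gh ω)
      have e : x ω + t * gh ω - (x ω + (-t) * gh ω) = 2 * (t * gh ω) := by ring
      rw [e, abs_mul, abs_two, abs_mul, abs_of_pos ht] at this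
      exact this
    rw [integral_add hapi hani, integral_const_mul, htw] at h1
    linarith
  have hb0 : 0 ≤ b := measureReal_nonneg
  have hMb : t * (M * b) ≤ t * M * ε := by
    rw [mul_assoc]
    exact mul_le_mul_of_nonneg_left (mul_le_mul_of_nonneg_left hB hM) ht.le
  have htR1 : t * (1 - w) ≤ t * R := mul_le_mul_of_nonneg_left hR1 ht.le
  have htR2 : t * w ≤ t * R := mul_le_mul_of_nonneg_left hR2 ht.le
  constructor
  · rw [sub_le_iff_le_add]
    apply max_le <;> nlinarith
  · rw [sub_le_iff_le_add]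
    apply max_le <;> nlinarith

end Crest.Agent.AMUC
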