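import Mathlib
import Crest.Prelude.Def_DaugavetL1
import Crest.Agent.Lib_AMUC.Common
import Crest.Agent.Lib_AMUC.L1Lower

/-!
Package P3 of the AMUC row, part 2: transfer of `core_lower` to `Lp ℝ 1 P`.
-/

open MeasureTheory Crest.AnalysisR Crest.AnalysisR.L1Subspace

set_option linter.unusedSectionVars false

namespace Crest.Agent.AMUC

variable {Ω : Type} [MeasurableSpace Ω] {P : Measure Ω} [IsProbabilityMeasure P]

lemma integrable_bdd_mul_coe {s : Ω → ℝ} (hs : Measurable s) (hb : ∀ ω, |s ω| ≤ 1)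
    (y : Lp ℝ 1 P) : Integrable (fun ω => s ω * y ω) P :=
  (L1.integrable_coeFn y).bdd_mul (c := 1) hs.aestronglyMeasurable
    (Filter.Eventually.of_forall fun ω => by rw [Real.norm_eq_abs]; exact hb ω)

/-- integration against a bounded measurable function, as a continuous functional on `L¹`. -/
noncomputable def mulInt (s : Ω → ℝ) (hs : Measurable s) (hb : ∀ ω, |s ω| ≤ 1) :
    Lp ℝ 1 P →L[ℝ] ℝ :=
  LinearMap.mkContinuous
    { toFun := fun y => ∫ ω, s ω * y ω ∂P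
      map_add' := by
        intro y z
        rw [← integral_add (integrable_bdd_mul_coe hs hb y) (integrable_bdd_mul_coe hs hb z)]
        apply integral_congr_ae
        filter_upwards [Lp.coeFn_add y z] with ω hω
        rw [hω, Pi.add_apply, mul_add]
      map_smul' := by
        intro c y
        rw [RingHom.id_apply, smul_eq_mul, ← integral_const_mul]
        apply integral_congr_ae
        filter_upwards [Lp.coeFn_smul c y] with ω hω
        rw [hω, Pi.smul_apply, smul_eq_mul]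
        ring }
    1
    (by
      intro y
      show ‖∫ ω, s ω * y ω ∂P‖ ≤ 1 * ‖y‖
      rw [one_mul, L1.norm_eq_integral_norm]
      refine (norm_integral_le_integral_norm _).trans ?_
      apply integral_mono (integrable_bdd_mul_coe hs hb y).norm (L1.integrable_coeFn y).norm
      intro ω
      show ‖s ω * y ω‖ ≤ ‖y ω‖
      rw [norm_mul, Real.norm_eq_abs]
      calc |s ω| * ‖y ω‖ ≤ 1 * ‖y ω‖ := mul_le_mul_of_nonneg_right (hb ω) (norm_nonneg _)
        _ = ‖y ω‖ := one_mul _)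

lemma mulInt_apply (s : Ω → ℝ) (hs : Measurable s) (hb : ∀ ω, |s ω| ≤ 1) (y : Lp ℝ 1 P) :
    mulInt s hs hb y = ∫ ω, s ω * y ω ∂P := rfl

lemma norm_add_smul_eq (x y : Lp ℝ 1 P) (c : ℝ) :
    ‖x + c • y‖ = ∫ ω, |x ω + c * y ω| ∂P := by
  rw [L1.norm_eq_integral_norm]
  apply integral_congr_ae
  filter_upwards [Lp.coeFn_add x (c • y), Lp.coeFn_smul c y] with ω h1 h2
  rw [h1, Pi.add_apply, h2, Pi.smul_apply, smul_eq_mul, Real.norm_eq_abs]

lemma norm_eq_integral_abs (x : Lp ℝ 1 P) : ‖x‖ = ∫ ω, |x ω| ∂P := by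
  rw [L1.norm_eq_integral_norm]
  rfl

lemma measure_lt_of_measureDist_lt {f g : Lp ℝ 1 P} {ε : ℝ} (h : measureDist P f g < ε) :
    P {z | ε < |(f : Ω → ℝ) z - (g : Ω → ℝ) z|} < ENNReal.ofReal ε := by
  unfold measureDist at h
  have hne : {a : ℝ | 0 < a ∧ P {z | a < abs ((f : Ω → ℝ) z - (g : Ω → ℝ) z)} <
      ENNReal.ofReal a}.Nonempty := by
    refine ⟨2, by norm_num, ?_⟩
    refine lt_of_le_of_lt prob_le_one ?_
    rw [← ENNReal.ofReal_one]
    exact (ENNReal.ofReal_lt_ofReal_iff (by norm_num)).mpr (by norm_num)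
  obtain ⟨a, ⟨ha0, ha⟩, hlt⟩ := exists_lt_of_csInf_lt hne h
  refine lt_of_le_of_lt (measure_mono ?_) (ha.trans_le (ENNReal.ofReal_le_ofReal hlt.le))
  intro z hz
  exact lt_trans hlt hz

/-- uniform integrability of a single integrable function. -/
lemma exists_delta (x : Lp ℝ 1 P) {κ : ℝ} (hκ : 0 < κ) :
    ∃ δ : ℝ, 0 < δ ∧ ∀ A : Set Ω, P A < ENNReal.ofReal δ → ∫ ω in A, |x ω| ∂P ≤ κ := by
  have hxi : Integrable (fun ω => |x ω|) P := (L1.integrable_coeFn x).abs
  have hfin : ∫⁻ ω, ENNReal.ofReal |x ω| ∂P ≠ ⊤ := by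
    rw [← ofReal_integral_eq_lintegral_ofReal hxi (Filter.Eventually.of_forall fun ω => abs_nonneg _)]
    exact ENNReal.ofReal_ne_top
  obtain ⟨δ, hδ, h⟩ := exists_pos_setLIntegral_lt_of_measure_lt hfin
    (ε := ENNReal.ofReal κ) (by simpa using hκ)
  obtain ⟨r, hr0, hr1, hr2⟩ := ENNReal.lt_iff_exists_real_btwn.mp hδ
  have hrpos : 0 < r := by simpa using hr1
  refine ⟨r, hrpos, fun A hA => ?_⟩
  have h1 := h A (hA.trans hr2)
  rw [← ofReal_integral_eq_lintegral_ofReal hxi.integrableOn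
    (Filter.Eventually.of_forall fun ω => abs_nonneg _)] at h1
  exact ((ENNReal.ofReal_lt_ofReal_iff hκ).mp h1).le

lemma markov_bound (g : Lp ℝ 1 P) (hg : ‖g‖ ≤ 1) {M : ℝ} (hM : 0 < M) :
    P {ω | M < |g ω|} ≤ ENNReal.ofReal (1 / M) := by
  have h1 := mul_meas_ge_le_integral_of_nonneg (μ := P) (f := fun ω => |g ω|)
    (Filter.Eventually.of_forall fun ω => abs_nonneg _) (L1.integrable_coeFn g).abs M
  rw [← norm_eq_integral_abs] at h1
  have h2 : P.real {ω | M ≤ |g ω|} ≤ 1 / M := by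
    rw [le_div_iff₀ hM, mul_comm]
    exact h1.trans hg
  calc P {ω | M < |g ω|} ≤ P {ω | M ≤ |g ω|} := measure_mono fun ω (hω : M < |g ω|) => (le_of_lt hω : M ≤ |g ω|)
    _ = ENNReal.ofReal (P.real {ω | M ≤ |g ω|}) := by
        rw [Measure.real, ENNReal.ofReal_toReal (measure_ne_top _ _)]
    _ ≤ ENNReal.ofReal (1 / M) := ENNReal.ofReal_le_ofReal h2

/-- **P3**: both lower bounds at a unit centre `x`, with a common subspace `F`. -/
theorem l1_lower (E : Submodule ℝ (Lp ℝ 1 P)) (htb : UnitBallTotallyBoundedInMeasure P E)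
    (x : E) (hx : ‖x‖ = 1) {t η : ℝ} (ht : 0 < t) (hη : 0 < η) :
    ∃ F : Set E, Cof F ∧ ∀ y ∈ F, ‖y‖ = 1 →
      (max 0 (t - 2) - η ≤ ‖x + t • y‖ - 1) ∧
      (max (t / 2) (t - 1) - η ≤ (‖x + t • y‖ + ‖x - t • y‖) / 2 - 1) := by
  classical
  set κ := η / 8 with hκdef
  have hκ : 0 < κ := by positivity
  obtain ⟨δ, hδ, hunif⟩ := exists_delta (x : Lp ℝ 1 P) hκ
  set M := 2 / δ + 1 with hMdef
  have hM1 : 1 ≤ M := by
    have : 0 < 2 / δ := by positivity
    linarith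
  have hM0 : 0 < M := by linarith
  have hMδ : 1 / M ≤ δ / 2 := by
    rw [div_le_iff₀ hM0, hMdef]
    have : δ / 2 * (2 / δ + 1) = 1 + δ / 2 := by field_simp
    rw [this]; linarith
  set ε := min (δ / 2) (κ / (M * t)) with hεdef
  have hε : 0 < ε := lt_min (by positivity) (by positivity)
  have hε1 : ε ≤ δ / 2 := min_le_left _ _
  have hε2 : t * M * ε ≤ κ := by
    have := min_le_right (δ / 2) (κ / (M * t))
    rw [← hεdef, le_div_iff₀ (by positivity)] at this
    linarith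
  obtain ⟨s, hs1, hs2⟩ := htb ε hε
  let φ : {g // g ∈ s} → E →L[ℝ] ℝ := fun g =>
    (mulInt (P := P) (sgn (trunc M (g.1 : Ω → ℝ)))
      (measurable_sgn (measurable_trunc (Lp.stronglyMeasurable g.1).measurable))
      (fun ω => (abs_sgn _ ω).le)).comp E.subtypeL
  refine ⟨{y : E | ∀ i, φ i y = 0}, cof_iInter_ker φ, ?_⟩
  intro y hy hy1
  obtain ⟨g, hgs, hdist⟩ := hs2 (y : Lp ℝ 1 P) y.2 (by rw [← hy1]; rfl)
  have hker : ∫ ω, sgn (trunc M (g : Ω → ℝ)) ω * (y : Lp ℝ 1 P) ω ∂P = 0 := hy ⟨g, hgs⟩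
  have hPB := measure_lt_of_measureDist_lt hdist
  have hB : P.real {ω | ε < |(y : Lp ℝ 1 P) ω - g ω|} ≤ ε := by
    rw [Measure.real]
    exact ENNReal.toReal_le_of_le_ofReal hε.le hPB.le
  have hPA : P ({ω | ε < |(y : Lp ℝ 1 P) ω - g ω|} ∪ {ω | M < |g ω|}) < ENNReal.ofReal δ := by
    refine lt_of_le_of_lt (measure_union_le _ _) ?_
    have h2 := markov_bound g (hs1 g hgs).2 hM0
    calc P {ω | ε < |(y : Lp ℝ 1 P) ω - g ω|} + P {ω | M < |g ω|}
        < ENNReal.ofReal ε + ENNReal.ofReal (1 / M) :=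
          ENNReal.add_lt_add_of_lt_of_le (by
            exact ne_top_of_le_ne_top ENNReal.ofReal_ne_top h2) hPB h2
      _ = ENNReal.ofReal (ε + 1 / M) := (ENNReal.ofReal_add hε.le (by positivity)).symm
      _ ≤ ENNReal.ofReal δ := ENNReal.ofReal_le_ofReal (by linarith)
  have hxA := hunif _ hPA
  have hcore := core_lower (P := P) (L1.integrable_coeFn (x : Lp ℝ 1 P))
    (L1.integrable_coeFn (y : Lp ℝ 1 P)) (L1.integrable_coeFn g)
    (Lp.stronglyMeasurable (y : Lp ℝ 1 P)).measurable (Lp.stronglyMeasurable g).measurable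
    hM0.le hε.le ht
    (by rw [← norm_eq_integral_abs]; exact hx) (by rw [← norm_eq_integral_abs]; exact hy1)
    hker hxA hB
  rw [← norm_add_smul_eq, ← norm_add_smul_eq] at hcore
  have e1 : ‖x + t • y‖ = ‖(x : Lp ℝ 1 P) + t • (y : Lp ℝ 1 P)‖ := rfl
  have e2 : ‖x - t • y‖ = ‖(x : Lp ℝ 1 P) + (-t) • (y : Lp ℝ 1 P)‖ := by
    rw [neg_smul, ← sub_eq_add_neg]; rfl
  rw [e1, e2]
  have hsmall : 2 * κ + 2 * t * M * ε + 2 * t * ε ≤ η := by
    have h3 : t * ε ≤ t * M * ε := by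
      have : t * ε * 1 ≤ t * ε * M := mul_le_mul_of_nonneg_left hM1 (by positivity)
      nlinarith
    rw [hκdef] at hε2 ⊢
    nlinarith
  obtain ⟨hc1, hc2⟩ := hcore
  constructor
  · have h1 := le_max_left 1 (t - 1)
    have h2 := le_max_right 1 (t - 1)
    rw [sub_le_iff_le_add]
    apply max_le <;> linarith
  · have h1 := le_max_left (1 + t / 2) t
    have h2 := le_max_right (1 + t / 2) t
    rw [sub_le_iff_le_add]
    apply max_le <;> linarith

/-- the averaged midpoint modulus lower bound of S0167. -/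
theorem l1_midpointModulusGE (E : Submodule ℝ (Lp ℝ 1 P))
    (hcl : IsClosed (E : Set (Lp ℝ 1 P))) (htb : UnitBallTotallyBoundedInMeasure P E)
    {t : ℝ} (ht : 0 < t) :
    (toRealBanach P E hcl).MidpointModulusGE (toRealBanach P E hcl).norm t
      (max (t / 2) (t - 1)) := by
  intro x hx η hη
  obtain ⟨F, hF, h⟩ := l1_lower E htb x hx ht hη
  exact ⟨F, hF, fun y hy hy1 => (h y hy hy1).2⟩

/-- the one-sided modulus lower bound of S0167. -/
theorem l1_oneSidedModulusGE (E : Submodule ℝ (Lp ℝ 1 P))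
    (hcl : IsClosed (E : Set (Lp ℝ 1 P))) (htb : UnitBallTotallyBoundedInMeasure P E)
    {t : ℝ} (ht : 0 < t) :
    (toRealBanach P E hcl).OneSidedModulusGE (toRealBanach P E hcl).norm t (max 0 (t - 2)) := by
  intro x hx η hη
  obtain ⟨F, hF, h⟩ := l1_lower E htb x hx ht hη
  exact ⟨F, hF, fun y hy hy1 => (h y hy hy1).1⟩

end Crest.Agent.AMUC
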