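import Mathlib

/-!
`ℓ²`-sums: the "Pythagorean midpoint inequality" passes from the components to the sum.
-/

set_option autoImplicit false
open scoped ENNReal

namespace Crest.Agent.AMUC

section
variable {ι : Type*} {X : ι → Type*} [∀ k, NormedAddCommGroup (X k)]

lemma lp_two_hasSum_sq (x : lp X 2) : HasSum (fun k => ‖x k‖ ^ 2) (‖x‖ ^ 2) := by
  have h := lp.hasSum_norm (p := 2) (by norm_num) x
  simpa using h

/-- the scalar sequence of norms of the components. -/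
noncomputable def normSeq (x : lp X 2) : lp (fun _ : ι => ℝ) 2 :=
  ⟨fun k => ‖x k‖, by
    apply memℓp_gen
    have h := (lp_two_hasSum_sq x).summable
    simpa using h⟩

@[simp] lemma normSeq_apply (x : lp X 2) (k : ι) : normSeq x k = ‖x k‖ := rfl

lemma norm_normSeq (x : lp X 2) : ‖normSeq x‖ = ‖x‖ := by
  have h1 := lp_two_hasSum_sq (normSeq x)
  have h2 := lp_two_hasSum_sq x
  have h3 : ‖normSeq x‖ ^ 2 = ‖x‖ ^ 2 := by
    refine h1.unique ?_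
    simpa using h2
  have := abs_eq_abs.mpr (sq_eq_sq_iff_eq_or_eq_neg.mp h3)
  simpa [abs_of_nonneg] using this

theorem lp_two_pythagoras (x y : lp X 2)
    (h : ∀ k, Real.sqrt (‖x k‖ ^ 2 + ‖y k‖ ^ 2 / 4) ≤ (‖x k + y k‖ + ‖x k - y k‖) / 2) :
    Real.sqrt (‖x‖ ^ 2 + ‖y‖ ^ 2 / 4) ≤ (‖x + y‖ + ‖x - y‖) / 2 := by
  have hx := lp_two_hasSum_sq x
  have hy := lp_two_hasSum_sq y
  have hs := lp_two_hasSum_sq (normSeq (x + y) + normSeq (x - y))
  have hL : HasSum (fun k => ‖x k‖ ^ 2 + ‖y k‖ ^ 2 / 4) (‖x‖ ^ 2 + ‖y‖ ^ 2 / 4) :=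
    hx.add (hy.div_const 4)
  have hR : HasSum (fun k => ‖(normSeq (x + y) + normSeq (x - y)) k‖ ^ 2 / 4)
      (‖normSeq (x + y) + normSeq (x - y)‖ ^ 2 / 4) := hs.div_const 4
  have hle : ‖x‖ ^ 2 + ‖y‖ ^ 2 / 4 ≤ ‖normSeq (x + y) + normSeq (x - y)‖ ^ 2 / 4 := by
    refine hasSum_le (fun k => ?_) hL hR
    have hk := h k
    have h0 : 0 ≤ ‖x k‖ ^ 2 + ‖y k‖ ^ 2 / 4 := by positivity
    have h1 : ‖x k‖ ^ 2 + ‖y k‖ ^ 2 / 4 ≤ ((‖x k + y k‖ + ‖x k - y k‖) / 2) ^ 2 := by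
      have := Real.sqrt_le_left (x := ‖x k‖ ^ 2 + ‖y k‖ ^ 2 / 4)
        (y := (‖x k + y k‖ + ‖x k - y k‖) / 2) (by positivity)
      exact this.mp hk
    have h2 : ‖(normSeq (x + y) + normSeq (x - y)) k‖ = ‖x k + y k‖ + ‖x k - y k‖ := by
      have : (normSeq (x + y) + normSeq (x - y)) k = ‖x k + y k‖ + ‖x k - y k‖ := rfl
      rw [this, Real.norm_of_nonneg (by positivity)]
    rw [h2]
    nlinarith [h1]
  have htri : ‖normSeq (x + y) + normSeq (x - y)‖ ≤ ‖x + y‖ + ‖x - y‖ := by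
    refine (norm_add_le _ _).trans ?_
    rw [norm_normSeq, norm_normSeq]
  have hfin : ‖x‖ ^ 2 + ‖y‖ ^ 2 / 4 ≤ ((‖x + y‖ + ‖x - y‖) / 2) ^ 2 := by
    have h0 := norm_nonneg (normSeq (x + y) + normSeq (x - y))
    nlinarith [hle, htri, h0]
  exact Real.sqrt_le_iff.mpr ⟨by positivity, hfin⟩

end

end Crest.Agent.AMUC
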