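import Crest.Agent.Lib_AMUC.Common

/-!
Weakly null sequences are asymptotically inside every closed finite-codimensional subspace;
`ℓ²`-dominated sequences are weakly null.
-/

open Filter Topology

namespace Crest.Agent.AMUC

variable {X : Type} [NormedAddCommGroup X] [NormedSpace ℝ X]

theorem near_cof_of_weak_null {dn : ℕ → X}
    (h : ∀ φ : X →L[ℝ] ℝ, Tendsto (fun n => φ (dn n)) atTop (𝓝 0)) {F : Set X} (hF : Cof F)
    {ε : ℝ} (hε : 0 < ε) : ∀ᶠ n in atTop, ∃ y ∈ F, ‖dn n - y‖ < ε := by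
  obtain ⟨S, rfl, hS, hfd⟩ := hF
  have : IsClosed (S : Set X) := hS
  let b := Module.finBasis ℝ (X ⧸ S)
  let e : (X ⧸ S) ≃L[ℝ] (Fin (Module.finrank ℝ (X ⧸ S)) → ℝ) := b.equivFunL
  have h1 : Tendsto (fun n => e (S.mkQL (dn n))) atTop (𝓝 0) := by
    rw [tendsto_pi_nhds]
    intro i
    exact h ((ContinuousLinearMap.proj (R := ℝ) (φ := fun _ : Fin (Module.finrank ℝ (X ⧸ S)) => ℝ) i).comp
      ((e : (X ⧸ S) →L[ℝ] (Fin (Module.finrank ℝ (X ⧸ S)) → ℝ)).comp S.mkQL))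
  have h2 : Tendsto (fun n => S.mkQL (dn n)) atTop (𝓝 0) := by
    have := (e.symm.continuous.tendsto 0).comp h1
    simp only [map_zero] at this
    refine this.congr (fun n => ?_)
    simp
  have h3 : ∀ᶠ n in atTop, ‖S.mkQL (dn n)‖ < ε := by
    have := h2.norm
    simp only [norm_zero] at this
    exact this.eventually (gt_mem_nhds hε)
  filter_upwards [h3] with n hn
  obtain ⟨m, hm, hm'⟩ := Submodule.Quotient.norm_mk_lt (S.mkQL (dn n)) (sub_pos.2 hn)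
  refine ⟨dn n - m, ?_, ?_⟩
  · have : Submodule.Quotient.mk (p := S) (dn n) = Submodule.Quotient.mk m := hm.symm
    exact (Submodule.Quotient.eq S).1 this
  · have e1 : dn n - (dn n - m) = m := by abel
    rw [e1]; linarith

theorem weak_null_of_l2_dominated {dn : ℕ → X} {C : ℝ}
    (h : ∀ (s : Finset ℕ) (a : ℕ → ℝ), ‖∑ n ∈ s, a n • dn n‖ ≤ C * Real.sqrt (∑ n ∈ s, a n ^ 2))
    (φ : X →L[ℝ] ℝ) : Tendsto (fun n => φ (dn n)) atTop (𝓝 0) := by
  have hC : 0 ≤ C := by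
    have := h {0} (fun _ => 1)
    simp at this
    exact le_trans (norm_nonneg _) this
  have hb : ∀ s : Finset ℕ, ∑ n ∈ s, (φ (dn n)) ^ 2 ≤ (‖φ‖ * C) ^ 2 := by
    intro s
    set A := ∑ n ∈ s, (φ (dn n)) ^ 2 with hA
    have hA0 : 0 ≤ A := Finset.sum_nonneg (fun _ _ => sq_nonneg _)
    have e1 : φ (∑ n ∈ s, φ (dn n) • dn n) = A := by
      rw [map_sum]
      refine Finset.sum_congr rfl (fun n _ => ?_)
      rw [map_smul, smul_eq_mul]; ring
    have e2 : A ≤ ‖φ‖ * (C * Real.sqrt A) := by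
      calc A = φ (∑ n ∈ s, φ (dn n) • dn n) := e1.symm
        _ ≤ ‖φ (∑ n ∈ s, φ (dn n) • dn n)‖ := Real.le_norm_self _
        _ ≤ ‖φ‖ * ‖∑ n ∈ s, φ (dn n) • dn n‖ := φ.le_opNorm _
        _ ≤ ‖φ‖ * (C * Real.sqrt A) :=
          mul_le_mul_of_nonneg_left (h s (fun n => φ (dn n))) (norm_nonneg _)
    have e3 : Real.sqrt A ≤ ‖φ‖ * C := by
      rcases (Real.sqrt_nonneg A).eq_or_lt with h0 | hpos
      · rw [← h0]; exact mul_nonneg (norm_nonneg _) hC
      · have : Real.sqrt A * Real.sqrt A ≤ (‖φ‖ * C) * Real.sqrt A := by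
          rw [Real.mul_self_sqrt hA0]; linarith
        exact le_of_mul_le_mul_right this hpos
    calc A = Real.sqrt A ^ 2 := (Real.sq_sqrt hA0).symm
      _ ≤ (‖φ‖ * C) ^ 2 := by gcongr
  have hsum : Summable (fun n => (φ (dn n)) ^ 2) :=
    summable_of_sum_le (fun _ => sq_nonneg _) hb
  have h0 := hsum.tendsto_atTop_zero
  have h1 : Tendsto (fun n => Real.sqrt ((φ (dn n)) ^ 2)) atTop (𝓝 0) := by
    have := (Real.continuous_sqrt.tendsto 0).comp h0
    simp only [Real.sqrt_zero] at this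
    exact this
  simp only [Real.sqrt_sq_eq_abs] at h1
  exact (tendsto_zero_iff_abs_tendsto_zero _).2 h1

theorem l2_dominated_near_cof {dn : ℕ → X} {C : ℝ}
    (h : ∀ (s : Finset ℕ) (a : ℕ → ℝ), ‖∑ n ∈ s, a n • dn n‖ ≤ C * Real.sqrt (∑ n ∈ s, a n ^ 2))
    {F : Set X} (hF : Cof F) {ε : ℝ} (hε : 0 < ε) :
    ∀ᶠ n in atTop, ∃ y ∈ F, ‖dn n - y‖ < ε :=
  near_cof_of_weak_null (weak_null_of_l2_dominated h) hF hε

end Crest.Agent.AMUC
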