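import Crest.Agent.Lib_AMUC.NoAUC
import Crest.Agent.Lib_AMUC.WeakNull
import Crest.Prelude.Def_TreeProducts

/-!
Package P2 of the AMUC row: the closed span of the tree path products in `L¹` has no equivalent
AUC norm (S0169).
-/

open MeasureTheory ProbabilityTheory
open Crest.AnalysisR Crest.AnalysisR.TreeProduct

namespace Crest.Agent.AMUC.Prod

variable {Ω : Type} [MeasurableSpace Ω] {μ : Measure Ω} {W : List ℕ → Ω → ℝ}

/-- non-root vertices on the root path of `v`. -/
def path : List ℕ → Finset (List ℕ)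
  | [] => ∅
  | a :: v => insert (a :: v) (path v)

lemma length_le_of_mem_path {v u : List ℕ} (h : u ∈ path v) : u.length ≤ v.length := by
  induction v with
  | nil => simp [path] at h
  | cons a v ih =>
    simp only [path, Finset.mem_insert] at h
    rcases h with rfl | h
    · exact le_rfl
    · exact (ih h).trans (by simp)

lemma pathProduct_eq_prod (W : List ℕ → Ω → ℝ) (v : List ℕ) (ω : Ω) :
    pathProduct W v ω = ∏ u ∈ path v, W u ω := by
  induction v with
  | nil => simp [pathProduct, path]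
  | cons a v ih =>
    rw [path, Finset.prod_insert]
    · show pathProduct W v ω * W (a :: v) ω = _
      rw [ih, mul_comm]
    intro h
    have := length_le_of_mem_path h
    simp at this

lemma measurable_pathProduct (hm : ∀ v, Measurable (W v)) (v : List ℕ) :
    Measurable (pathProduct W v) := by
  induction v with
  | nil => exact measurable_const
  | cons a v ih => exact ih.mul (hm _)

/-- the path product at `v` is independent of any linear combination of the children's multipliers. -/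
lemma indep_path (hm : ∀ v, Measurable (W v)) (hi : iIndepFun W μ) (v : List ℕ) (s : Finset ℕ)
    (a : ℕ → ℝ) :
    IndepFun (pathProduct W v) (fun ω => ∑ n ∈ s, a n * (W (n :: v) ω - 1)) μ := by
  classical
  set C : Finset (List ℕ) := s.image (fun n => n :: v) with hC
  have hd : Disjoint (path v) C := by
    rw [Finset.disjoint_left]
    intro u hu hu'
    rw [hC, Finset.mem_image] at hu'
    obtain ⟨n, -, rfl⟩ := hu'
    have := length_le_of_mem_path hu
    simp at this
  have h := hi.indepFun_finset (path v) C hd hm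
  have h2 := h.comp (φ := fun x => ∏ i : path v, x i)
    (ψ := fun x => ∑ i : C, a (i.1.headI) * (x i - 1)) (by fun_prop) (by fun_prop)
  convert h2 using 1
  · ext ω
    simp only [Function.comp]
    rw [pathProduct_eq_prod, Finset.prod_coe_sort (path v) (fun u => W u ω)]
  · ext ω
    simp only [Function.comp]
    rw [Finset.sum_coe_sort C (fun u => a u.headI * (W u ω - 1)), hC, Finset.sum_image]
    · simp
    · intro x _ y _ hxy
      simpa using hxy

/-! ### facts on the law `ν` and the single multipliers -/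

section law

variable {ν : Measure ℝ} [IsProbabilityMeasure ν] [IsProbabilityMeasure μ]

lemma memLp_id (hm2 : Integrable (fun x : ℝ => x ^ 2) ν) : MemLp (fun x : ℝ => x) 2 ν :=
  (memLp_two_iff_integrable_sq measurable_id.aestronglyMeasurable).2 hm2

lemma memLp_W (hm2 : Integrable (fun x : ℝ => x ^ 2) ν) (hW : IsRealization ν μ W)
    {u : List ℕ} (hu : u ≠ []) : MemLp (W u) 2 μ := by
  have h := memLp_id hm2
  rw [← hW.2.2 u hu] at h
  exact (memLp_map_measure_iff measurable_id.aestronglyMeasurable (hW.1 u).aemeasurable).1 h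

lemma integrable_W (hm2 : Integrable (fun x : ℝ => x ^ 2) ν) (hW : IsRealization ν μ W)
    {u : List ℕ} (hu : u ≠ []) : Integrable (W u) μ :=
  (memLp_W hm2 hW hu).integrable one_le_two

lemma integral_comp_W (hW : IsRealization ν μ W) {u : List ℕ} (hu : u ≠ []) {g : ℝ → ℝ}
    (hg : Measurable g) : ∫ ω, g (W u ω) ∂μ = ∫ x, g x ∂ν := by
  rw [← hW.2.2 u hu, integral_map (hW.1 u).aemeasurable hg.aestronglyMeasurable]

lemma W_pos (hpos : ν (Set.Ioi 0) = 1) (hW : IsRealization ν μ W) {u : List ℕ} (hu : u ≠ []) :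
    ∀ᵐ ω ∂μ, 0 < W u ω := by
  rw [← hW.2.2 u hu, Measure.map_apply (hW.1 u) measurableSet_Ioi] at hpos
  have := (prob_compl_eq_zero_iff ((hW.1 u) measurableSet_Ioi)).2 hpos
  rw [ae_iff]
  exact this

/-- the `L¹` distance of `ν` to its mean. -/
noncomputable def dev (ν : Measure ℝ) : ℝ := ∫ x, |x - 1| ∂ν

lemma dev_pos (hnc : ∀ c : ℝ, ν ≠ Measure.dirac c) (hm2 : Integrable (fun x : ℝ => x ^ 2) ν) :
    0 < dev ν := by
  have hint : Integrable (fun x : ℝ => |x - 1|) ν :=
    (((memLp_id hm2).integrable one_le_two).sub (integrable_const 1)).abs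
  have h0 : 0 ≤ dev ν := integral_nonneg (fun x => abs_nonneg _)
  rcases h0.lt_or_eq with h | h
  · exact h
  exfalso
  have h1 : (fun x : ℝ => |x - 1|) =ᵐ[ν] 0 :=
    (integral_eq_zero_iff_of_nonneg (fun x => abs_nonneg _) hint).1 h.symm
  have h2 : (fun x : ℝ => x) =ᵐ[ν] fun _ => 1 := by
    filter_upwards [h1] with x hx
    have : |x - 1| = 0 := hx
    linarith [abs_eq_zero.1 this]
  apply hnc 1
  have h3 : ν.map (fun x : ℝ => x) = ν.map (fun _ => (1 : ℝ)) := Measure.map_congr h2
  rw [Measure.map_const] at h3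
  simpa using h3

/-! ### the path products -/

lemma pathProduct_facts (hpos : ν (Set.Ioi 0) = 1) (hmean : ∫ x, x ∂ν = 1)
    (hm2 : Integrable (fun x : ℝ => x ^ 2) ν) (hW : IsRealization ν μ W) (v : List ℕ) :
    Integrable (pathProduct W v) μ ∧ (∀ᵐ ω ∂μ, 0 ≤ pathProduct W v ω) ∧
      ∫ ω, pathProduct W v ω ∂μ = 1 := by
  induction v with
  | nil =>
    refine ⟨integrable_const 1, Filter.Eventually.of_forall (fun _ => zero_le_one), ?_⟩
    simp [pathProduct]
  | cons a v ih =>
    obtain ⟨h1, h2, h3⟩ := ih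
    have hne : a :: v ≠ [] := by simp
    have hind : IndepFun (pathProduct W v) (W (a :: v)) μ := by
      have h := indep_path hW.1 hW.2.1 v {a} (fun _ => 1)
      have h' := h.comp (φ := id) (ψ := fun x => x + 1) measurable_id (by fun_prop)
      have e : W (a :: v) = (fun x => x + 1) ∘ fun ω => ∑ n ∈ {a}, (fun _ => (1 : ℝ)) n * (W (n :: v) ω - 1) := by
        ext ω
        simp
      rw [e]
      exact h'
    refine ⟨hind.integrable_mul h1 (integrable_W hm2 hW hne), ?_, ?_⟩
    · filter_upwards [h2, W_pos hpos hW hne] with ω hω hω'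
      exact mul_nonneg hω hω'.le
    · have := hind.integral_fun_mul_eq_mul_integral h1.aestronglyMeasurable
        (integrable_W hm2 hW hne).aestronglyMeasurable
      show ∫ ω, pathProduct W v ω * W (a :: v) ω ∂μ = 1
      have h4 := integral_comp_W (g := fun x => x) hW hne measurable_id
      rw [this, h3, h4, hmean, one_mul]

/-- `L¹` norm of a linear combination of the centred children multipliers. -/
lemma integral_abs_comb_le (hmean : ∫ x, x ∂ν = 1)
    (hm2 : Integrable (fun x : ℝ => x ^ 2) ν) (hW : IsRealization ν μ W) (v : List ℕ)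
    (s : Finset ℕ) (a : ℕ → ℝ) :
    ∫ ω, |∑ n ∈ s, a n * (W (n :: v) ω - 1)| ∂μ ≤
      Real.sqrt (Var[id; ν]) * Real.sqrt (∑ n ∈ s, a n ^ 2) := by
  set X : ℕ → Ω → ℝ := fun n ω => a n * (W (n :: v) ω - 1) with hXdef
  have hne : ∀ n : ℕ, n :: v ≠ [] := fun n => by simp
  have hX : ∀ n, MemLp (X n) 2 μ := fun n =>
    ((memLp_W hm2 hW (hne n)).sub (memLp_const 1)).const_mul (a n)
  have hT : MemLp (∑ n ∈ s, X n) 2 μ := memLp_finsetSum' s (fun n _ => hX n)
  have hvar : Var[∑ n ∈ s, X n; μ] = ∑ n ∈ s, Var[X n; μ] := by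
    refine IndepFun.variance_sum (fun n _ => hX n) (fun i _ j _ hij => ?_)
    have h1 : IndepFun (W (i :: v)) (W (j :: v)) μ := hW.2.1.indepFun (by simpa using hij)
    exact h1.comp (φ := fun x => a i * (x - 1)) (ψ := fun x => a j * (x - 1))
      (by fun_prop) (by fun_prop)
  have hvarX : ∀ n, Var[X n; μ] = a n ^ 2 * Var[id; ν] := by
    intro n
    rw [hXdef]
    simp only
    rw [variance_const_mul, variance_sub_const (hW.1 _).aestronglyMeasurable,
      ← variance_id_map (hW.1 _).aemeasurable, hW.2.2 _ (hne n)]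
  have hmeanX : ∀ n, ∫ ω, X n ω ∂μ = 0 := by
    intro n
    rw [hXdef]
    simp only
    rw [integral_const_mul, integral_sub (integrable_W hm2 hW (hne n)) (integrable_const 1),
      integral_comp_W (g := fun x => x) hW (hne n) measurable_id, hmean]
    simp
  have hmeanT : ∫ ω, (∑ n ∈ s, X n) ω ∂μ = 0 := by
    simp only [Finset.sum_apply]
    rw [integral_finsetSum s (fun n _ => (hX n).integrable one_le_two)]
    exact Finset.sum_eq_zero (fun n _ => hmeanX n)
  have h1 := variance_eq_sub hT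
  have h2 := variance_eq_sub hT.abs
  have h3 : ∫ ω, ((|∑ n ∈ s, X n|) ^ 2) ω ∂μ = ∫ ω, ((∑ n ∈ s, X n) ^ 2) ω ∂μ := by
    congr 1
    ext ω
    simp
  have h4 : 0 ≤ variance (|∑ n ∈ s, X n|) μ := variance_nonneg _ _
  rw [hmeanT] at h1
  have h5 : (∫ ω, |∑ n ∈ s, X n| ω ∂μ) ^ 2 ≤ Var[id; ν] * ∑ n ∈ s, a n ^ 2 := by
    have : Var[∑ n ∈ s, X n; μ] = Var[id; ν] * ∑ n ∈ s, a n ^ 2 := by
      rw [hvar, Finset.mul_sum]
      exact Finset.sum_congr rfl (fun n _ => by rw [hvarX n, mul_comm])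
    rw [← this]
    nlinarith
  have h6 : ∫ ω, |∑ n ∈ s, a n * (W (n :: v) ω - 1)| ∂μ = ∫ ω, |∑ n ∈ s, X n| ω ∂μ := by
    congr 1
    ext ω
    simp [hXdef]
  rw [h6, ← Real.sqrt_mul (variance_nonneg _ _)]
  exact Real.le_sqrt_of_sq_le h5

/-- `E |M_v T| = E |T|` for a linear combination `T` of the centred children multipliers. -/
lemma integral_abs_mul_comb (hpos : ν (Set.Ioi 0) = 1) (hmean : ∫ x, x ∂ν = 1)
    (hm2 : Integrable (fun x : ℝ => x ^ 2) ν) (hW : IsRealization ν μ W) (v : List ℕ)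
    (s : Finset ℕ) (a : ℕ → ℝ) :
    ∫ ω, |pathProduct W v ω * ∑ n ∈ s, a n * (W (n :: v) ω - 1)| ∂μ =
      ∫ ω, |∑ n ∈ s, a n * (W (n :: v) ω - 1)| ∂μ := by
  obtain ⟨h1, h2, h3⟩ := pathProduct_facts hpos hmean hm2 hW v
  have hind := (indep_path hW.1 hW.2.1 v s a).comp (φ := fun x => |x|) (ψ := fun x => |x|)
    (by fun_prop) (by fun_prop)
  have hmT : Measurable (fun ω => ∑ n ∈ s, a n * (W (n :: v) ω - 1)) :=
    Finset.measurable_fun_sum s (fun n _ => ((hW.1 (n :: v)).sub_const 1).const_mul (a n))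
  have h4 := hind.integral_fun_mul_eq_mul_integral
    (measurable_pathProduct hW.1 v).abs.aestronglyMeasurable hmT.abs.aestronglyMeasurable
  simp only [Function.comp] at h4
  simp only [abs_mul]
  rw [h4]
  have h5 : ∫ ω, |pathProduct W v ω| ∂μ = 1 := by
    rw [← h3]
    refine integral_congr_ae ?_
    filter_upwards [h2] with ω hω
    exact abs_of_nonneg hω
  rw [h5, one_mul]

/-! ### the vectors in `L¹` -/

lemma norm_toL1_pathProduct (hpos : ν (Set.Ioi 0) = 1) (hmean : ∫ x, x ∂ν = 1)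
    (hm2 : Integrable (fun x : ℝ => x ^ 2) ν) (hW : IsRealization ν μ W)
    (h : ∀ v, Integrable (pathProduct W v) μ) (v : List ℕ) :
    ‖(h v).toL1 _‖ = 1 := by
  obtain ⟨-, h2, h3⟩ := pathProduct_facts hpos hmean hm2 hW v
  rw [L1.norm_of_fun_eq_integral_norm, ← h3]
  refine integral_congr_ae ?_
  filter_upwards [h2] with ω hω
  rw [Real.norm_eq_abs, abs_of_nonneg hω]

lemma norm_comb_eq (h : ∀ v, Integrable (pathProduct W v) μ) (v : List ℕ) (s : Finset ℕ)
    (a : ℕ → ℝ) :
    ‖∑ n ∈ s, a n • ((h (n :: v)).toL1 _ - (h v).toL1 _)‖ =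
      ∫ ω, |pathProduct W v ω * ∑ n ∈ s, a n * (W (n :: v) ω - 1)| ∂μ := by
  rw [L1.norm_eq_integral_norm]
  refine integral_congr_ae ?_
  have h1 : ∀ᵐ ω ∂μ, ∀ n : ℕ, (a n • ((h (n :: v)).toL1 _ - (h v).toL1 _) : Lp ℝ 1 μ) ω =
      a n * (pathProduct W (n :: v) ω - pathProduct W v ω) := by
    rw [ae_all_iff]
    intro n
    filter_upwards [Lp.coeFn_smul (a n) ((h (n :: v)).toL1 _ - (h v).toL1 _),
      Lp.coeFn_sub ((h (n :: v)).toL1 _) ((h v).toL1 _), (h (n :: v)).coeFn_toL1,
      (h v).coeFn_toL1] with ω e1 e2 e3 e4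
    rw [e1, Pi.smul_apply, e2, Pi.sub_apply, e3, e4, smul_eq_mul]
  filter_upwards [h1, Lp.coeFn_fun_finsetSum s
    (fun n => a n • ((h (n :: v)).toL1 _ - (h v).toL1 _))] with ω e1 e2
  rw [e2, Real.norm_eq_abs, Finset.mul_sum]
  congr 1
  refine Finset.sum_congr rfl (fun n _ => ?_)
  rw [e1 n]
  show a n * (pathProduct W v ω * W (n :: v) ω - pathProduct W v ω) = _
  ring

theorem noAUC_productSpan (hpos : ν (Set.Ioi 0) = 1) (hnc : ∀ c : ℝ, ν ≠ Measure.dirac c)
    (hmean : ∫ x, x ∂ν = 1) (hm2 : Integrable (fun x : ℝ => x ^ 2) ν)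
    (hW : IsRealization ν μ W) (N : productSpan μ W → ℝ) (hN : EquivNorm N) : ¬ AUC N := by
  have h : ∀ v, Integrable (pathProduct W v) μ :=
    fun v => (pathProduct_facts hpos hmean hm2 hW v).1
  have hmem : ∀ v, (h v).toL1 _ ∈ productSpan μ W := fun v =>
    Submodule.le_topologicalClosure _ (Submodule.subset_span ⟨v, (h v).coeFn_toL1⟩)
  let z : List ℕ → productSpan μ W := fun v => ⟨(h v).toL1 _, hmem v⟩
  have hz : ∀ v, ‖z v‖ = 1 := fun v => norm_toL1_pathProduct hpos hmean hm2 hW h v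
  have hcomb : ∀ (v : List ℕ) (s : Finset ℕ) (a : ℕ → ℝ),
      ‖∑ n ∈ s, a n • (z (n :: v) - z v)‖ = ∫ ω, |∑ n ∈ s, a n * (W (n :: v) ω - 1)| ∂μ := by
    intro v s a
    rw [← integral_abs_mul_comb hpos hmean hm2 hW v s a, ← norm_comb_eq h v s a]
    show ‖((∑ n ∈ s, a n • (z (n :: v) - z v) : productSpan μ W) : Lp ℝ 1 μ)‖ = _
    congr 1
    push_cast
    rfl
  have hd : ∀ (v : List ℕ) (n : ℕ), ‖z (n :: v) - z v‖ = dev ν := by
    intro v n
    have h1 := hcomb v {n} (fun _ => 1)
    simp only [Finset.sum_singleton, one_smul, one_mul] at h1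
    rw [h1, integral_comp_W (g := fun x => |x - 1|) hW (by simp) (by fun_prop)]
    rfl
  have htree : ∀ (j : ℕ) (v : List ℕ), TreeProp 1 (dev ν) j (z v) := by
    intro j
    induction j with
    | zero => intro v; exact (hz v).le
    | succ j ih =>
      intro v
      refine ⟨(hz v).le, fun F hF ε hε => ?_⟩
      have h1 := l2_dominated_near_cof (dn := fun n => z (n :: v) - z v)
        (C := Real.sqrt (Var[id; ν]))
        (fun s a => by rw [hcomb]; exact integral_abs_comb_le hmean hm2 hW v s a) hF hε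
      obtain ⟨n, y, hy, hyn⟩ := h1.exists
      exact ⟨z (n :: v), y, hy, hyn, (hd v n).ge, ih _⟩
  exact noAUC (dev_pos hnc hm2) one_pos (fun j => ⟨z [], (hz []).ge, htree j []⟩) N hN

end law

end Crest.Agent.AMUC.Prod
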