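import Mathlib

/-!
Reflexivity lemmas (package P5b of the AMUC row):
* `Refl X` : the canonical embedding of `X` into its bidual is surjective;
* `refl_of_hilbert` : real Hilbert spaces are reflexive;
* `Refl.of_equiv` : reflexivity passes along continuous linear equivalences;
* `refl_lp_two` : the `ℓ²`-sum of reflexive spaces is reflexive.
-/

namespace Crest.Agent.AMUC

open NormedSpace Filter Topology

/-- Reflexivity: the canonical embedding into the bidual is surjective. -/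
def Refl (X : Type*) [NormedAddCommGroup X] [NormedSpace ℝ X] : Prop :=
  Function.Surjective (inclusionInDoubleDual ℝ X)

theorem refl_of_hilbert (H : Type*) [NormedAddCommGroup H] [InnerProductSpace ℝ H]
    [CompleteSpace H] : Refl H := by
  intro Φ
  -- the functional `y ↦ Φ ⟪y, ·⟫`
  let T₀ : H →ₗ[ℝ] ℝ :=
    { toFun := fun y => Φ (InnerProductSpace.toDual ℝ H y)
      map_add' := fun a b => by simp
      map_smul' := fun c a => by simp }
  let T : H →L[ℝ] ℝ := T₀.mkContinuous ‖Φ‖ (fun y => by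
    have := Φ.le_opNorm (InnerProductSpace.toDual ℝ H y)
    simpa [T₀] using this)
  refine ⟨(InnerProductSpace.toDual ℝ H).symm T, ?_⟩
  ext f
  obtain ⟨y, rfl⟩ := (InnerProductSpace.toDual ℝ H).surjective f
  rw [dual_def, InnerProductSpace.toDual_apply_apply, real_inner_comm,
    InnerProductSpace.toDual_symm_apply]
  rfl

theorem Refl.of_equiv {X Y : Type*} [NormedAddCommGroup X] [NormedSpace ℝ X]
    [NormedAddCommGroup Y] [NormedSpace ℝ Y] (e : X ≃L[ℝ] Y) (h : Refl X) : Refl Y := by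
  intro Φ
  obtain ⟨x, hx⟩ := h (Φ.comp ((e.symm : Y →L[ℝ] X).precomp ℝ))
  refine ⟨e x, ?_⟩
  ext g
  have := congrArg (fun Ψ => Ψ (g.comp (e : X →L[ℝ] Y))) hx
  simp only [dual_def, ContinuousLinearMap.comp_apply] at this
  rw [dual_def]
  rw [show g (e x) = g ((e : X →L[ℝ] Y) x) from rfl, this]
  congr 1
  ext y
  simp


section lpsum

open scoped ENNReal

variable {ι : Type*} [DecidableEq ι] {X : ι → Type*} [∀ k, NormedAddCommGroup (X k)]
  [∀ k, NormedSpace ℝ (X k)]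

lemma two_toReal_pos : 0 < (2 : ℝ≥0∞).toReal := by norm_num

omit [DecidableEq ι] [∀ k, NormedSpace ℝ (X k)] in
lemma lp_sum_sq_le (y : lp X 2) (s : Finset ι) : ∑ k ∈ s, ‖y k‖ ^ 2 ≤ ‖y‖ ^ 2 := by
  have := lp.sum_rpow_le_norm_rpow two_toReal_pos y s
  simpa using this

omit [∀ k, NormedSpace ℝ (X k)] in
lemma lp_norm_sum_single_sq (f : ∀ k, X k) (s : Finset ι) :
    ‖∑ k ∈ s, lp.single 2 k (f k)‖ ^ 2 = ∑ k ∈ s, ‖f k‖ ^ 2 := by
  have := lp.norm_sum_single (p := 2) two_toReal_pos f s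
  simpa using this

lemma le_sq_of_le_mul_sqrt {a c : ℝ} (ha : 0 ≤ a) (h : a ≤ c * √a) : a ≤ c ^ 2 := by
  rcases ha.eq_or_lt with rfl | hpos
  · positivity
  · have hs : 0 < √a := Real.sqrt_pos.2 hpos
    have h1 : √a * √a ≤ c * √a := by rwa [Real.mul_self_sqrt ha]
    have h2 : √a ≤ c := le_of_mul_le_mul_right h1 hs
    calc a = √a ^ 2 := (Real.sq_sqrt ha).symm
      _ ≤ c ^ 2 := by gcongr

/-- the `k`-th component of a functional on the `ℓ²`-sum -/
noncomputable abbrev comp' (φ : StrongDual ℝ (lp X 2)) (k : ι) : StrongDual ℝ (X k) :=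
  φ.comp (lp.singleContinuousLinearMap ℝ X 2 k)

lemma hasSum_comp' (φ : StrongDual ℝ (lp X 2)) (y : lp X 2) :
    HasSum (fun k => comp' φ k (y k)) (φ y) := by
  have := (lp.hasSum_single (p := 2) (by norm_num) y).map φ φ.continuous
  exact this

/-- upper bound of the norm of a functional by the `ℓ²`-norm of its components -/
lemma norm_le_sqrt_of_forall_sum_le (φ : StrongDual ℝ (lp X 2)) {T : ℝ}
    (hT : ∀ s : Finset ι, ∑ k ∈ s, ‖comp' φ k‖ ^ 2 ≤ T) : ‖φ‖ ≤ √T := by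
  refine ContinuousLinearMap.opNorm_le_bound _ (Real.sqrt_nonneg _) fun y => ?_
  have h := (hasSum_comp' φ y).norm
  refine le_of_tendsto h (Eventually.of_forall fun s => ?_)
  calc ‖∑ k ∈ s, comp' φ k (y k)‖ ≤ ∑ k ∈ s, ‖comp' φ k (y k)‖ := norm_sum_le _ _
    _ ≤ ∑ k ∈ s, ‖comp' φ k‖ * ‖y k‖ := Finset.sum_le_sum fun k _ => (comp' φ k).le_opNorm _
    _ ≤ √(∑ k ∈ s, ‖comp' φ k‖ ^ 2) * √(∑ k ∈ s, ‖y k‖ ^ 2) :=
        Real.sum_mul_le_sqrt_mul_sqrt _ _ _
    _ ≤ √T * ‖y‖ := by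
        gcongr
        · exact hT s
        · rw [← Real.sqrt_sq (norm_nonneg y)]
          exact Real.sqrt_le_sqrt (lp_sum_sq_le y s)

lemma Refl.exists_norming {Y : Type*} [NormedAddCommGroup Y] [NormedSpace ℝ Y] (h : Refl Y)
    (ψ : StrongDual ℝ Y) : ∃ y : Y, ‖y‖ ≤ 1 ∧ ψ y = ‖ψ‖ := by
  obtain ⟨Θ, hΘ, hΘψ⟩ := exists_dual_vector'' ℝ ψ
  obtain ⟨y, rfl⟩ := h Θ
  refine ⟨y, ?_, ?_⟩
  · have := (inclusionInDoubleDualLi (E := Y) ℝ).norm_map y
    rw [← this]
    exact hΘ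
  · simpa [dual_def] using hΘψ

/-- lower bound of the norm of a functional by the `ℓ²`-norm of its components -/
lemma sum_sq_comp'_le (h : ∀ k, Refl (X k)) (φ : StrongDual ℝ (lp X 2)) (s : Finset ι) :
    ∑ k ∈ s, ‖comp' φ k‖ ^ 2 ≤ ‖φ‖ ^ 2 := by
  choose y hy1 hy2 using fun k => (h k).exists_norming (comp' φ k)
  set a := ∑ k ∈ s, ‖comp' φ k‖ ^ 2 with ha
  have ha0 : 0 ≤ a := Finset.sum_nonneg fun k _ => by positivity
  refine le_sq_of_le_mul_sqrt ha0 ?_
  set z : lp X 2 := ∑ k ∈ s, lp.single 2 k (‖comp' φ k‖ • y k) with hz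
  have h1 : φ z = a := by
    rw [hz, map_sum, ha]
    refine Finset.sum_congr rfl fun k _ => ?_
    have : φ (lp.single 2 k (‖comp' φ k‖ • y k)) = comp' φ k (‖comp' φ k‖ • y k) := rfl
    rw [this, map_smul, hy2, smul_eq_mul, sq]
  have h2 : ‖z‖ ≤ √a := by
    rw [← Real.sqrt_sq (norm_nonneg z)]
    refine Real.sqrt_le_sqrt ?_
    rw [hz, lp_norm_sum_single_sq, ha]
    refine Finset.sum_le_sum fun k _ => ?_
    rw [norm_smul, norm_norm, mul_pow]
    have : ‖y k‖ ^ 2 ≤ 1 := pow_le_one₀ (norm_nonneg _) (hy1 k)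
    nlinarith [sq_nonneg ‖comp' φ k‖]
  calc a = φ z := h1.symm
    _ ≤ ‖φ z‖ := le_abs_self _
    _ ≤ ‖φ‖ * ‖z‖ := φ.le_opNorm z
    _ ≤ ‖φ‖ * √a := by gcongr

/-- The `ℓ²`-sum of reflexive spaces is reflexive. -/
theorem refl_lp_two (h : ∀ k, Refl (X k)) : Refl (lp X 2) := by
  intro Φ
  -- components of `Φ`
  have hx : ∀ k, ∃ x : X k, ∀ ψ : StrongDual ℝ (X k),
      Φ (ψ.comp (lp.evalCLM ℝ X 2 k)) = ψ x := by
    intro k
    obtain ⟨x, hx⟩ := h k (Φ.comp ((lp.evalCLM ℝ X 2 k).precomp ℝ))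
    refine ⟨x, fun ψ => ?_⟩
    have := congrArg (fun Ψ => Ψ ψ) hx
    simp only [dual_def, ContinuousLinearMap.comp_apply] at this
    rw [this]
    rfl
  choose x hx using hx
  -- square summability
  have hsum : ∀ s : Finset ι, ∑ k ∈ s, ‖x k‖ ^ 2 ≤ ‖Φ‖ ^ 2 := by
    intro s
    choose ψ hψ1 hψ2 using fun k => exists_dual_vector'' ℝ (x k)
    set a := ∑ k ∈ s, ‖x k‖ ^ 2 with ha
    have ha0 : 0 ≤ a := Finset.sum_nonneg fun k _ => by positivity
    refine le_sq_of_le_mul_sqrt ha0 ?_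
    set φ : StrongDual ℝ (lp X 2) := ∑ k ∈ s, ‖x k‖ • (ψ k).comp (lp.evalCLM ℝ X 2 k) with hφ
    have h1 : Φ φ = a := by
      rw [hφ, map_sum, ha]
      refine Finset.sum_congr rfl fun k _ => ?_
      rw [map_smul, hx, hψ2, smul_eq_mul, sq]
      rfl
    have h2 : ‖φ‖ ≤ √a := by
      refine ContinuousLinearMap.opNorm_le_bound _ (Real.sqrt_nonneg _) fun y => ?_
      have e : φ y = ∑ k ∈ s, ‖x k‖ * ψ k (y k) := by
        rw [hφ, FunLike.coe_sum, Finset.sum_apply]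
        rfl
      rw [e]
      calc ‖∑ k ∈ s, ‖x k‖ * ψ k (y k)‖ ≤ ∑ k ∈ s, ‖‖x k‖ * ψ k (y k)‖ := norm_sum_le _ _
        _ ≤ ∑ k ∈ s, ‖x k‖ * ‖y k‖ := by
            refine Finset.sum_le_sum fun k _ => ?_
            rw [norm_mul, norm_norm]
            gcongr
            calc ‖ψ k (y k)‖ ≤ ‖ψ k‖ * ‖y k‖ := (ψ k).le_opNorm _
              _ ≤ 1 * ‖y k‖ := by gcongr; exact hψ1 k
              _ = ‖y k‖ := one_mul _
        _ ≤ √(∑ k ∈ s, ‖x k‖ ^ 2) * √(∑ k ∈ s, ‖y k‖ ^ 2) :=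
            Real.sum_mul_le_sqrt_mul_sqrt _ _ _
        _ ≤ √a * ‖y‖ := by
            gcongr
            rw [← Real.sqrt_sq (norm_nonneg y)]
            exact Real.sqrt_le_sqrt (lp_sum_sq_le y s)
    calc a = Φ φ := h1.symm
      _ ≤ ‖Φ φ‖ := le_abs_self _
      _ ≤ ‖Φ‖ * ‖φ‖ := Φ.le_opNorm φ
      _ ≤ ‖Φ‖ * √a := by gcongr
  have hmem : Memℓp x 2 := by
    refine memℓp_gen' (C := ‖Φ‖ ^ 2) fun s => ?_
    simpa using hsum s
  refine ⟨⟨x, hmem⟩, ?_⟩
  ext φ
  rw [dual_def]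
  set xx : lp X 2 := ⟨x, hmem⟩ with hxx
  -- partial sums
  let P : Finset ι → StrongDual ℝ (lp X 2) := fun s =>
    ∑ k ∈ s, (comp' φ k).comp (lp.evalCLM ℝ X 2 k)
  have hP1 : ∀ s, Φ (P s) = ∑ k ∈ s, comp' φ k (xx k) := by
    intro s
    simp only [P, map_sum, hx]
    rfl
  have lim1 : Tendsto (fun s => Φ (P s)) atTop (𝓝 (φ xx)) := by
    simp only [hP1]
    exact hasSum_comp' φ xx
  -- `P s → φ` in norm
  have hsummable : Summable fun k => ‖comp' φ k‖ ^ 2 :=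
    summable_of_sum_le (fun k => by positivity) (sum_sq_comp'_le h φ)
  set A := ∑' k, ‖comp' φ k‖ ^ 2 with hA
  have hcomp : ∀ s k, comp' (φ - P s) k = if k ∈ s then 0 else comp' φ k := by
    intro s k
    ext v
    have e1 : comp' (φ - P s) k v = φ (lp.single 2 k v) - P s (lp.single 2 k v) := rfl
    have e2 : P s (lp.single 2 k v) = ∑ j ∈ s, comp' φ j ((lp.single 2 k v : lp X 2) j) := by
      simp only [P, FunLike.coe_sum, Finset.sum_apply]
      rfl
    rw [e1, e2]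
    by_cases hk : k ∈ s
    · rw [if_pos hk, Finset.sum_eq_single k]
      · rw [lp.single_apply_self]
        simp
      · intro j _ hj
        rw [lp.single_apply_ne _ _ _ hj, map_zero]
      · intro hk'
        exact absurd hk hk'
    · rw [if_neg hk, Finset.sum_eq_zero]
      · simp
      · intro j hj
        have : j ≠ k := fun e => hk (e ▸ hj)
        rw [lp.single_apply_ne _ _ _ this, map_zero]
  have hbound : ∀ s, ‖φ - P s‖ ≤ √(A - ∑ k ∈ s, ‖comp' φ k‖ ^ 2) := by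
    intro s
    refine norm_le_sqrt_of_forall_sum_le _ fun s' => ?_
    have e : ∑ k ∈ s', ‖comp' (φ - P s) k‖ ^ 2 = ∑ k ∈ s' \ s, ‖comp' φ k‖ ^ 2 := by
      rw [Finset.sum_congr rfl (fun k _ => by rw [hcomp s k])]
      rw [← Finset.sum_sdiff (Finset.inter_subset_left : s' ∩ s ⊆ s')]
      rw [Finset.sdiff_inter_self_left]
      have z : ∑ k ∈ s' ∩ s, ‖(if k ∈ s then (0 : StrongDual ℝ (X k)) else comp' φ k)‖ ^ 2 = 0 := by
        refine Finset.sum_eq_zero fun k hk => ?_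
        rw [if_pos (Finset.mem_inter.1 hk).2]
        simp
      rw [z, add_zero]
      refine Finset.sum_congr rfl fun k hk => ?_
      rw [if_neg (Finset.mem_sdiff.1 hk).2]
    rw [e]
    have : ∑ k ∈ s' \ s, ‖comp' φ k‖ ^ 2 + ∑ k ∈ s, ‖comp' φ k‖ ^ 2 ≤ A := by
      rw [← Finset.sum_union Finset.sdiff_disjoint]
      exact hsummable.sum_le_tsum _ fun k _ => by positivity
    linarith
  have lim0 : Tendsto (fun s : Finset ι => √(A - ∑ k ∈ s, ‖comp' φ k‖ ^ 2)) atTop (𝓝 0) := by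
    have h1 : Tendsto (fun s : Finset ι => A - ∑ k ∈ s, ‖comp' φ k‖ ^ 2) atTop (𝓝 (A - A)) :=
      tendsto_const_nhds.sub hsummable.hasSum
    rw [sub_self] at h1
    have := (Real.continuous_sqrt.tendsto 0).comp h1
    rw [Real.sqrt_zero] at this
    exact this
  have lim2 : Tendsto (fun s => Φ (P s)) atTop (𝓝 (Φ φ)) := by
    have hP : Tendsto P atTop (𝓝 φ) := by
      rw [tendsto_iff_norm_sub_tendsto_zero]
      refine squeeze_zero (fun s => norm_nonneg _) (fun s => ?_) lim0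
      rw [norm_sub_rev]
      exact hbound s
    exact (Φ.continuous.tendsto φ).comp hP
  exact tendsto_nhds_unique lim1 lim2

end lpsum

end Crest.Agent.AMUC
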