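import Crest.Agent.Lib_AMUC.SumNoAUC

/-! S0166: the generators `lp.single 2 k (eK k u)` span a dense subspace of the `ℓ²`-sum, which is
therefore separable (helper2). -/

set_option autoImplicit false

namespace Crest.Agent.AMUC.SumNoAUC

open Crest.AnalysisR Crest.AnalysisR.TreePotential Crest.Agent.AMUC.TreeNoAUC
open scoped ENNReal
open Filter Topology

/-- the generators of the `ℓ²`-sum -/
def genSet : Set ESum :=
  {x | ∃ (k : ℕ) (u : List ℕ), u.length ≤ k ∧ x = lp.single 2 k (eK k u)}

theorem genSet_countable : genSet.Countable := by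
  have : genSet ⊆ Set.range (fun p : ℕ × List ℕ => (lp.single 2 p.1 (eK p.1 p.2) : ESum)) := by
    rintro x ⟨k, u, -, rfl⟩
    exact ⟨(k, u), rfl⟩
  exact (Set.countable_range _).mono this

/-- a closed submodule contains the sums of its summable families -/
theorem mem_of_hasSum {Y : Type*} [NormedAddCommGroup Y] [NormedSpace ℝ Y] {ι : Type*}
    (M : Submodule ℝ Y) (hM : IsClosed (M : Set Y)) {f : ι → Y} {a : Y} (hf : HasSum f a)
    (h : ∀ i, f i ∈ M) : a ∈ M :=
  hM.mem_of_tendsto hf (Eventually.of_forall fun _ => M.sum_mem fun i _ => h i)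

open Classical in
theorem XkEquiv_single (k : ℕ) (s : Vk k) (a : ℝ) :
    XkEquiv k (lp.single 2 s a) = a • eK k s.1 := by
  apply Subtype.ext
  rw [XkEquiv_coe, synth_single, Submodule.coe_smul, eK_coe s.2]
  rfl

theorem single_mem (k : ℕ) (w : Xk k) :
    (lp.single 2 k w : ESum) ∈ (Submodule.span ℝ genSet).topologicalClosure := by
  classical
  set M := (Submodule.span ℝ genSet).topologicalClosure with hM
  have hMc : IsClosed (M : Set ESum) := Submodule.isClosed_topologicalClosure _
  obtain ⟨x, rfl⟩ := (XkEquiv k).surjective w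
  have h1 : HasSum (fun s : Vk k => lp.single 2 s (x s)) x := lp.hasSum_single (by norm_num) x
  have h2 : HasSum (fun s : Vk k =>
      lp.singleContinuousLinearMap ℝ (fun k : ℕ => Xk k) 2 k (XkEquiv k (lp.single 2 s (x s))))
      (lp.singleContinuousLinearMap ℝ (fun k : ℕ => Xk k) 2 k (XkEquiv k x)) :=
    (h1.mapL (XkEquiv k : Hk k →L[ℝ] Xk k)).mapL _
  refine mem_of_hasSum M hMc h2 fun s => ?_
  rw [XkEquiv_single, map_smul]
  refine M.smul_mem _ (Submodule.le_topologicalClosure _ (Submodule.subset_span ?_))
  exact ⟨k, s.1, s.2, rfl⟩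

theorem dense_span_genSet : Dense ((Submodule.span ℝ genSet : Submodule ℝ ESum) : Set ESum) := by
  intro x
  rw [← Submodule.topologicalClosure_coe]
  exact mem_of_hasSum _ (Submodule.isClosed_topologicalClosure _)
    (lp.hasSum_single (by norm_num) x) fun k => single_mem k (x k)

instance : TopologicalSpace.SeparableSpace ESum := by
  rw [← TopologicalSpace.isSeparable_univ_iff, ← dense_span_genSet.closure_eq]
  exact (genSet_countable.isSeparable.span (R := ℝ)).closure

end Crest.Agent.AMUC.SumNoAUC
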