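import Crest.Agent.Lib_AMUC.Tree

/-!
Lemma M: the averaged midpoint estimate in the tree potential models.
-/

set_option autoImplicit false
open Crest.AnalysisR Crest.AnalysisR.TreePotential

namespace Crest.Agent.AMUC

/-! ### real-variable lemmas -/

/-- the asymmetric contraction `q ↦ l min(q,0) + (1-l) max(q,0)` -/
noncomputable def phi (l q : ℝ) : ℝ := l * min q 0 + (1 - l) * max q 0

lemma phi_zero (l : ℝ) : phi l 0 = 0 := by simp [phi]

lemma phi_add (l q : ℝ) : phi l q + phi (1 - l) q = q := by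
  simp only [phi]
  have : min q 0 + max q 0 = q := by simp
  linear_combination this

lemma phi_of_nonneg (l q : ℝ) (hq : 0 ≤ q) : phi l q = (1 - l) * q := by
  simp [phi, min_eq_right hq, max_eq_left hq]

lemma phi_of_nonpos (l q : ℝ) (hq : q ≤ 0) : phi l q = l * q := by
  simp [phi, min_eq_left hq, max_eq_right hq]

lemma phi_lip (l q q' : ℝ) (h0 : 0 ≤ l) (h1 : l ≤ 1) : |phi l q' - phi l q| ≤ |q' - q| := by
  have h1' : 0 ≤ 1 - l := by linarith
  rcases le_total 0 q with hq | hq <;> rcases le_total 0 q' with hq' | hq'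
  · rw [phi_of_nonneg l q hq, phi_of_nonneg l q' hq', ← mul_sub, abs_mul, abs_of_nonneg h1']
    exact mul_le_of_le_one_left (abs_nonneg _) (by linarith)
  · rw [phi_of_nonneg l q hq, phi_of_nonpos l q' hq']
    rw [abs_le, abs_of_nonpos (by linarith : q' - q ≤ 0)]
    constructor <;> nlinarith
  · rw [phi_of_nonpos l q hq, phi_of_nonneg l q' hq']
    rw [abs_le, abs_of_nonneg (by linarith : 0 ≤ q' - q)]
    constructor <;> nlinarith
  · rw [phi_of_nonpos l q hq, phi_of_nonpos l q' hq', ← mul_sub, abs_mul, abs_of_nonneg h0]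
    exact mul_le_of_le_one_left (abs_nonneg _) h1

lemma bound_plus (a b p q : ℝ) (hp : |p| ≤ 1) (hq : |q| ≤ 2) (hb : 0 ≤ b) (hba : b ≤ a)
    (ha : a ≤ 1) : |a * p + b * phi ((1 + p) / 2) q| ≤ 1 := by
  obtain ⟨p1, p2⟩ := abs_le.mp hp
  obtain ⟨q1, q2⟩ := abs_le.mp hq
  rcases le_total 0 q with h | h
  · rw [phi_of_nonneg _ q h, abs_le]
    constructor <;> nlinarith [mul_nonneg hb h, mul_nonneg (mul_nonneg hb h) (by linarith : 0 ≤ 1 - p),
      mul_nonneg hb (by linarith : 0 ≤ 2 - q), mul_nonneg (mul_nonneg hb (by linarith : 0 ≤ 2 - q)) (by linarith : 0 ≤ 1 - p),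
      mul_nonneg (by linarith : 0 ≤ a - b) (by linarith : 0 ≤ 1 - p),
      mul_nonneg (by linarith : 0 ≤ a - b) (by linarith : 0 ≤ 1 + p)]
  · rw [phi_of_nonpos _ q h, abs_le]
    constructor <;> nlinarith [mul_nonneg hb (by linarith : 0 ≤ -q),
      mul_nonneg (mul_nonneg hb (by linarith : 0 ≤ -q)) (by linarith : 0 ≤ 1 + p),
      mul_nonneg hb (by linarith : 0 ≤ 2 + q), mul_nonneg (mul_nonneg hb (by linarith : 0 ≤ 2 + q)) (by linarith : 0 ≤ 1 + p),
      mul_nonneg (by linarith : 0 ≤ a - b) (by linarith : 0 ≤ 1 - p),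
      mul_nonneg (by linarith : 0 ≤ a - b) (by linarith : 0 ≤ 1 + p)]

lemma bound_minus (a b p q : ℝ) (hp : |p| ≤ 1) (hq : |q| ≤ 2) (hb : 0 ≤ b) (hba : b ≤ a)
    (ha : a ≤ 1) : |a * p - b * phi (1 - (1 + p) / 2) q| ≤ 1 := by
  -- apply `bound_plus` to `(-p, q)`
  have h := bound_plus a b (-p) q (by rwa [abs_neg]) hq hb hba ha
  have e : a * p - b * phi (1 - (1 + p) / 2) q = -(a * -p + b * phi ((1 + -p) / 2) q) := by
    have : 1 - (1 + p) / 2 = (1 + -p) / 2 := by ring
    rw [this]; ring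
  rw [e, abs_neg]
  exact h

/-! ### restriction of a coefficient family to an ancestor-closed set -/

section restrict

variable (S : Finset (List ℕ)) (hnil : [] ∈ S) (hS : ∀ n v, n :: v ∈ S → v ∈ S)

include hnil hS in
lemma restrict_potential (f : List ℕ → ℝ) (u : List ℕ) :
    (u ∈ S → pathPotential (fun u => if u ∈ S then f u else 0) u = pathPotential f u) ∧
      ∃ w, pathPotential (fun u => if u ∈ S then f u else 0) u = pathPotential f w := by
  induction u with
  | nil =>
    have : pathPotential (fun u => if u ∈ S then f u else 0) [] = pathPotential f [] := by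
      simp [pathPotential, hnil]
    exact ⟨fun _ => this, [], this⟩
  | cons n v ih =>
    by_cases h : n :: v ∈ S
    · have : pathPotential (fun u => if u ∈ S then f u else 0) (n :: v)
          = pathPotential f (n :: v) := by
        simp only [pathPotential, ih.1 (hS n v h), if_pos h]
      exact ⟨fun _ => this, _, this⟩
    · obtain ⟨w, hw⟩ := ih.2
      refine ⟨fun h' => absurd h' h, w, ?_⟩
      simp only [pathPotential, if_neg h, add_zero, hw]

include hnil hS in
lemma restrict_abs_le (f : List ℕ → ℝ) (hf : ∀ s, |pathPotential f s| ≤ 1) (u : List ℕ) :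
    |pathPotential (fun u => if u ∈ S then f u else 0) u| ≤ 1 := by
  obtain ⟨w, hw⟩ := (restrict_potential S hnil hS f u).2
  rw [hw]; exact hf w

lemma compl_potential (g : List ℕ → ℝ) (u : List ℕ) :
    pathPotential (fun u => if u ∈ S then 0 else g u) u
      = pathPotential g u - pathPotential (fun u => if u ∈ S then g u else 0) u := by
  have : g = fun u => (if u ∈ S then 0 else g u) + (if u ∈ S then g u else 0) := by
    funext u; split_ifs <;> simp
  conv_rhs => rw [this]
  rw [pathPotential_add]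
  have e : (fun u => if u ∈ S then (if u ∈ S then 0 else g u) + (if u ∈ S then g u else 0) else 0)
      = fun u => if u ∈ S then g u else 0 := by
    funext u; split_ifs <;> simp
  rw [e]; ring

include hnil hS in
lemma compl_abs_le (g : List ℕ → ℝ) (hg : ∀ s, |pathPotential g s| ≤ 1) (u : List ℕ) :
    |pathPotential (fun u => if u ∈ S then 0 else g u) u| ≤ 2 := by
  rw [compl_potential]
  have h1 := hg u
  have h2 := restrict_abs_le S hnil hS g hg u
  rw [abs_le] at h1 h2 ⊢
  constructor <;> linarith [h1.1, h1.2, h2.1, h2.2]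

include hnil hS in
lemma compl_eq_zero (g : List ℕ → ℝ) (u : List ℕ) (hu : u ∈ S) :
    pathPotential (fun u => if u ∈ S then 0 else g u) u = 0 := by
  rw [compl_potential, (restrict_potential S hnil hS g u).1 hu, sub_self]

include hnil hS in
/-- the two twisted tests -/
lemma exists_pm {m : PotentialModel} (f g : PotentialTest m) (a b : ℝ) (hb : 0 ≤ b) (hba : b ≤ a)
    (hab : a ^ 2 + b ^ 2 ≤ 1) :
    ∃ fp fm : PotentialTest m, (∀ s ∈ S, fp.1 s = a * f.1 s) ∧ (∀ s ∈ S, fm.1 s = a * f.1 s) ∧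
      ∀ u, fp.1 u - fm.1 u = b * (if u ∈ S then 0 else g.1 u) := by
  have ha1 : a ≤ 1 := by nlinarith [sq_nonneg b, sq_nonneg (a - 1)]
  set p := pathPotential (fun u => if u ∈ S then f.1 u else 0) with hp
  set Q := pathPotential (fun u => if u ∈ S then 0 else g.1 u) with hQ
  have hp1 : ∀ u, |p u| ≤ 1 := restrict_abs_le S hnil hS f.1 f.2.1
  have hQ2 : ∀ u, |Q u| ≤ 2 := compl_abs_le S hnil hS g.1 g.2.1
  have hQ0 : ∀ u ∈ S, Q u = 0 := compl_eq_zero S hnil hS g.1
  have hpnil : p [] = f.1 [] := by simp [hp, pathPotential, hnil]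
  have hpin : ∀ n v, n :: v ∈ S → p (n :: v) = p v + f.1 (n :: v) := by
    intro n v h; simp only [hp, pathPotential, if_pos h]
  have hpout : ∀ n v, n :: v ∉ S → p (n :: v) = p v := by
    intro n v h; simp only [hp, pathPotential, if_neg h, add_zero]
  have hQout : ∀ n v, n :: v ∉ S → Q (n :: v) = Q v + g.1 (n :: v) := by
    intro n v h; simp only [hQ, pathPotential, if_neg h]
  set Ψp : List ℕ → ℝ := fun u => a * p u + b * phi ((1 + p u) / 2) (Q u) with hΨp
  set Ψm : List ℕ → ℝ := fun u => a * p u - b * phi (1 - (1 + p u) / 2) (Q u) with hΨm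
  -- values on `S`
  have vp : ∀ s ∈ S, coef Ψp s = a * f.1 s := by
    intro s hs
    cases s with
    | nil => simp only [coef, hΨp, hQ0 [] hs, phi_zero, hpnil]; ring
    | cons n v =>
      simp only [coef, hΨp, hQ0 _ hs, hQ0 _ (hS n v hs), phi_zero, hpin n v hs]; ring
  have vm : ∀ s ∈ S, coef Ψm s = a * f.1 s := by
    intro s hs
    cases s with
    | nil => simp only [coef, hΨm, hQ0 [] hs, phi_zero, hpnil]; ring
    | cons n v =>
      simp only [coef, hΨm, hQ0 _ hs, hQ0 _ (hS n v hs), phi_zero, hpin n v hs]; ring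
  -- values off `S`
  have op : ∀ n v, n :: v ∉ S → coef Ψp (n :: v)
      = b * (phi ((1 + p v) / 2) (Q v + g.1 (n :: v)) - phi ((1 + p v) / 2) (Q v)) := by
    intro n v h
    simp only [coef, hΨp, hpout n v h, hQout n v h]; ring
  have om : ∀ n v, n :: v ∉ S → coef Ψm (n :: v)
      = -(b * (phi (1 - (1 + p v) / 2) (Q v + g.1 (n :: v)) - phi (1 - (1 + p v) / 2) (Q v))) := by
    intro n v h
    simp only [coef, hΨm, hpout n v h, hQout n v h]; ring
  have hl : ∀ v, 0 ≤ (1 + p v) / 2 ∧ (1 + p v) / 2 ≤ 1 := by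
    intro v
    obtain ⟨h1, h2⟩ := abs_le.mp (hp1 v)
    constructor <;> linarith
  have domp : ∀ u, coef Ψp u ^ 2 ≤ a ^ 2 * f.1 u ^ 2 + b ^ 2 * g.1 u ^ 2 := by
    intro u
    by_cases hu : u ∈ S
    · rw [vp u hu, mul_pow]
      have : 0 ≤ b ^ 2 * g.1 u ^ 2 := by positivity
      linarith
    · cases u with
      | nil => exact absurd hnil hu
      | cons n v =>
        rw [op n v hu, mul_pow]
        have h1 := phi_lip ((1 + p v) / 2) (Q v) (Q v + g.1 (n :: v)) (hl v).1 (hl v).2
        rw [add_sub_cancel_left] at h1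
        have h2 := sq_le_sq' (by linarith [abs_le.mp h1 |>.1, neg_abs_le (g.1 (n :: v)), abs_nonneg (g.1 (n :: v)), (abs_le.mp (le_refl |phi ((1 + p v) / 2) (Q v + g.1 (n :: v)) - phi ((1 + p v) / 2) (Q v)|)).1]) (le_trans (le_abs_self _) h1)
        rw [sq_abs] at h2
        have h3 : 0 ≤ a ^ 2 * f.1 (n :: v) ^ 2 := by positivity
        have h4 := mul_le_mul_of_nonneg_left h2 (sq_nonneg b)
        linarith
  have domm : ∀ u, coef Ψm u ^ 2 ≤ a ^ 2 * f.1 u ^ 2 + b ^ 2 * g.1 u ^ 2 := by
    intro u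
    by_cases hu : u ∈ S
    · rw [vm u hu, mul_pow]
      have : 0 ≤ b ^ 2 * g.1 u ^ 2 := by positivity
      linarith
    · cases u with
      | nil => exact absurd hnil hu
      | cons n v =>
        rw [om n v hu, neg_sq, mul_pow]
        have h1 := phi_lip (1 - (1 + p v) / 2) (Q v) (Q v + g.1 (n :: v)) (by linarith [(hl v).2])
          (by linarith [(hl v).1])
        rw [add_sub_cancel_left] at h1
        have h2 : (phi (1 - (1 + p v) / 2) (Q v + g.1 (n :: v)) - phi (1 - (1 + p v) / 2) (Q v)) ^ 2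
            ≤ g.1 (n :: v) ^ 2 := sq_le_sq.mpr h1
        have h3 : 0 ≤ a ^ 2 * f.1 (n :: v) ^ 2 := by positivity
        have h4 := mul_le_mul_of_nonneg_left h2 (sq_nonneg b)
        linarith
  have tp : IsTest m (coef Ψp) := by
    refine ⟨fun s => ?_, extra_comb m f.1 g.1 _ a b hab f.2.2 g.2.2 domp⟩
    rw [pathPotential_coef]
    exact bound_plus a b (p s) (Q s) (hp1 s) (hQ2 s) hb hba ha1
  have tm : IsTest m (coef Ψm) := by
    refine ⟨fun s => ?_, extra_comb m f.1 g.1 _ a b hab f.2.2 g.2.2 domm⟩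
    rw [pathPotential_coef]
    exact bound_minus a b (p s) (Q s) (hp1 s) (hQ2 s) hb hba ha1
  refine ⟨⟨coef Ψp, tp⟩, ⟨coef Ψm, tm⟩, vp, vm, fun u => ?_⟩
  show coef Ψp u - coef Ψm u = _
  by_cases hu : u ∈ S
  · rw [vp u hu, vm u hu, if_pos hu]; ring
  · cases u with
    | nil => exact absurd hnil hu
    | cons n v =>
      rw [op n v hu, om n v hu, if_neg hu]
      have e1 := phi_add ((1 + p v) / 2) (Q v + g.1 (n :: v))
      have e2 := phi_add ((1 + p v) / 2) (Q v)
      linear_combination b * e1 - b * e2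

end restrict

/-- **Lemma M.** -/
theorem lemmaM (m : PotentialModel) (S : Finset (List ℕ)) (hnil : [] ∈ S)
    (hS : ∀ n v, n :: v ∈ S → v ∈ S)
    (x y : lp (fun _ : PotentialTest m => ℝ) ⊤)
    (hx : x ∈ Submodule.span ℝ (coordVector m '' (S : Set (List ℕ))))
    (hy : y ∈ modelSpace m) (hy0 : ∀ s ∈ S, y (deltaT m s) = 0) :
    Real.sqrt (‖x‖ ^ 2 + ‖y‖ ^ 2 / 4) ≤ (‖x + y‖ + ‖x - y‖) / 2 := by
  have hxM : x ∈ modelSpace m := by
    refine Submodule.le_topologicalClosure _ (Submodule.span_mono ?_ hx)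
    rintro _ ⟨s, _, rfl⟩
    exact ⟨s, rfl⟩
  set X := ‖x‖ with hX
  set Y := ‖y‖ with hY
  have hX0 : 0 ≤ X := norm_nonneg _
  have hY0 : 0 ≤ Y := norm_nonneg _
  rcases le_or_gt (2 * X) Y with hc | hc
  · -- trivial case
    have h1 : 2 * Y ≤ ‖x + y‖ + ‖x - y‖ := by
      have : (2 : ℝ) • y = (x + y) - (x - y) := by rw [two_smul]; abel
      have h2 : ‖(2 : ℝ) • y‖ ≤ ‖x + y‖ + ‖x - y‖ := by rw [this]; exact norm_sub_le _ _
      rw [norm_smul] at h2
      simpa using h2
    have h2 : Real.sqrt (X ^ 2 + Y ^ 2 / 4) ≤ Y := by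
      rw [Real.sqrt_le_left hY0]
      nlinarith
    linarith
  · have hXpos : 0 < X := by linarith
    set R := Real.sqrt (X ^ 2 + Y ^ 2 / 4) with hR
    have hRsq : R ^ 2 = X ^ 2 + Y ^ 2 / 4 := Real.sq_sqrt (by positivity)
    have hRpos : 0 < R := Real.sqrt_pos.mpr (by positivity)
    set a := X / R with ha
    set b := (Y / 2) / R with hb
    have hb0 : 0 ≤ b := by positivity
    have hba : b ≤ a := by
      rw [ha, hb]; gcongr; linarith
    have hab : a ^ 2 + b ^ 2 ≤ 1 := by
      rw [ha, hb, div_pow, div_pow, ← add_div, hRsq]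
      have : X ^ 2 + (Y / 2) ^ 2 = X ^ 2 + Y ^ 2 / 4 := by ring
      rw [this, div_self (by positivity)]
    have ha1 : a ≤ 1 := by nlinarith [sq_nonneg b, sq_nonneg (a - 1)]
    have ha0 : 0 ≤ a := hb0.trans hba
    have hmain : 2 * a * X + b * Y = 2 * R := by
      rw [ha, hb]
      field_simp
      nlinarith
    apply le_of_forall_pos_le_add
    intro ε hε
    obtain ⟨f, hf⟩ := exists_test_gt x hxM (ε / 2) (half_pos hε)
    obtain ⟨g, hg⟩ := exists_test_gt y hy (ε / 2) (half_pos hε)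
    obtain ⟨fp, fm, h1, h2, h3⟩ := exists_pm S hnil hS f g a b hb0 hba hab
    have xp : x fp = a * x f := span_apply_eq _ x hx a fp f (fun s hs => h1 s hs)
    have xm : x fm = a * x f := span_apply_eq _ x hx a fm f (fun s hs => h2 s hs)
    have yd : y fp - y fm = b * y g := by
      have := clm_eq_zero_of_coord
        (evA fp - evA fm - b • evA g + b • ∑ s ∈ S, g.1 s • evA (deltaT m s)) (fun u => by
          simp only [add_apply, sub_apply, smul_apply, sum_apply, evA_apply, coordVector_apply,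
            smul_eq_mul, test_mul_dl, ind]
          rw [h3 u]
          simp only [mul_ite, mul_one, mul_zero, Finset.sum_ite_eq]
          split_ifs <;> ring) y hy
      simp only [add_apply, sub_apply, smul_apply, sum_apply, evA_apply, smul_eq_mul] at this
      have hz : ∑ s ∈ S, g.1 s * y (deltaT m s) = 0 :=
        Finset.sum_eq_zero fun s hs => by rw [hy0 s hs, mul_zero]
      rw [hz] at this
      linarith
    have n1 : (x + y) fp ≤ ‖x + y‖ := apply_le_norm _ _
    have n2 : (x - y) fm ≤ ‖x - y‖ := apply_le_norm _ _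
    simp only [lp.coeFn_add, lp.coeFn_sub, Pi.add_apply, Pi.sub_apply] at n1 n2
    have k1 : a * (X - ε / 2) ≤ a * x f := mul_le_mul_of_nonneg_left hf.le ha0
    have k2 : b * (Y - ε / 2) ≤ b * y g := mul_le_mul_of_nonneg_left hg.le hb0
    have k3 : a * ε ≤ ε := mul_le_of_le_one_left hε.le ha1
    have k4 : b * ε ≤ ε := mul_le_of_le_one_left hε.le (hba.trans ha1)
    nlinarith

end Crest.Agent.AMUC
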