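import Crest.Agent.Lib_AMUC.SumNoAUC
import Crest.Agent.Lib_AMUC.TreeM
import Crest.Agent.Lib_AMUC.LpSum
import Crest.Agent.Lib_AMUC.Dense

/-! S0166, part (c): the Pythagorean midpoint inequality in the `ℓ²`-sum `ESum` around finitely
supported centres (helper5). -/

set_option autoImplicit false

namespace Crest.Agent.AMUC.SumNoAUC

open Crest.AnalysisR Crest.AnalysisR.TreePotential
open scoped ENNReal

/-- finitely supported vectors: finitely many non-zero components, each a finite combination of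
coordinate vectors. -/
def FinSupp (x0 : ESum) : Prop :=
  ∃ (K : Finset ℕ) (S : Finset (List ℕ)), (∀ k, k ∉ K → x0 k = 0) ∧
    ∀ k, ((x0 k : Xk k) : Amb) ∈
      Submodule.span ℝ (coordVector PotentialModel.global '' (S : Set (List ℕ)))

theorem FinSupp.zero : FinSupp 0 :=
  ⟨∅, ∅, fun _ _ => rfl, fun _ => Submodule.zero_mem _⟩

theorem FinSupp.add {x y : ESum} (hx : FinSupp x) (hy : FinSupp y) : FinSupp (x + y) := by
  classical
  obtain ⟨K1, S1, h1, h1'⟩ := hx
  obtain ⟨K2, S2, h2, h2'⟩ := hy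
  refine ⟨K1 ∪ K2, S1 ∪ S2, fun k hk => ?_, fun k => ?_⟩
  · rw [Finset.mem_union, not_or] at hk
    show x k + y k = 0
    rw [h1 k hk.1, h2 k hk.2, add_zero]
  · show ((x k + y k : Xk k) : Amb) ∈ _
    rw [Submodule.coe_add]
    refine Submodule.add_mem _ (Submodule.span_mono ?_ (h1' k)) (Submodule.span_mono ?_ (h2' k))
    · exact Set.image_mono (by intro s hs; simp at hs ⊢; exact Or.inl hs)
    · exact Set.image_mono (by intro s hs; simp at hs ⊢; exact Or.inr hs)

theorem FinSupp.smul {x : ESum} (c : ℝ) (hx : FinSupp x) : FinSupp (c • x) := by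
  obtain ⟨K1, S1, h1, h1'⟩ := hx
  refine ⟨K1, S1, fun k hk => ?_, fun k => ?_⟩
  · have h0 : (x k : Xk k) = 0 := h1 k hk
    show (c • (x k : Xk k) : Xk k) = 0
    rw [h0]
    exact smul_zero (A := Xk k) c
  · show ((c • x k : Xk k) : Amb) ∈ _
    rw [Submodule.coe_smul]
    exact Submodule.smul_mem _ _ (h1' k)

theorem FinSupp.single (k : ℕ) (w : Xk k) (u : List ℕ)
    (hw : (w : Amb) = coordVector PotentialModel.global u) :
    FinSupp (lp.single 2 k w : ESum) := by
  classical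
  refine ⟨{k}, {u}, fun j hj => ?_, fun j => ?_⟩
  · rw [Finset.mem_singleton] at hj
    exact lp.single_apply_ne (E := fun k : ℕ => Xk k) 2 k w hj
  · by_cases hj : j = k
    · subst hj
      have h0 : ((lp.single 2 j w : ESum) j : Xk j) = w :=
        lp.single_apply_self (E := fun k : ℕ => Xk k) 2 j w
      rw [h0, hw]
      exact Submodule.subset_span ⟨u, by simp, rfl⟩
    · have h0 : ((lp.single 2 k w : ESum) j : Xk j) = 0 :=
        lp.single_apply_ne (E := fun k : ℕ => Xk k) 2 k w hj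
      rw [h0]
      exact Submodule.zero_mem _

/-- the functional `y ↦ (y k) (deltaT s)` on the sum. -/
noncomputable def evK (k : ℕ) (s : List ℕ) : ESum →L[ℝ] ℝ :=
  (evA (deltaT PotentialModel.global s)).comp
    ((Xk k).subtypeL.comp (lp.evalCLM ℝ (fun k : ℕ => Xk k) 2 k))

lemma evK_apply (k : ℕ) (s : List ℕ) (y : ESum) :
    evK k s y = ((y k : Xk k) : Amb) (deltaT PotentialModel.global s) := rfl

theorem pythagoras_of_finSupp {x0 : ESum} (h : FinSupp x0) :
    ∃ F : Set ESum, Cof F ∧ ∀ y ∈ F,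
      Real.sqrt (‖x0‖ ^ 2 + ‖y‖ ^ 2 / 4) ≤ (‖x0 + y‖ + ‖x0 - y‖) / 2 := by
  classical
  obtain ⟨K, S, hK, hS⟩ := h
  -- suffix closure of `S`
  let S' : Finset (List ℕ) := insert [] (S.biUnion (fun s => s.tails.toFinset))
  have hnil : [] ∈ S' := Finset.mem_insert_self _ _
  have hSS' : S ⊆ S' := by
    intro s hs
    refine Finset.mem_insert_of_mem (Finset.mem_biUnion.mpr ⟨s, hs, ?_⟩)
    simp
  have hcl : ∀ n v, n :: v ∈ S' → v ∈ S' := by
    intro n v hv
    rcases Finset.mem_insert.mp hv with h0 | h1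
    · exact absurd h0 (by simp)
    · obtain ⟨s, hs, hs'⟩ := Finset.mem_biUnion.mp h1
      refine Finset.mem_insert_of_mem (Finset.mem_biUnion.mpr ⟨s, hs, ?_⟩)
      rw [List.mem_toFinset, List.mem_tails] at hs' ⊢
      exact (List.suffix_cons n v).trans hs'
  refine ⟨{y : ESum | ∀ i : (↥K × ↥S'), evK i.1.1 i.2.1 y = 0},
    cof_iInter_ker (fun i : (↥K × ↥S') => evK i.1.1 i.2.1), fun y hy => ?_⟩
  refine lp_two_pythagoras x0 y (fun k => ?_)
  by_cases hk : k ∈ K
  · have hM := lemmaM PotentialModel.global S' hnil hcl ((x0 k : Xk k) : Amb) ((y k : Xk k) : Amb)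
      (Submodule.span_mono (Set.image_mono (by exact_mod_cast hSS')) (hS k))
      (Xk_le_modelSpace k (y k).2)
      (fun s hs => hy (⟨⟨k, hk⟩, ⟨s, hs⟩⟩ : ↥K × ↥S'))
    simpa only [Submodule.coe_norm, Submodule.coe_add, Submodule.coe_sub] using hM
  · rw [hK k hk]
    simp only [norm_zero, zero_add, zero_sub, norm_neg]
    have h0 := norm_nonneg (y k)
    have : Real.sqrt (0 ^ 2 + ‖y k‖ ^ 2 / 4) = ‖y k‖ / 2 := by
      rw [show (0 : ℝ) ^ 2 + ‖y k‖ ^ 2 / 4 = (‖y k‖ / 2) ^ 2 by ring]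
      exact Real.sqrt_sq (by positivity)
    rw [this]
    linarith

/-- the averaged midpoint modulus of `ESum`, given density of the finitely supported vectors. -/
theorem midpoint_ESum {D : Set ESum} (hD : Dense D) (hfs : ∀ x ∈ D, FinSupp x) (t : ℝ) :
    ∀ x : ESum, ‖x‖ = 1 → ∀ η : ℝ, 0 < η → ∃ F : Set ESum, Cof F ∧ ∀ y ∈ F, ‖y‖ = 1 →
      Real.sqrt (1 + t ^ 2 / 4) - 1 - η ≤ (‖x + t • y‖ + ‖x - t • y‖) / 2 - 1 :=
  midpointModulus_of_dense hD (fun x0 hx0 => pythagoras_of_finSupp (hfs x0 hx0)) t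

end Crest.Agent.AMUC.SumNoAUC
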