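import Crest.Agent.Lib_AMUC.Common
import Crest.Agent.Lib_AMUC.NoAUC
import Crest.Agent.Lib_AMUC.WeakNull
import Crest.Prelude.Def_TreePotentials

/-! S0168, part "separable, infinite-dimensional, no equivalent AUC norm", for all four
bounded-potential models (helper2). -/

set_option autoImplicit false

namespace Crest.Agent.AMUC.TreeNoAUC

open Crest.AnalysisR Crest.AnalysisR.TreePotential

/-- indicator of a vertex -/
noncomputable def delta (u : List ℕ) : List ℕ → ℝ := fun v => if v = u then 1 else 0

theorem pot_delta (u : List ℕ) : ∀ s : List ℕ,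
    pathPotential (delta u) s = if u <:+ s then 1 else 0
  | [] => by
    simp only [pathPotential, delta, List.suffix_nil]
    by_cases h : u = []
    · simp [h]
    · rw [if_neg h, if_neg (fun h' => h h'.symm)]
  | a :: v => by
    rw [pathPotential, pot_delta u v]
    simp only [delta, List.suffix_cons_iff]
    by_cases h1 : u = a :: v
    · subst h1
      have : ¬ (a :: v) <:+ v := by
        intro h
        have := h.length_le
        simp at this
      simp [this]
    · have h1' : ¬ (a :: v = u) := fun h => h1 h.symm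
      by_cases h2 : u <:+ v <;> simp [h1, h1', h2]

theorem sum_delta_sq_le {ι : Type*} (u : List ℕ) (A : Finset ι) (g : ι → List ℕ)
    (hg : Function.Injective g) : ∑ i ∈ A, delta u (g i) ^ 2 ≤ 1 := by
  classical
  have h1 : ∀ i ∈ A, delta u (g i) ^ 2 = if g i = u then 1 else 0 := by
    intro i _
    unfold delta
    split_ifs <;> simp
  rw [Finset.sum_congr rfl h1, Finset.sum_ite, Finset.sum_const_zero, add_zero, Finset.sum_const,
    nsmul_eq_mul, mul_one]
  have : (A.filter fun i => g i = u).card ≤ 1 := by
    rw [Finset.card_le_one]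
    intro a ha b hb
    rw [Finset.mem_filter] at ha hb
    exact hg (ha.2.trans hb.2.symm)
  exact_mod_cast this

theorem isTest_delta (m : PotentialModel) {u : List ℕ} (hu : u ≠ []) : IsTest m (delta u) := by
  refine ⟨fun s => ?_, ?_⟩
  · rw [pot_delta]
    split_ifs <;> simp
  · have hchild : ∀ (r : List ℕ) (A : Finset ℕ), ∑ n ∈ A, delta u (n :: r) ^ 2 ≤ 1 := fun r A =>
      sum_delta_sq_le u A (fun n => n :: r) (fun a b h => (List.cons.inj h).1)
    have hall : ∀ A : Finset (List ℕ), ∑ v ∈ A, delta u v ^ 2 ≤ 1 := fun A =>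
      sum_delta_sq_le u A id Function.injective_id
    cases m with
    | rootlessSibling =>
      refine ⟨?_, hchild⟩
      unfold delta
      rw [if_neg (fun h => hu h.symm)]
    | rootedSibling => exact hchild
    | antichain =>
      refine ⟨?_, fun A _ => hall A⟩
      refine (Set.finite_singleton u).subset ?_
      intro v hv
      rw [Function.mem_support] at hv
      unfold delta at hv
      by_contra h
      exact hv (if_neg h)
    | global => exact hall

/-- the indicator test -/
noncomputable def deltaT (m : PotentialModel) (u : List ℕ) (hu : u ≠ []) : PotentialTest m :=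
  ⟨delta u, isTest_delta m hu⟩

theorem child_sq_sum_le {m : PotentialModel} (f : PotentialTest m) (s : List ℕ) (A : Finset ℕ) :
    ∑ n ∈ A, f.1 (n :: s) ^ 2 ≤ 1 := by
  classical
  have hinj : Set.InjOn (fun n : ℕ => n :: s) A := fun a _ b _ h => (List.cons.inj h).1
  obtain ⟨f, hf1, hf2⟩ := f
  cases m with
  | rootlessSibling => exact hf2.2 s A
  | rootedSibling => exact hf2 s A
  | antichain =>
    have := hf2.2 (A.image fun n => n :: s) ?_
    · rwa [Finset.sum_image hinj] at this
    · intro u hu v hv huv hsuf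
      rw [Finset.mem_image] at hu hv
      obtain ⟨a, _, rfl⟩ := hu
      obtain ⟨b, _, rfl⟩ := hv
      exact huv (hsuf.eq_of_length (by simp))
  | global =>
    have := hf2 (A.image fun n => n :: s)
    rwa [Finset.sum_image hinj] at this

/-- coordinate vectors as elements of the model space -/
noncomputable def e (m : PotentialModel) (u : List ℕ) : modelSpace m :=
  ⟨coordVector m u, Submodule.le_topologicalClosure _ (Submodule.subset_span ⟨u, rfl⟩)⟩

theorem e_apply (m : PotentialModel) (u : List ℕ) (f : PotentialTest m) :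
    ((e m u : modelSpace m) : lp (fun _ : PotentialTest m => ℝ) ⊤) f = f.1 u := rfl

/-- sums of the coordinate vectors along root paths -/
noncomputable def z (m : PotentialModel) : List ℕ → modelSpace m
  | [] => e m []
  | a :: v => z m v + e m (a :: v)

theorem z_apply (m : PotentialModel) (f : PotentialTest m) : ∀ s : List ℕ,
    ((z m s : modelSpace m) : lp (fun _ : PotentialTest m => ℝ) ⊤) f = pathPotential f.1 s
  | [] => rfl
  | a :: v => by
    rw [z, pathPotential, Submodule.coe_add, lp.coeFn_add, Pi.add_apply, z_apply m f v, e_apply]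

theorem norm_le_of_apply {m : PotentialModel} (x : modelSpace m) {C : ℝ} (hC : 0 ≤ C)
    (h : ∀ f : PotentialTest m, |(x : lp (fun _ : PotentialTest m => ℝ) ⊤) f| ≤ C) : ‖x‖ ≤ C := by
  rw [Submodule.coe_norm]
  exact lp.norm_le_of_forall_le hC h

theorem apply_le_norm {m : PotentialModel} (x : modelSpace m) (f : PotentialTest m) :
    |(x : lp (fun _ : PotentialTest m => ℝ) ⊤) f| ≤ ‖x‖ := by
  rw [Submodule.coe_norm]
  exact lp.norm_apply_le_norm ENNReal.top_ne_zero
    (x : lp (fun _ : PotentialTest m => ℝ) ⊤) f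

theorem norm_z_le (m : PotentialModel) (s : List ℕ) : ‖z m s‖ ≤ 1 := by
  refine norm_le_of_apply _ zero_le_one fun f => ?_
  rw [z_apply]
  exact f.2.1 s

theorem one_le_norm_e (m : PotentialModel) {u : List ℕ} (hu : u ≠ []) : 1 ≤ ‖e m u‖ := by
  have := apply_le_norm (e m u) (deltaT m u hu)
  rw [e_apply] at this
  simpa [deltaT, delta] using this

theorem one_le_norm_z (m : PotentialModel) {u : List ℕ} (hu : u ≠ []) : 1 ≤ ‖z m u‖ := by
  have := apply_le_norm (z m u) (deltaT m u hu)
  rw [z_apply] at this
  simpa [deltaT, pot_delta] using this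

theorem sum_apply (m : PotentialModel) (s : List ℕ) (A : Finset ℕ) (a : ℕ → ℝ)
    (f : PotentialTest m) :
    ((∑ n ∈ A, a n • e m (n :: s) : modelSpace m) : lp (fun _ : PotentialTest m => ℝ) ⊤) f
      = ∑ n ∈ A, a n * f.1 (n :: s) := by
  classical
  induction A using Finset.induction_on with
  | empty => simp
  | insert n A hn ih =>
    rw [Finset.sum_insert hn, Finset.sum_insert hn, Submodule.coe_add, lp.coeFn_add, Pi.add_apply,
      ih, Submodule.coe_smul, lp.coeFn_smul, Pi.smul_apply, e_apply, smul_eq_mul]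

theorem l2_dom (m : PotentialModel) (s : List ℕ) (A : Finset ℕ) (a : ℕ → ℝ) :
    ‖∑ n ∈ A, a n • e m (n :: s)‖ ≤ 1 * Real.sqrt (∑ n ∈ A, a n ^ 2) := by
  rw [one_mul]
  refine norm_le_of_apply _ (Real.sqrt_nonneg _) fun f => ?_
  rw [sum_apply]
  apply Real.abs_le_sqrt
  calc (∑ n ∈ A, a n * f.1 (n :: s)) ^ 2
      ≤ (∑ n ∈ A, a n ^ 2) * ∑ n ∈ A, f.1 (n :: s) ^ 2 := Finset.sum_mul_sq_le_sq_mul_sq _ _ _
    _ ≤ (∑ n ∈ A, a n ^ 2) * 1 :=
      mul_le_mul_of_nonneg_left (child_sq_sum_le f s A) (Finset.sum_nonneg fun _ _ => sq_nonneg _)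
    _ = _ := mul_one _

theorem treeProp_z (m : PotentialModel) : ∀ (j : ℕ) (s : List ℕ), TreeProp 1 1 j (z m s)
  | 0, s => norm_z_le m s
  | j + 1, s => by
    refine ⟨norm_z_le m s, fun F hF ε hε => ?_⟩
    obtain ⟨n, y, hy, hny⟩ :=
      (l2_dominated_near_cof (dn := fun n => e m (n :: s)) (l2_dom m s) hF hε).exists
    have hz : z m (n :: s) - z m s = e m (n :: s) := by
      rw [z, add_sub_cancel_left]
    refine ⟨z m (n :: s), y, hy, ?_, ?_, treeProp_z m j (n :: s)⟩
    · rw [hz]; exact hny
    · rw [hz]; exact one_le_norm_e m (by simp)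

theorem noAUC_model (m : PotentialModel) (N : modelSpace m → ℝ) (hN : EquivNorm N) : ¬ AUC N :=
  noAUC (B := 1) (d := 1) (ρ := 1) one_pos one_pos
    (fun j => ⟨z m [0], one_le_norm_z m (by simp), treeProp_z m j [0]⟩) N hN

/-- **S0168, third part.** -/
theorem modelBanach_noAUC (m : PotentialModel) (N : (modelBanach m).X → ℝ)
    (hN : (modelBanach m).IsEquivNorm N) : ¬ (modelBanach m).IsAUC N :=
  noAUC_model m N hN

/-- **S0168, first part.** -/
theorem modelBanach_sep_infdim (m : PotentialModel) : (modelBanach m).IsSeparableInfiniteDim := by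
  have h : TopologicalSpace.IsSeparable
      (modelSpace m : Set (lp (fun _ : PotentialTest m => ℝ) ⊤)) := by
    rw [modelSpace, Submodule.topologicalClosure_coe]
    exact (Set.countable_range _).isSeparable.span.closure
  have h1 : TopologicalSpace.SeparableSpace (modelSpace m) := h.separableSpace
  have h2 : ¬ FiniteDimensional ℝ (modelSpace m) :=
    not_finiteDimensional_of_noAUC (noAUC_model m)
  exact ⟨h1, h2⟩

end Crest.Agent.AMUC.TreeNoAUC
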