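import Mathlib
import Crest.Prelude.Def_AsymptoticConvexity
import Crest.Prelude.Def_TreePotentials
import Crest.Agent.Lib_AMUC.Reflexive

/-!
Package P5a of the AMUC row: the level spaces `Xk k` of the global tree-potential model are
linearly homeomorphic to `ℓ²`.
-/

set_option autoImplicit false

namespace Crest.Agent.AMUC

open Crest.AnalysisR Crest.AnalysisR.TreePotential
open scoped ENNReal

/-- vertices of depth at most `k` -/
abbrev Vk (k : ℕ) : Type := {s : List ℕ // s.length ≤ k}

/-- the ambient space of the global model -/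
abbrev Amb : Type := lp (fun _ : PotentialTest PotentialModel.global => ℝ) ⊤

/-- the Hilbert space `ℓ²(Vk k)` -/
abbrev Hk (k : ℕ) : Type := lp (fun _ : Vk k => ℝ) 2

/-- the closed span of the coordinate vectors of depth at most `k` -/
noncomputable def Xk (k : ℕ) : Submodule ℝ Amb :=
  (Submodule.span ℝ (coordVector PotentialModel.global '' {s | s.length ≤ k})).topologicalClosure

lemma Xk_le_modelSpace (k : ℕ) : Xk k ≤ modelSpace PotentialModel.global := by
  apply Submodule.topologicalClosure_mono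
  apply Submodule.span_mono
  rintro _ ⟨s, _, rfl⟩
  exact ⟨s, rfl⟩

lemma toReal_two : (2 : ℝ≥0∞).toReal = 2 := by norm_num

/-- sums over finsets of `Vk k` of a function on vertices -/
lemma sum_Vk_eq (k : ℕ) (F : List ℕ → ℝ) (A : Finset (Vk k)) :
    ∑ s ∈ A, F s.1 = ∑ u ∈ A.map ⟨Subtype.val, Subtype.val_injective⟩, F u := by
  rw [Finset.sum_map]; rfl

/-- the restriction of a global test to `Vk k`, as an element of `ℓ²` -/
noncomputable def restr (k : ℕ) (f : PotentialTest PotentialModel.global) : Hk k :=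
  ⟨fun s => f.1 s.1, by
    apply memℓp_gen' (C := 1)
    intro A
    simp only [toReal_two, Real.norm_eq_abs, Real.rpow_two, sq_abs]
    rw [sum_Vk_eq k (fun u => f.1 u ^ 2)]
    exact f.2.2 _⟩

lemma restr_apply (k : ℕ) (f : PotentialTest PotentialModel.global) (s : Vk k) :
    restr k f s = f.1 s.1 := rfl

lemma norm_restr_le (k : ℕ) (f : PotentialTest PotentialModel.global) : ‖restr k f‖ ≤ 1 := by
  apply lp.norm_le_of_forall_sum_le (by norm_num) (by norm_num)
  intro A
  simp only [toReal_two, Real.norm_eq_abs, Real.rpow_two, sq_abs, restr_apply, one_pow]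
  rw [sum_Vk_eq k (fun u => f.1 u ^ 2)]
  exact f.2.2 _

/-- the synthesis operator `ℓ²(Vk k) → ℓ^∞(tests)` -/
noncomputable def synthLin (k : ℕ) : Hk k →ₗ[ℝ] Amb where
  toFun x := ⟨fun f => inner ℝ (restr k f) x, memℓp_infty ⟨‖x‖, by
    rintro _ ⟨f, rfl⟩
    calc ‖inner ℝ (restr k f) x‖ ≤ ‖restr k f‖ * ‖x‖ := norm_inner_le_norm _ _
      _ ≤ 1 * ‖x‖ := by gcongr; exact norm_restr_le k f
      _ = ‖x‖ := one_mul _⟩⟩
  map_add' x y := by
    ext f
    show inner ℝ (restr k f) (x + y) = inner ℝ (restr k f) x + inner ℝ (restr k f) y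
    exact inner_add_right _ _ _
  map_smul' c x := by
    ext f
    simp [inner_smul_right]

lemma synthLin_apply (k : ℕ) (x : Hk k) (f : PotentialTest PotentialModel.global) :
    synthLin k x f = inner ℝ (restr k f) x := rfl

lemma norm_synthLin_le (k : ℕ) (x : Hk k) : ‖synthLin k x‖ ≤ ‖x‖ := by
  apply lp.norm_le_of_forall_le (norm_nonneg _)
  intro f
  rw [synthLin_apply]
  calc ‖inner ℝ (restr k f) x‖ ≤ ‖restr k f‖ * ‖x‖ := norm_inner_le_norm _ _
    _ ≤ 1 * ‖x‖ := by gcongr; exact norm_restr_le k f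
    _ = ‖x‖ := one_mul _

noncomputable def synth (k : ℕ) : Hk k →L[ℝ] Amb :=
  (synthLin k).mkContinuous 1 (fun x => by rw [one_mul]; exact norm_synthLin_le k x)

lemma synth_apply (k : ℕ) (x : Hk k) (f : PotentialTest PotentialModel.global) :
    synth k x f = inner ℝ (restr k f) x := rfl


/-- potentials of families supported on depth `≤ k` are sums over at most `k + 1` vertices -/
lemma pathPotential_eq_sum (k : ℕ) (g : List ℕ → ℝ) (hg : ∀ s, k < s.length → g s = 0)
    (u : List ℕ) :
    ∃ A : Finset (List ℕ), A.card ≤ k + 1 ∧ A.card ≤ u.length + 1 ∧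
      (∀ w ∈ A, w.length ≤ u.length) ∧ pathPotential g u = ∑ w ∈ A, g w := by
  induction u with
  | nil => exact ⟨{[]}, by simp, by simp, by simp, by simp [pathPotential]⟩
  | cons a v ih =>
    obtain ⟨A, h1, h2, h3, h4⟩ := ih
    by_cases hk : (a :: v).length ≤ k
    · have hnot : (a :: v) ∉ A := by
        intro hmem
        have := h3 _ hmem
        simp at this
      refine ⟨insert (a :: v) A, ?_, ?_, ?_, ?_⟩
      · rw [Finset.card_insert_of_notMem hnot]
        simp only [List.length_cons] at hk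
        omega
      · rw [Finset.card_insert_of_notMem hnot]
        simp only [List.length_cons]
        omega
      · intro w hw
        rcases Finset.mem_insert.mp hw with rfl | hw
        · exact le_rfl
        · have := h3 w hw
          simp only [List.length_cons]
          omega
      · rw [Finset.sum_insert hnot, pathPotential, h4, add_comm]
    · refine ⟨A, h1, ?_, ?_, ?_⟩
      · simp only [List.length_cons]; omega
      · intro w hw
        have := h3 w hw
        simp only [List.length_cons]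
        omega
      · rw [pathPotential, h4, hg _ (by omega), add_zero]

/-- a family supported on depth `≤ k` with all square sums at most `1 / (k + 1)` is a global test -/
lemma isTest_of_small (k : ℕ) (g : List ℕ → ℝ) (hg : ∀ s, k < s.length → g s = 0)
    (hsq : ∀ A : Finset (List ℕ), ∑ u ∈ A, g u ^ 2 ≤ 1 / ((k : ℝ) + 1)) :
    IsTest PotentialModel.global g := by
  have hk : (0 : ℝ) < (k : ℝ) + 1 := by positivity
  refine ⟨fun s => ?_, fun A => (hsq A).trans ?_⟩
  · obtain ⟨A, h1, _, _, h4⟩ := pathPotential_eq_sum k g hg s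
    rw [h4, ← sq_le_one_iff_abs_le_one]
    calc (∑ w ∈ A, g w) ^ 2 ≤ A.card * ∑ w ∈ A, g w ^ 2 := sq_sum_le_card_mul_sum_sq
      _ ≤ ((k : ℝ) + 1) * (1 / ((k : ℝ) + 1)) := by
          apply mul_le_mul _ (hsq A) (Finset.sum_nonneg (fun _ _ => sq_nonneg _)) hk.le
          exact_mod_cast h1
      _ = 1 := by field_simp
  · rw [div_le_one hk]
    linarith [(Nat.cast_nonneg k : (0 : ℝ) ≤ k)]

/-- extension by zero of an `ℓ²` vector, rescaled -/
noncomputable def extend (k : ℕ) (c : ℝ) (x : Hk k) : List ℕ → ℝ :=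
  fun s => if h : s.length ≤ k then c * x ⟨s, h⟩ else 0

lemma extend_val (k : ℕ) (c : ℝ) (x : Hk k) (s : Vk k) : extend k c x s.1 = c * x s := by
  simp [extend, s.2]

lemma extend_of_lt (k : ℕ) (c : ℝ) (x : Hk k) (s : List ℕ) (h : k < s.length) :
    extend k c x s = 0 := by
  simp [extend, not_le.mpr h]

lemma sum_extend_sq_le (k : ℕ) (c : ℝ) (x : Hk k) (A : Finset (List ℕ)) :
    ∑ u ∈ A, extend k c x u ^ 2 ≤ c ^ 2 * ‖x‖ ^ 2 := by
  classical
  have h1 : ∑ u ∈ A, extend k c x u ^ 2 = ∑ u ∈ A with u.length ≤ k, extend k c x u ^ 2 := by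
    rw [Finset.sum_filter]
    apply Finset.sum_congr rfl
    intro u _
    by_cases h : u.length ≤ k
    · simp [h]
    · simp [h, extend_of_lt k c x u (not_le.mp h)]
  have h2 := Finset.sum_subtype_eq_sum_filter (s := A) (f := fun u => extend k c x u ^ 2)
    (p := fun u => u.length ≤ k)
  rw [h1, ← h2]
  have h3 := lp.sum_rpow_le_norm_rpow (p := 2) (by norm_num) x (A.subtype (fun u => u.length ≤ k))
  simp only [toReal_two, Real.norm_eq_abs, Real.rpow_two, sq_abs] at h3
  calc ∑ s ∈ A.subtype (fun u => u.length ≤ k), extend k c x s.1 ^ 2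
      = c ^ 2 * ∑ s ∈ A.subtype (fun u => u.length ≤ k), x s ^ 2 := by
        rw [Finset.mul_sum]
        apply Finset.sum_congr rfl
        intro s _
        rw [extend_val, mul_pow]
    _ ≤ c ^ 2 * ‖x‖ ^ 2 := by gcongr

/-- the norming test of a nonzero `ℓ²` vector -/
lemma isTest_extend (k : ℕ) (x : Hk k) (hx : x ≠ 0) :
    IsTest PotentialModel.global (extend k (‖x‖ * Real.sqrt ((k : ℝ) + 1))⁻¹ x) := by
  have hk : (0 : ℝ) < (k : ℝ) + 1 := by positivity
  have hn : 0 < ‖x‖ := norm_pos_iff.mpr hx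
  apply isTest_of_small k _ (extend_of_lt k _ x)
  intro A
  refine (sum_extend_sq_le k _ x A).trans (le_of_eq ?_)
  rw [inv_pow, mul_pow, Real.sq_sqrt hk.le]
  field_simp

lemma restr_extend (k : ℕ) (c : ℝ) (x : Hk k) (h : IsTest PotentialModel.global (extend k c x)) :
    restr k ⟨extend k c x, h⟩ = c • x := by
  ext s
  rw [lp.coeFn_smul, Pi.smul_apply, smul_eq_mul]
  exact extend_val k c x s

lemma le_norm_synth (k : ℕ) (x : Hk k) : ‖x‖ / Real.sqrt ((k : ℝ) + 1) ≤ ‖synth k x‖ := by
  by_cases hx : x = 0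
  · simp [hx]
  have hk : (0 : ℝ) < (k : ℝ) + 1 := by positivity
  have hn : 0 < ‖x‖ := norm_pos_iff.mpr hx
  have hs : 0 < Real.sqrt ((k : ℝ) + 1) := Real.sqrt_pos.mpr hk
  have h := lp.norm_apply_le_norm (p := ⊤) (by simp) (synth k x) ⟨_, isTest_extend k x hx⟩
  have h' : |inner ℝ (restr k ⟨_, isTest_extend k x hx⟩) x| ≤ ‖synth k x‖ := h
  rw [restr_extend, inner_smul_left, real_inner_self_eq_norm_sq] at h'
  refine le_trans (le_of_eq ?_) ((le_abs_self _).trans h')
  simp only [conj_trivial]
  field_simp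


open Classical in
lemma synth_single (k : ℕ) (s : Vk k) (a : ℝ) :
    synth k (lp.single 2 s a) = a • coordVector PotentialModel.global s.1 := by
  ext f
  have h1 : synth k (lp.single 2 s a) f = inner ℝ (restr k f) (lp.single 2 s a) := rfl
  rw [h1, lp.inner_single_right, lp.coeFn_smul, Pi.smul_apply, smul_eq_mul]
  have h2 : (coordVector PotentialModel.global s.1) f = f.1 s.1 := rfl
  rw [h2, restr_apply]
  simp

lemma antilipschitz_synth (k : ℕ) :
    AntilipschitzWith (Real.toNNReal (Real.sqrt ((k : ℝ) + 1))) (synth k) := by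
  apply AddMonoidHomClass.antilipschitz_of_bound
  intro x
  have hk : (0 : ℝ) < (k : ℝ) + 1 := by positivity
  have hs : 0 < Real.sqrt ((k : ℝ) + 1) := Real.sqrt_pos.mpr hk
  rw [Real.coe_toNNReal _ hs.le]
  have := le_norm_synth k x
  rw [div_le_iff₀ hs] at this
  linarith

lemma injective_synth (k : ℕ) : Function.Injective (synth k) :=
  (antilipschitz_synth k).injective

lemma isClosed_range_synth (k : ℕ) : IsClosed (Set.range (synth k)) :=
  (antilipschitz_synth k).isClosed_range (synth k).uniformContinuous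

open Classical in
lemma range_synth (k : ℕ) : (synth k).range = Xk k := by
  apply le_antisymm
  · rintro _ ⟨x, rfl⟩
    have hsum := (synth k).hasSum (lp.hasSum_single (p := 2) (by simp) x)
    have hcl : IsClosed (Xk k : Set Amb) := Submodule.isClosed_topologicalClosure _
    refine hcl.mem_of_tendsto hsum (Filter.Eventually.of_forall (fun A => ?_))
    apply Submodule.sum_mem
    intro s _
    rw [synth_single]
    apply Submodule.smul_mem
    apply Submodule.le_topologicalClosure
    apply Submodule.subset_span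
    exact ⟨s.1, s.2, rfl⟩
  · apply Submodule.topologicalClosure_minimal _ _ (isClosed_range_synth k)
    rw [Submodule.span_le]
    rintro _ ⟨s, hs, rfl⟩
    refine ⟨lp.single 2 (⟨s, hs⟩ : Vk k) 1, ?_⟩
    have := synth_single k (⟨s, hs⟩ : Vk k) 1
    rw [one_smul] at this
    exact this

/-- `ℓ²(Vk k)` is linearly homeomorphic to `Xk k`. -/
noncomputable def XkEquiv (k : ℕ) : Hk k ≃L[ℝ] Xk k :=
  ((synth k).equivRange (injective_synth k) (isClosed_range_synth k)).trans
    (ContinuousLinearEquiv.ofEq _ _ (range_synth k))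

lemma XkEquiv_coe (k : ℕ) (x : Hk k) : ((XkEquiv k x : Xk k) : Amb) = synth k x := rfl

lemma norm_XkEquiv_le (k : ℕ) (x : Hk k) : ‖XkEquiv k x‖ ≤ ‖x‖ :=
  norm_synthLin_le k x

lemma le_norm_XkEquiv (k : ℕ) (x : Hk k) : ‖x‖ / Real.sqrt ((k : ℝ) + 1) ≤ ‖XkEquiv k x‖ :=
  le_norm_synth k x

theorem refl_Xk (k : ℕ) : Refl (Xk k) :=
  Refl.of_equiv (XkEquiv k) (refl_of_hilbert (Hk k))

instance (k : ℕ) : CompleteSpace (Xk k) :=
  (Submodule.isClosed_topologicalClosure _).completeSpace_coe

instance (k : ℕ) : TopologicalSpace.SeparableSpace (Xk k) := by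
  have h1 : TopologicalSpace.IsSeparable (Xk k : Set Amb) := by
    have hc : (coordVector PotentialModel.global '' {s | s.length ≤ k}).Countable :=
      (Set.to_countable _).image _
    exact (hc.isSeparable.span (R := ℝ)).closure
  exact h1.separableSpace

end Crest.Agent.AMUC
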