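import Crest.Agent.Lib_AMUC.Common
import Crest.Agent.Lib_AMUC.NoAUC
import Crest.Agent.Lib_AMUC.WeakNull
import Crest.Agent.Lib_AMUC.TreeNoAUC
import Crest.Agent.Lib_AMUC.Xk

/-! S0166, part (d): the `ℓ²`-sum `lp (fun k => Xk k) 2` has no equivalent AUC norm
(hence is infinite-dimensional): trees of height `j` live in `Xk (j+1)` (helper2). -/

set_option autoImplicit false

namespace Crest.Agent.AMUC.SumNoAUC

open Crest.AnalysisR Crest.AnalysisR.TreePotential Crest.Agent.AMUC.TreeNoAUC
open scoped ENNReal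

/-- the `ℓ²`-sum of the spaces `Xk k` -/
abbrev ESum : Type := lp (fun k : ℕ => Xk k) 2

theorem coord_mem_Xk {K : ℕ} {u : List ℕ} (h : u.length ≤ K) :
    coordVector PotentialModel.global u ∈ Xk K :=
  Submodule.le_topologicalClosure _ (Submodule.subset_span ⟨u, h, rfl⟩)

open Classical in
/-- coordinate vectors in `Xk K` (zero if the vertex is too deep) -/
noncomputable def eK (K : ℕ) (u : List ℕ) : Xk K :=
  if h : u.length ≤ K then ⟨coordVector PotentialModel.global u, coord_mem_Xk h⟩ else 0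

theorem eK_coe {K : ℕ} {u : List ℕ} (h : u.length ≤ K) :
    ((eK K u : Xk K) : Amb) = ((e PotentialModel.global u : modelSpace PotentialModel.global) : Amb) := by
  rw [eK, dif_pos h]
  rfl

/-- path sums in `Xk K` -/
noncomputable def zK (K : ℕ) : List ℕ → Xk K
  | [] => eK K []
  | a :: v => zK K v + eK K (a :: v)

theorem zK_coe {K : ℕ} : ∀ {s : List ℕ}, s.length ≤ K →
    ((zK K s : Xk K) : Amb) = ((z PotentialModel.global s : modelSpace PotentialModel.global) : Amb)
  | [], h => eK_coe h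
  | a :: v, h => by
    have hv : v.length ≤ K := by
      simp only [List.length_cons] at h
      omega
    rw [zK, z, Submodule.coe_add, Submodule.coe_add, zK_coe hv, eK_coe h]

theorem norm_zK {K : ℕ} {s : List ℕ} (h : s.length ≤ K) :
    ‖zK K s‖ = ‖z PotentialModel.global s‖ := by
  rw [Submodule.coe_norm, Submodule.coe_norm, zK_coe h]

theorem norm_eK {K : ℕ} {s : List ℕ} (h : s.length ≤ K) :
    ‖eK K s‖ = ‖e PotentialModel.global s‖ := by
  rw [Submodule.coe_norm, Submodule.coe_norm, eK_coe h]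

theorem l2_domK {K : ℕ} {s : List ℕ} (h : s.length + 1 ≤ K) (A : Finset ℕ) (a : ℕ → ℝ) :
    ‖∑ n ∈ A, a n • eK K (n :: s)‖ ≤ 1 * Real.sqrt (∑ n ∈ A, a n ^ 2) := by
  refine le_trans (le_of_eq ?_) (l2_dom PotentialModel.global s A a)
  rw [Submodule.coe_norm, Submodule.coe_norm, Submodule.coe_sum, Submodule.coe_sum]
  congr 1
  refine Finset.sum_congr rfl fun n _ => ?_
  rw [Submodule.coe_smul, Submodule.coe_smul, eK_coe (by simpa using h)]

theorem l2_domE {K : ℕ} {s : List ℕ} (h : s.length + 1 ≤ K) (A : Finset ℕ) (a : ℕ → ℝ) :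
    ‖∑ n ∈ A, a n • (lp.single 2 K (eK K (n :: s)) : ESum)‖
      ≤ 1 * Real.sqrt (∑ n ∈ A, a n ^ 2) := by
  have : ∑ n ∈ A, a n • (lp.single 2 K (eK K (n :: s)) : ESum)
      = lp.single 2 K (∑ n ∈ A, a n • eK K (n :: s)) := by
    rw [← lp.singleAddMonoidHom_apply, map_sum]
    refine Finset.sum_congr rfl fun n _ => ?_
    rw [lp.singleAddMonoidHom_apply, lp.single_smul]
  rw [this, lp.norm_single (by norm_num)]
  exact l2_domK h A a

theorem treeProp_zK (K : ℕ) : ∀ (j : ℕ) (s : List ℕ), s.length + j ≤ K →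
    TreeProp 1 1 j (lp.single 2 K (zK K s) : ESum)
  | 0, s, h => by
    show ‖(lp.single 2 K (zK K s) : ESum)‖ ≤ 1
    rw [lp.norm_single (by norm_num), norm_zK (by omega)]
    exact norm_z_le _ s
  | j + 1, s, h => by
    refine ⟨?_, fun F hF ε hε => ?_⟩
    · rw [lp.norm_single (by norm_num), norm_zK (by omega)]
      exact norm_z_le _ s
    obtain ⟨n, y, hy, hny⟩ :=
      (l2_dominated_near_cof (dn := fun n => (lp.single 2 K (eK K (n :: s)) : ESum))
        (l2_domE (by omega)) hF hε).exists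
    have hz : (lp.single 2 K (zK K (n :: s)) : ESum) - lp.single 2 K (zK K s)
        = lp.single 2 K (eK K (n :: s)) := by
      rw [← lp.single_sub, zK, add_sub_cancel_left]
    refine ⟨lp.single 2 K (zK K (n :: s)), y, hy, ?_, ?_, treeProp_zK K j (n :: s) ?_⟩
    · rw [hz]; exact hny
    · rw [hz, lp.norm_single (by norm_num), norm_eK (by simp only [List.length_cons]; omega)]
      exact one_le_norm_e _ (by simp)
    · simp only [List.length_cons]; omega

/-- **S0166 (d)**: no equivalent norm on the `ℓ²`-sum is AUC. -/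
theorem noAUC_ESum (N : ESum → ℝ) (hN : EquivNorm N) : ¬ AUC N :=
  noAUC (B := 1) (d := 1) (ρ := 1) one_pos one_pos
    (fun j => ⟨lp.single 2 (j + 1) (zK (j + 1) [0]), by
      rw [lp.norm_single (by norm_num), norm_zK (by simp)]
      exact one_le_norm_z _ (by simp), treeProp_zK (j + 1) j [0] (by simp; omega)⟩) N hN

theorem not_finiteDimensional_ESum : ¬ FiniteDimensional ℝ ESum :=
  not_finiteDimensional_of_noAUC noAUC_ESum

end Crest.Agent.AMUC.SumNoAUC
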