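import Crest.Prelude.Def_TreePotentials

/-!
Basics on the tree potential models: algebra of path potentials, tests, evaluation functionals.
-/

set_option autoImplicit false
open Crest.AnalysisR Crest.AnalysisR.TreePotential

namespace Crest.Agent.AMUC

/-! ### path potentials -/

lemma pathPotential_add (f g : List ℕ → ℝ) (s : List ℕ) :
    pathPotential (fun u => f u + g u) s = pathPotential f s + pathPotential g s := by
  induction s with
  | nil => simp [pathPotential]
  | cons a v ih => simp only [pathPotential, ih]; ring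

lemma pathPotential_smul (c : ℝ) (f : List ℕ → ℝ) (s : List ℕ) :
    pathPotential (fun u => c * f u) s = c * pathPotential f s := by
  induction s with
  | nil => simp [pathPotential]
  | cons a v ih => simp only [pathPotential, ih]; ring

lemma pathPotential_neg (f : List ℕ → ℝ) (s : List ℕ) :
    pathPotential (fun u => - f u) s = - pathPotential f s := by
  induction s with
  | nil => simp [pathPotential]
  | cons a v ih => simp only [pathPotential, ih]; ring

lemma pathPotential_zero (s : List ℕ) : pathPotential (fun _ => (0 : ℝ)) s = 0 := by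
  induction s with
  | nil => simp [pathPotential]
  | cons a v ih => simp only [pathPotential, ih]; ring

/-- the coefficient family with a prescribed potential -/
def coef (Ψ : List ℕ → ℝ) : List ℕ → ℝ
  | [] => Ψ []
  | n :: v => Ψ (n :: v) - Ψ v

lemma pathPotential_coef (Ψ : List ℕ → ℝ) (s : List ℕ) : pathPotential (coef Ψ) s = Ψ s := by
  induction s with
  | nil => simp [pathPotential, coef]
  | cons a v ih => simp only [pathPotential, ih, coef]; ring

/-- indicator of a vertex -/
noncomputable def ind (s : List ℕ) : List ℕ → ℝ := fun u => if u = s then 1 else 0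

lemma pathPotential_ind (s u : List ℕ) :
    pathPotential (ind s) u = if s <:+ u then 1 else 0 := by
  induction u with
  | nil =>
    simp only [pathPotential, ind, List.suffix_nil]
    by_cases h : s = []
    · simp [h]
    · rw [if_neg h, if_neg (fun h' => h h'.symm)]
  | cons a v ih =>
    simp only [pathPotential, ih, ind, List.suffix_cons_iff]
    by_cases h1 : s = a :: v
    · have h2 : ¬ s <:+ v := by
        intro h
        have := h.length_le
        rw [h1] at this
        simp at this
      simp [h1.symm, h2]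
    · have h1' : ¬ (a :: v = s) := fun h => h1 h.symm
      simp [h1, h1']

lemma abs_pathPotential_ind_le (s u : List ℕ) : |pathPotential (ind s) u| ≤ 1 := by
  rw [pathPotential_ind]
  split_ifs <;> simp

lemma sum_ind_sq_le {ι : Type*} (s : List ℕ) (A : Finset ι) (j : ι → List ℕ)
    (hj : Set.InjOn j A) : ∑ i ∈ A, ind s (j i) ^ 2 ≤ 1 := by
  classical
  have h1 : ∀ i ∈ A, ind s (j i) ^ 2 = if j i = s then 1 else 0 := by
    intro i _
    simp only [ind]
    split_ifs <;> simp
  rw [Finset.sum_congr rfl h1, Finset.sum_ite, Finset.sum_const_zero, add_zero, Finset.sum_const,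
    nsmul_eq_mul, mul_one]
  have : (A.filter fun i => j i = s).card ≤ 1 := by
    rw [Finset.card_le_one]
    intro x hx y hy
    rw [Finset.mem_filter] at hx hy
    exact hj hx.1 hy.1 (hx.2.trans hy.2.symm)
  exact_mod_cast this

/-! ### tests -/

/-- the extra condition passes to families dominated by an `ℓ²`-combination of two tests -/
lemma extra_comb (m : PotentialModel) (f g h : List ℕ → ℝ) (a b : ℝ) (hab : a ^ 2 + b ^ 2 ≤ 1)
    (hf : ExtraCondition m f) (hg : ExtraCondition m g)
    (hh : ∀ u, h u ^ 2 ≤ a ^ 2 * f u ^ 2 + b ^ 2 * g u ^ 2) : ExtraCondition m h := by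
  have key : ∀ {ι : Type} (A : Finset ι) (j : ι → List ℕ), ∑ i ∈ A, f (j i) ^ 2 ≤ 1 →
      ∑ i ∈ A, g (j i) ^ 2 ≤ 1 → ∑ i ∈ A, h (j i) ^ 2 ≤ 1 := by
    intro ι A j h1 h2
    calc ∑ i ∈ A, h (j i) ^ 2 ≤ ∑ i ∈ A, (a ^ 2 * f (j i) ^ 2 + b ^ 2 * g (j i) ^ 2) :=
          Finset.sum_le_sum fun i _ => hh (j i)
      _ = a ^ 2 * ∑ i ∈ A, f (j i) ^ 2 + b ^ 2 * ∑ i ∈ A, g (j i) ^ 2 := by
          rw [Finset.sum_add_distrib, Finset.mul_sum, Finset.mul_sum]
      _ ≤ a ^ 2 * 1 + b ^ 2 * 1 := by
          gcongr
      _ ≤ 1 := by linarith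
  cases m with
  | rootlessSibling =>
    refine ⟨?_, fun r A => key A (fun n => n :: r) (hf.2 r A) (hg.2 r A)⟩
    have := hh []
    rw [hf.1, hg.1] at this
    have h0 : h [] ^ 2 ≤ 0 := by simpa using this
    exact pow_eq_zero_iff (two_ne_zero) |>.mp (le_antisymm h0 (sq_nonneg _))
  | rootedSibling => exact fun r A => key A (fun n => n :: r) (hf r A) (hg r A)
  | antichain =>
    refine ⟨(hf.1.union hg.1).subset ?_, fun A hA => key A id (hf.2 A hA) (hg.2 A hA)⟩
    intro u hu
    by_contra hcon
    simp only [Set.mem_union, Function.mem_support, not_or, not_not] at hcon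
    have := hh u
    rw [hcon.1, hcon.2] at this
    have h0 : h u ^ 2 ≤ 0 := by simpa using this
    exact hu (pow_eq_zero_iff (two_ne_zero) |>.mp (le_antisymm h0 (sq_nonneg _)))
  | global => exact fun A => key A id (hf A) (hg A)

lemma extra_zero (m : PotentialModel) : ExtraCondition m (fun _ => (0 : ℝ)) := by
  cases m <;> simp [ExtraCondition]

lemma isTest_zero (m : PotentialModel) : IsTest m (fun _ => (0 : ℝ)) :=
  ⟨fun s => by rw [pathPotential_zero]; simp, extra_zero m⟩

/-- the zero test -/
def zeroT (m : PotentialModel) : PotentialTest m := ⟨fun _ => 0, isTest_zero m⟩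

instance (m : PotentialModel) : Nonempty (PotentialTest m) := ⟨zeroT m⟩

lemma isTest_neg {m : PotentialModel} {f : List ℕ → ℝ} (hf : IsTest m f) :
    IsTest m (fun u => - f u) := by
  refine ⟨fun s => by rw [pathPotential_neg, abs_neg]; exact hf.1 s, ?_⟩
  refine extra_comb m f f _ 1 0 (by norm_num) hf.2 hf.2 (fun u => ?_)
  simp

/-- the opposite test -/
def negT {m : PotentialModel} (φ : PotentialTest m) : PotentialTest m :=
  ⟨fun u => - φ.1 u, isTest_neg φ.2⟩

lemma extra_ind (m : PotentialModel) (s : List ℕ) (hs : s ≠ []) : ExtraCondition m (ind s) := by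
  have inj : ∀ (r : List ℕ) (A : Finset ℕ), Set.InjOn (fun n : ℕ => n :: r) A := by
    intro r A x _ y _ h
    simpa using h
  cases m with
  | rootlessSibling =>
    exact ⟨by simp [ind, hs.symm], fun r A => sum_ind_sq_le s A _ (inj r A)⟩
  | rootedSibling => exact fun r A => sum_ind_sq_le s A _ (inj r A)
  | antichain =>
    refine ⟨(Set.finite_singleton s).subset ?_, fun A _ => sum_ind_sq_le s A id
      (Function.injective_id.injOn)⟩
    intro u hu
    by_contra h
    exact hu (by simp only [ind]; rw [if_neg (fun h' => h (Set.mem_singleton_iff.mpr h'))])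
  | global => exact fun A => sum_ind_sq_le s A id (Function.injective_id.injOn)

lemma extra_ind_nil (m : PotentialModel) (hm : m ≠ .rootlessSibling) :
    ExtraCondition m (ind []) := by
  have inj : ∀ (r : List ℕ) (A : Finset ℕ), Set.InjOn (fun n : ℕ => n :: r) A := by
    intro r A x _ y _ h
    simpa using h
  cases m with
  | rootlessSibling => exact absurd rfl hm
  | rootedSibling => exact fun r A => sum_ind_sq_le [] A _ (inj r A)
  | antichain =>
    refine ⟨(Set.finite_singleton []).subset ?_, fun A _ => sum_ind_sq_le [] A id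
      (Function.injective_id.injOn)⟩
    intro u hu
    by_contra h
    exact hu (by simp only [ind]; rw [if_neg (fun h' => h (Set.mem_singleton_iff.mpr h'))])
  | global => exact fun A => sum_ind_sq_le [] A id (Function.injective_id.injOn)

open Classical in
/-- the coefficient family of the vertex test: the indicator of `s`, except that it is `0` for the
root in the rootless model -/
noncomputable def dl (m : PotentialModel) (s : List ℕ) : List ℕ → ℝ :=
  if m = .rootlessSibling ∧ s = [] then fun _ => 0 else ind s

lemma isTest_dl (m : PotentialModel) (s : List ℕ) : IsTest m (dl m s) := by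
  unfold dl
  split_ifs with h
  · exact isTest_zero m
  · refine ⟨abs_pathPotential_ind_le s, ?_⟩
    by_cases hs : s = []
    · subst hs
      exact extra_ind_nil m (fun hm => h ⟨hm, rfl⟩)
    · exact extra_ind m s hs

/-- the vertex test `δ_s` -/
noncomputable def deltaT (m : PotentialModel) (s : List ℕ) : PotentialTest m :=
  ⟨dl m s, isTest_dl m s⟩

lemma deltaT_val_of_ne (m : PotentialModel) (s : List ℕ) (hs : s ≠ []) :
    (deltaT m s).1 = ind s := by
  simp [deltaT, dl, hs]

/-- for every test `g`, `g s • δ_s` is `g s` times the indicator of `s` -/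
lemma test_mul_dl {m : PotentialModel} (g : PotentialTest m) (s u : List ℕ) :
    g.1 s * (deltaT m s).1 u = g.1 s * ind s u := by
  simp only [deltaT, dl]
  split_ifs with h
  · obtain ⟨rfl, rfl⟩ := h
    have : g.1 [] = 0 := g.2.2.1
    rw [this]; ring
  · rfl

/-! ### the model space -/

/-- evaluation at a test, on the ambient `ℓ^∞` -/
noncomputable def evA {m : PotentialModel} (φ : PotentialTest m) :
    lp (fun _ : PotentialTest m => ℝ) ⊤ →L[ℝ] ℝ :=
  lp.evalCLM ℝ (fun _ : PotentialTest m => ℝ) ⊤ φ

@[simp] lemma evA_apply {m : PotentialModel} (φ : PotentialTest m)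
    (y : lp (fun _ : PotentialTest m => ℝ) ⊤) : evA φ y = y φ := rfl

@[simp] lemma coordVector_apply (m : PotentialModel) (s : List ℕ) (φ : PotentialTest m) :
    coordVector m s φ = φ.1 s := rfl

/-- a continuous functional on the ambient space killing all coordinate vectors kills the model
space -/
lemma clm_eq_zero_of_coord {m : PotentialModel}
    (L : lp (fun _ : PotentialTest m => ℝ) ⊤ →L[ℝ] ℝ) (hL : ∀ s, L (coordVector m s) = 0)
    (y : lp (fun _ : PotentialTest m => ℝ) ⊤) (hy : y ∈ modelSpace m) : L y = 0 := by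
  have h1 : Submodule.span ℝ (Set.range (coordVector m)) ≤ LinearMap.ker (L : _ →ₗ[ℝ] ℝ) := by
    rw [Submodule.span_le]
    rintro _ ⟨s, rfl⟩
    exact hL s
  have h2 : modelSpace m ≤ LinearMap.ker (L : _ →ₗ[ℝ] ℝ) :=
    Submodule.topologicalClosure_minimal _ h1 L.isClosed_ker
  exact h2 hy

/-- LIN: elements of the model space are linear in the test -/
lemma lin_comb {m : PotentialModel} {ι : Type*} (y : lp (fun _ : PotentialTest m => ℝ) ⊤)
    (hy : y ∈ modelSpace m) (φ0 : PotentialTest m) (A : Finset ι) (c : ι → ℝ)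
    (φ : ι → PotentialTest m) (h : ∀ u, φ0.1 u = ∑ i ∈ A, c i * (φ i).1 u) :
    y φ0 = ∑ i ∈ A, c i * y (φ i) := by
  have := clm_eq_zero_of_coord (evA φ0 - ∑ i ∈ A, c i • evA (φ i)) (fun s => by
    simp [h s]) y hy
  simp only [sub_apply, sum_apply, smul_apply, evA_apply, smul_eq_mul] at this
  linarith

lemma apply_negT {m : PotentialModel} (y : lp (fun _ : PotentialTest m => ℝ) ⊤)
    (hy : y ∈ modelSpace m) (φ : PotentialTest m) : y (negT φ) = - y φ := by
  have := lin_comb y hy (negT φ) (Finset.univ : Finset Unit) (fun _ => -1) (fun _ => φ)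
    (fun u => by simp [negT])
  simpa using this

lemma abs_apply_le_norm {m : PotentialModel} (y : lp (fun _ : PotentialTest m => ℝ) ⊤)
    (φ : PotentialTest m) : |y φ| ≤ ‖y‖ := by
  have := lp.norm_apply_le_norm (p := ⊤) (by simp) y φ
  simpa using this

lemma apply_le_norm {m : PotentialModel} (y : lp (fun _ : PotentialTest m => ℝ) ⊤)
    (φ : PotentialTest m) : y φ ≤ ‖y‖ := (le_abs_self _).trans (abs_apply_le_norm y φ)

/-- the norm is almost attained at a test (without absolute value) -/
lemma exists_test_gt {m : PotentialModel} (y : lp (fun _ : PotentialTest m => ℝ) ⊤)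
    (hy : y ∈ modelSpace m) (ε : ℝ) (hε : 0 < ε) : ∃ φ : PotentialTest m, ‖y‖ - ε < y φ := by
  by_contra hcon
  push Not at hcon
  have : ‖y‖ ≤ ‖y‖ - ε := by
    apply lp.norm_le_of_forall_le' (‖y‖ - ε)
    intro φ
    rw [Real.norm_eq_abs, abs_le]
    refine ⟨?_, hcon φ⟩
    have := hcon (negT φ)
    rw [apply_negT y hy] at this
    linarith
  linarith

lemma norm_le_of_forall_apply_le {m : PotentialModel} (y : lp (fun _ : PotentialTest m => ℝ) ⊤)
    (hy : y ∈ modelSpace m) (C : ℝ) (h : ∀ φ : PotentialTest m, y φ ≤ C) : ‖y‖ ≤ C := by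
  apply lp.norm_le_of_forall_le' C
  intro φ
  rw [Real.norm_eq_abs, abs_le]
  refine ⟨?_, h φ⟩
  have := h (negT φ)
  rw [apply_negT y hy] at this
  linarith

lemma coordVector_mem (m : PotentialModel) (s : List ℕ) : coordVector m s ∈ modelSpace m :=
  Submodule.le_topologicalClosure _ (Submodule.subset_span ⟨s, rfl⟩)

/-- elements of the span of the coordinate vectors of `S` only see the values of tests on `S` -/
lemma span_apply_eq {m : PotentialModel} (S : Set (List ℕ))
    (x : lp (fun _ : PotentialTest m => ℝ) ⊤)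
    (hx : x ∈ Submodule.span ℝ (coordVector m '' S)) (a : ℝ) (φ ψ : PotentialTest m)
    (h : ∀ s ∈ S, φ.1 s = a * ψ.1 s) : x φ = a * x ψ := by
  induction hx using Submodule.span_induction with
  | mem x hx =>
    obtain ⟨s, hs, rfl⟩ := hx
    exact h s hs
  | zero => simp
  | add x y _ _ hx hy =>
    simp only [lp.coeFn_add, Pi.add_apply, hx, hy]; ring
  | smul c x _ hx =>
    simp only [lp.coeFn_smul, Pi.smul_apply, hx, smul_eq_mul]; ring

end Crest.Agent.AMUC
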