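import Crest.Agent.Lib_AMUC.TreeM
import Crest.Agent.Lib_AMUC.Common

/-!
The averaged midpoint modulus of the tree potential models.
-/

set_option autoImplicit false
open Crest.AnalysisR Crest.AnalysisR.TreePotential

namespace Crest.Agent.AMUC

/-- ancestor closure of a finite set of vertices -/
def sufClosure (S0 : Finset (List ℕ)) : Finset (List ℕ) :=
  insert [] (S0.biUnion fun s => s.tails.toFinset)

lemma nil_mem_sufClosure (S0 : Finset (List ℕ)) : [] ∈ sufClosure S0 := by simp [sufClosure]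

lemma subset_sufClosure (S0 : Finset (List ℕ)) : S0 ⊆ sufClosure S0 := by
  intro s hs
  simp only [sufClosure, Finset.mem_insert, Finset.mem_biUnion, List.mem_toFinset, List.mem_tails]
  exact Or.inr ⟨s, hs, List.suffix_refl s⟩

lemma sufClosure_closed (S0 : Finset (List ℕ)) (n : ℕ) (v : List ℕ)
    (h : n :: v ∈ sufClosure S0) : v ∈ sufClosure S0 := by
  simp only [sufClosure, Finset.mem_insert, Finset.mem_biUnion, List.mem_toFinset, List.mem_tails]
    at h ⊢
  rcases h with h | ⟨s, hs, h⟩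
  · exact absurd h (by simp)
  · exact Or.inr ⟨s, hs, (List.suffix_cons n v).trans h⟩

/-- an element of the span of all coordinate vectors lies in the span of finitely many, indexed by
an ancestor-closed set containing the root -/
lemma exists_finite_support {m : PotentialModel} (x : lp (fun _ : PotentialTest m => ℝ) ⊤)
    (hx : x ∈ Submodule.span ℝ (Set.range (coordVector m))) :
    ∃ S : Finset (List ℕ), [] ∈ S ∧ (∀ n v, n :: v ∈ S → v ∈ S) ∧
      x ∈ Submodule.span ℝ (coordVector m '' (S : Set (List ℕ))) := by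
  obtain ⟨c, rfl⟩ := (Finsupp.mem_span_range_iff_exists_finsupp).mp hx
  refine ⟨sufClosure c.support, nil_mem_sufClosure _, sufClosure_closed _, ?_⟩
  apply Submodule.sum_mem
  intro s hs
  exact Submodule.smul_mem _ _ (Submodule.subset_span ⟨s, subset_sufClosure _ hs, rfl⟩)

lemma sqrt_lip_aux (X0 d c : ℝ) (hX : 0 ≤ X0) (hd : 0 ≤ d) (hc : 0 ≤ c) (h : 1 ≤ X0 + d) :
    Real.sqrt (1 + c) ≤ Real.sqrt (X0 ^ 2 + c) + d := by
  have h0 : X0 ≤ Real.sqrt (X0 ^ 2 + c) := Real.le_sqrt_of_sq_le (by linarith)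
  have h1 : Real.sqrt (X0 ^ 2 + c) ^ 2 = X0 ^ 2 + c := Real.sq_sqrt (by positivity)
  rw [Real.sqrt_le_left (by positivity)]
  nlinarith

/-- evaluation at a test as a functional on the model space -/
noncomputable def evM {m : PotentialModel} (φ : PotentialTest m) : modelSpace m →L[ℝ] ℝ :=
  (evA φ).comp (modelSpace m).subtypeL

@[simp] lemma evM_apply {m : PotentialModel} (φ : PotentialTest m) (y : modelSpace m) :
    evM φ y = (y : lp (fun _ : PotentialTest m => ℝ) ⊤) φ := rfl

/-- the averaged midpoint estimate at every unit centre, for all `t > 0` -/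
theorem model_midpoint (m : PotentialModel) (t : ℝ) (ht : 0 < t) (x : modelSpace m)
    (hx : ‖x‖ = 1) (η : ℝ) (hη : 0 < η) :
    ∃ F : Set (modelSpace m), Cof F ∧ ∀ y ∈ F, ‖y‖ = 1 →
      Real.sqrt (1 + t ^ 2 / 4) - 1 - η ≤ (‖x + t • y‖ + ‖x - t • y‖) / 2 - 1 := by
  have hxc : (x : lp (fun _ : PotentialTest m => ℝ) ⊤) ∈
      closure (Submodule.span ℝ (Set.range (coordVector m)) : Set _) := by
    have h := x.2
    unfold modelSpace at h
    rwa [← SetLike.mem_coe, Submodule.topologicalClosure_coe] at h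
  obtain ⟨x0, hx0, hd⟩ := Metric.mem_closure_iff.mp hxc (η / 2) (half_pos hη)
  obtain ⟨S, hnil, hS, hx0S⟩ := exists_finite_support x0 hx0
  rw [dist_eq_norm] at hd
  refine ⟨{y | ∀ s : S, evM (deltaT m s.1) y = 0}, cof_iInter_ker _, ?_⟩
  intro y hy hy1
  have hM := lemmaM m S hnil hS x0 (t • (y : lp (fun _ : PotentialTest m => ℝ) ⊤)) hx0S
    ((modelSpace m).smul_mem t y.2) (fun s hs => by
      have := hy ⟨s, hs⟩
      simp only [evM_apply] at this
      simp [this])
  have hty : ‖t • (y : lp (fun _ : PotentialTest m => ℝ) ⊤)‖ = t := by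
    rw [norm_smul, Real.norm_eq_abs, abs_of_pos ht]
    have : ‖(y : lp (fun _ : PotentialTest m => ℝ) ⊤)‖ = 1 := hy1
    rw [this, mul_one]
  rw [hty] at hM
  have hx1 : ‖(x : lp (fun _ : PotentialTest m => ℝ) ⊤)‖ = 1 := hx
  have e1 : ‖x0 + t • (y : lp (fun _ : PotentialTest m => ℝ) ⊤)‖ ≤ ‖x + t • y‖ + η / 2 := by
    have : x0 + t • (y : lp (fun _ : PotentialTest m => ℝ) ⊤)
        = ((x + t • y : modelSpace m) : lp (fun _ : PotentialTest m => ℝ) ⊤)
          - ((x : lp (fun _ : PotentialTest m => ℝ) ⊤) - x0) := by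
      push_cast; abel
    rw [this]
    refine (norm_sub_le _ _).trans ?_
    have h2 : ‖((x + t • y : modelSpace m) : lp (fun _ : PotentialTest m => ℝ) ⊤)‖ = ‖x + t • y‖ := rfl
    linarith
  have e2 : ‖x0 - t • (y : lp (fun _ : PotentialTest m => ℝ) ⊤)‖ ≤ ‖x - t • y‖ + η / 2 := by
    have : x0 - t • (y : lp (fun _ : PotentialTest m => ℝ) ⊤)
        = ((x - t • y : modelSpace m) : lp (fun _ : PotentialTest m => ℝ) ⊤)
          - ((x : lp (fun _ : PotentialTest m => ℝ) ⊤) - x0) := by
      push_cast; abel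
    rw [this]
    refine (norm_sub_le _ _).trans ?_
    have h2 : ‖((x - t • y : modelSpace m) : lp (fun _ : PotentialTest m => ℝ) ⊤)‖ = ‖x - t • y‖ := rfl
    linarith
  have e3 : 1 ≤ ‖x0‖ + η / 2 := by
    have : ‖(x : lp (fun _ : PotentialTest m => ℝ) ⊤)‖ ≤ ‖x0‖ + ‖(x : lp (fun _ : PotentialTest m => ℝ) ⊤) - x0‖ := by
      have := norm_add_le x0 ((x : lp (fun _ : PotentialTest m => ℝ) ⊤) - x0)
      simpa using this
    linarith
  have e4 := sqrt_lip_aux ‖x0‖ (η / 2) (t ^ 2 / 4) (norm_nonneg _) (half_pos hη).le (by positivity) e3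
  linarith

theorem modelBanach_midpoint (m : PotentialModel) (t : ℝ) (ht : 0 < t) :
    (modelBanach m).MidpointModulusGE (modelBanach m).norm t (Real.sqrt (1 + t ^ 2 / 4) - 1) := by
  intro x hx η hη
  exact model_midpoint m t ht x hx η hη

end Crest.Agent.AMUC
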